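import Vale.Agent.P154.AF.Split

/-! Accumulating the messages of one level -/

namespace Vale.Agent.P154.AF

open Finset Equiv

variable {S T : Tg} {O : Type} {W : O → Vec} {g : Vec → ℝ}

def sm (w : Vec) : ℝ := w 0 + w 1 + w 2

lemma sm_eq (w : Vec) : sm w = 3 * Zm w := by
  simp only [sm, Zm, Fin.sum_univ_three]; push_cast; ring

lemma sym_sm : Sym sm := fun σ w => by
  have := Equiv.sum_comp σ w
  simp only [Fin.sum_univ_three] at this
  exact this

lemma Cv.sub_sm (h : Cv g) (a : ℝ) (ha : ∀ i, a ≤ g (Pi.single i 1)) :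
    Cv fun w => g w - a * sm w := by
  refine ⟨⟨(h.cont.sub (by unfold sm; fun_prop)).neg, fun u v => ?_, fun c u hc => ?_⟩,
    fun i => ?_⟩
  · have := h.add u v
    simp only [sm, Pi.add_apply]
    linarith
  · rw [h.smul hc]
    simp only [sm, Pi.smul_apply, smul_eq_mul]
    ring
  · have : sm (Pi.single i 1) = 1 := by fin_cases i <;> simp [sm]
    rw [this]
    linarith [ha i]

lemma cv_zero : Cv fun _ => 0 := ⟨⟨by fun_prop, by simp, by simp⟩, by simp⟩

lemma cv_sm : Cv sm := by simpa using cv_zero.sub_sm (-1) (by simp)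

lemma ex_sm (hW : IsExp W) : Ex W sm = 3 := by
  have := hW.hasSum_Zm.mul_left 3
  simp only [← sm_eq, mul_one] at this
  exact (cv_sm.hasSum hW).unique this

lemma Cv.chan (h : Cv g) {l : ℝ} (h0 : 0 ≤ l) (h1 : l ≤ 1 / 2) : Cv fun w => g (chan l w) :=
  h.comp _ fun i j => by
    rw [chan_apply]
    fin_cases i <;> fin_cases j <;> simp <;> linarith

lemma Sym.chan (h : Sym g) (l : ℝ) : Sym fun w => g (chan l w) := fun σ w => by
  have : AF.chan l (w ∘ σ) = AF.chan l w ∘ σ := by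
    ext i
    have := sym_sm σ w
    unfold sm at this
    rw [chan_apply, this, Function.comp_apply, Function.comp_apply, chan_apply]
  beta_reduce
  rw [this, h]

lemma ex_chan (hW : IsExp W) (h : Cv g) {l : ℝ} (h0 : 0 ≤ l) (h1 : l ≤ 1 / 2) :
    Ex (shE (-l) W) g = Ex W fun w => g (chan l w) := by
  rw [hW.ex_sh (adm_neg h0 h1)]
  refine hW.ex_congr (h.cont.comp (continuous_shr _)) (h.chan h0 h1).cont fun a ha => ?_
  congr 1
  ext i
  simp [shr, chan, ha.zm]

lemma sm_chan (l : ℝ) (w : Vec) : sm (chan l w) = sm w := by simp only [sm, chan_apply]; ring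

/-- state of the computation: the packed rays lie below the message experiment -/
def St (S : Tg) {O : Type} (Y : O → Vec) (mw : ℕ) : Prop :=
  ∀ g, Cv g → Sym g → ∑ J ∈ range (nm S + 1), dig mw J * g (mr S J) ≤ 2 ^ 40 * Ex Y g

def Acc (T : Tg) (P : ℕ) (x : (Vec → ℝ) → ℝ) : Prop :=
  ∃ (N M : ℕ) (F k : (Vec → ℝ) → ℝ), P = N + M * B ^ (nm T + 1) ∧ Fam (QM T) N F ∧
    (∀ g, Cv g → Sym g → F g ≤ 2 ^ 40 * k fun w => g (chan T.l w)) ∧ 2 ^ 40 * k sm ≤ M ∧
    (∀ g, Cv g → k g ≤ x g) ∧ ∀ g (a : ℝ), k (fun w => g w - a * sm w) = k g - a * k sm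

lemma Acc.add {P P' : ℕ} {x x' : (Vec → ℝ) → ℝ} (h : Acc T P x) (h' : Acc T P' x') :
    Acc T (P + P') fun g => x g + x' g := by
  obtain ⟨N, M, F, k, e1, e2, e3, e4, e5, e6⟩ := h
  obtain ⟨N', M', F', k', e1', e2', e3', e4', e5', e6'⟩ := h'
  refine ⟨N + N', M + M', _, fun g => k g + k' g, by rw [e1, e1']; ring, e2.add e2',
    fun g hg hs => ?_, ?_, fun g hg => add_le_add (e5 g hg) (e5' g hg), fun g a => ?_⟩
  · linarith [e3 g hg hs, e3' g hg hs]
  · push_cast; linarith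
  · beta_reduce; rw [e6, e6']; ring

lemma Acc.zero {x : (Vec → ℝ) → ℝ} (hx : ∀ g, Cv g → 0 ≤ x g) : Acc T 0 x :=
  ⟨0, 0, _, fun _ => 0, by simp, Fam.zero, by simp, by simp, hx, by simp⟩

lemma Acc.sum {α : Type} (s : Finset α) {P : α → ℕ} {x : α → (Vec → ℝ) → ℝ}
    (h : ∀ a ∈ s, Acc T (P a) (x a)) : Acc T (∑ a ∈ s, P a) fun g => ∑ a ∈ s, x a g := by
  classical
  induction s using Finset.induction_on with
  | empty => exact Acc.zero fun _ _ => by simp
  | insert a s ha ih =>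
    simp only [sum_insert ha]
    exact (h a (mem_insert_self _ _)).add (ih fun b hb => h b (mem_insert_of_mem hb))

lemma Pat.acc {P M : ℕ} {y : Vec} (h : Pat T P ((2 : ℝ) ^ 40 • chan T.l y) M)
    (hy : ∀ i, 0 ≤ y i) (hM : 2 ^ 40 * sm y ≤ M) (d : ℕ) : Acc T (d * P) fun g => d * g y := by
  rcases h with rfl | ⟨N, F, h1, h2, h3⟩
  · exact Acc.zero fun g hg => mul_nonneg (Nat.cast_nonneg _) (hg.nonneg hy)
  · refine ⟨d * N, d * M, _, fun g => d * g y, by rw [h1]; ring, h2.smul d, fun g hg hs => ?_, ?_,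
      fun _ _ => le_rfl, fun g a => by ring⟩
    · have := h3 g hg hs
      rw [hg.smul (by positivity)] at this
      nlinarith [mul_le_mul_of_nonneg_left this (Nat.cast_nonneg d : (0 : ℝ) ≤ d)]
    · push_cast
      nlinarith [mul_le_mul_of_nonneg_left hM (Nat.cast_nonneg d : (0 : ℝ) ≤ d)]

lemma abs_le_sm (h : T.ok) (J : ℕ) (ρ : Vec) (q : QM T J ρ) : |ρ 2| ≤ sm ρ := by
  rw [q.2, sm, mr_two, abs_one]
  linarith [mr_nonneg h J 0, mr_nonneg h J 1]

lemma B_real : (B : ℝ) = 2 ^ 88 := by rw [B]; norm_num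

lemma fin2_spec (h : T.ok) (hW : IsExp W) {acc : ℕ} {x : (Vec → ℝ) → ℝ} (hA : Acc T acc x)
    (hx : ∀ g, Cv g → Sym g → x g ≤ 2 ^ 40 * Ex W g) :
    St T (shE (-T.l) W) (fin2 (nm T + 1) (patV T) acc) := by
  obtain ⟨N, M, F, k, e1, e2, e3, e4, e5, e6⟩ := hA
  have l0 := T.l_nonneg
  have l1 := h.l_le
  have q1 : ∀ J ρ, QM T J ρ → ρ 2 = 1 := fun J ρ q => by rw [q.2, mr_two]
  have ks : k sm ≤ 2 ^ 40 * 3 := by
    have := (e5 _ cv_sm).trans (hx _ cv_sm sym_sm)
    rwa [ex_sm hW] at this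
  have hN : N < B ^ (nm T + 1) := by
    refine e2.lt q1 ?_ _ fun J ρ q => q.1
    have h1 := e3 _ cv_sm sym_sm
    simp only [sm_chan] at h1
    have h2 := e2.mono (abs_le_sm h)
    rw [B_real]
    change F sm ≤ 2 ^ 40 * k sm at h1
    linarith
  have hp : 0 < B ^ (nm T + 1) := pow_pos B_pos _
  obtain ⟨NV, FV, v1, v2, v3⟩ : ∃ NV FV, patV T = NV ∧ Fam (QM T) NV FV ∧
      ∀ g, Cv g → Sym g → FV g ≤ 2 ^ 40 * g (chan T.l ![0, 0, 1]) := by
    rcases img_spec h 1 0 0 0 (u' := 0) (v' := 0) (by simp) (by simp) with e | ⟨NV, FV, a, b, c⟩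
    · refine ⟨0, _, e, Fam.zero, fun g hg _ => ?_⟩
      have := (hg.chan l0 l1).nonneg (w := ![0, 0, 1]) fun i => by fin_cases i <;> simp
      positivity
    · refine ⟨NV, FV, by simpa [patV] using a, b, fun g hg hs => ?_⟩
      have := c g hg hs
      rwa [hg.smul (by positivity), Nat.cast_one, one_smul] at this
  set wv := (3626777458843887524118528 - M) / 2 ^ 40 with hwv
  have e0 : fin2 (nm T + 1) (patV T) acc = ms (N + wv * NV) 0 (mask1 (nm T + 1)) := by
    rw [fin2, shl_eq, shr_eq, shr_eq, one_mul, Nat.mul_eq, Bpow, v1, e1]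
    congr 2
    · exact (Nat.add_mul_mod_self_right _ _ _).trans (Nat.mod_eq_of_lt hN)
    · rw [Nat.add_mul_div_right _ _ hp, Nat.div_eq_of_lt hN, zero_add]; rfl
  have w1 : (wv : ℝ) ≤ 2 ^ 40 * 3 - k sm := by
    rcases le_total M 3626777458843887524118528 with c | c
    · have : (wv : ℝ) ≤ ((3626777458843887524118528 - M : ℕ) : ℝ) / (2 ^ 40 : ℕ) :=
        Nat.cast_div_le
      rw [Nat.cast_sub c] at this
      push_cast at this
      linarith
    · rw [hwv, Nat.sub_eq_zero_of_le c, Nat.zero_div]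
      push_cast
      linarith
  have key : ∀ g, Cv g → Sym g → F g + wv * FV g ≤ 2 ^ 40 * (2 ^ 40 * Ex (shE (-T.l) W) g) := by
    intro g hg hs
    have G := hg.chan l0 l1
    have Gs := hs.chan T.l
    rw [ex_chan hW hg l0 l1]
    have a1 := e3 g hg hs
    have a2 := v3 g hg hs
    set G' : Vec → ℝ := fun w => g (chan T.l w)
    change FV g ≤ 2 ^ 40 * G' ![0, 0, 1] at a2
    set e := G' ![0, 0, 1]
    have e_0 : 0 ≤ e := G.nonneg fun i => by fin_cases i <;> simp
    have C := G.sub_sm e fun i => by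
      rw [← Gs (swap i 2)]
      refine le_of_eq (congrArg G' ?_)
      ext j
      fin_cases i <;> fin_cases j <;> simp [swap_apply_of_ne_of_ne]
    have a3 := (e5 _ C).trans (hx _ C fun σ w => by rw [Gs σ w, sym_sm σ w])
    have a4 : Ex W (fun w => G' w - e * sm w) = Ex W G' - e * 3 := by
      have := (G.hasSum hW).sub ((cv_sm.hasSum hW).mul_left e)
      rw [ex_sm hW] at this
      exact (C.hasSum hW).unique this
    rw [e6, a4] at a3
    have a5 := mul_le_mul_of_nonneg_left a2 (Nat.cast_nonneg wv : (0 : ℝ) ≤ wv)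
    have a6 := mul_le_mul_of_nonneg_right w1 e_0
    nlinarith
  intro g hg hs
  have fam := e2.add (v2.smul wv)
  have := fam.read_ms q1 (by
      have h1 := key _ cv_sm sym_sm
      rw [ex_sm (hW.sh (adm_neg l0 l1))] at h1
      have h2 := fam.mono (abs_le_sm h)
      rw [B_real]
      linarith) 0 (mask1 (nm T + 1)) (fun j => (dig_mask1 _ j).1) (range (nm T + 1)) id
    (Set.injOn_id _) (mr T) (fun a _ _ ρ q => q.2.symm) (Φ := g)
    (fun J ρ q => q.2 ▸ hg.nonneg (mr_nonneg h J)) fun a _ => hg.nonneg (mr_nonneg h a)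
  rw [e0]
  have h2 := key g hg hs
  simp only [id] at this
  linarith

end Vale.Agent.P154.AF
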