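import Vale.Agent.P154.AF.Prog

namespace Vale.Agent.P154.AF

open Finset

def B : ℕ := 2 ^ 88

lemma B_pos : 0 < B := by unfold B; positivity

lemma force_eq {β : Type} (n : ℕ) (f : ℕ → β) : force n f = f n := by cases n <;> rfl

lemma shl_eq (c k : ℕ) : Nat.shiftLeft c k = c * 2 ^ k := Nat.shiftLeft_eq c k

lemma shr_eq (c k : ℕ) : Nat.shiftRight c k = c / 2 ^ k := Nat.shiftRight_eq_div_pow c k

lemma Bpow (J : ℕ) : 2 ^ (88 * J) = B ^ J := by rw [B, ← pow_mul]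

lemma dg_eq (c J : ℕ) : dg c J = c * B ^ J := by rw [dg, shl_eq, Nat.mul_eq, Bpow]

lemma dig_eq (N J : ℕ) : dig N J = N / B ^ J % B := by
  rw [dig, shr_eq, Nat.mul_eq, Bpow]; rfl

lemma dig_lt (N J : ℕ) : dig N J < B := by rw [dig_eq]; exact Nat.mod_lt _ B_pos

lemma dig_div (N s J : ℕ) : dig (N / B ^ s) J = dig N (J + s) := by
  rw [dig_eq, dig_eq, Nat.div_div_eq_div_mul, ← pow_add, add_comm]

lemma dig_mod (N n J : ℕ) (h : J < n) : dig (N % B ^ n) J = dig N J := by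
  obtain ⟨k, rfl⟩ := Nat.exists_eq_add_of_lt h
  rw [dig_eq, dig_eq, add_assoc, pow_add, Nat.mod_mul_right_div_self, pow_succ',
    Nat.mod_mul_right_mod]

lemma sum_lt (a : ℕ → ℕ) : ∀ n, (∀ J < n, a J < B) → ∑ J ∈ range n, a J * B ^ J < B ^ n
  | 0, _ => by simp
  | n + 1, h => by
    rw [sum_range_succ, pow_succ]
    have h1 := sum_lt a n fun J hJ => h J (by omega)
    have h2 : (a n + 1) * B ^ n ≤ B * B ^ n := Nat.mul_le_mul_right _ (h n (by omega))
    nlinarith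

lemma dig_sum (a : ℕ → ℕ) : ∀ n, (∀ J < n, a J < B) → ∀ j,
    dig (∑ J ∈ range n, a J * B ^ J) j = if j < n then a j else 0
  | 0, _, j => by simp [dig_eq]
  | n + 1, h, j => by
    have h1 := sum_lt a n fun J hJ => h J (by omega)
    have hp : 0 < B ^ n := pow_pos B_pos n
    rcases lt_trichotomy j n with hj | rfl | hj
    · rw [← dig_mod _ n j hj, sum_range_succ, Nat.add_mul_mod_self_right, Nat.mod_eq_of_lt h1,
        dig_sum a n (fun J hJ => h J (by omega)), if_pos hj, if_pos (by omega)]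
    · rw [dig_eq, sum_range_succ, Nat.add_mul_div_right _ _ hp, Nat.div_eq_of_lt h1, zero_add,
        Nat.mod_eq_of_lt (h j (by omega)), if_pos (by omega)]
    · rw [if_neg (by omega), dig_eq, Nat.div_eq_of_lt, Nat.zero_mod]
      exact (sum_lt a (n + 1) h).trans_le (Nat.pow_le_pow_right B_pos hj)

lemma sum_dig (N : ℕ) : ∀ n, ∑ J ∈ range n, dig N J * B ^ J = N % B ^ n
  | 0 => by simp [Nat.mod_one]
  | n + 1 => by rw [sum_range_succ, sum_dig N n, dig_eq, pow_succ, Nat.mod_mul]; ring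

lemma sum_dig' (N : ℕ) : ∑ J ∈ range N, dig N J * B ^ J = N := by
  rw [sum_dig, Nat.mod_eq_of_lt (Nat.lt_pow_self (by unfold B; norm_num))]

lemma dig_fam {ι : Type} (s : Finset ι) (J c : ι → ℕ) (h : ∑ k ∈ s, c k < B) (j : ℕ) :
    dig (∑ k ∈ s, c k * B ^ J k) j = ∑ k ∈ s with J k = j, c k := by
  have hm : ∀ k ∈ s, J k ∈ range (s.sup J + j + 1) := fun k hk =>
    mem_range.2 (by have := le_sup (f := J) hk; omega)
  rw [← sum_fiberwise_of_maps_to hm]
  have e : ∀ i ∈ range (s.sup J + j + 1), ∑ k ∈ s with J k = i, c k * B ^ J k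
      = (∑ k ∈ s with J k = i, c k) * B ^ i := fun i _ => by
    rw [sum_mul]
    exact sum_congr rfl fun k hk => by rw [(mem_filter.1 hk).2]
  rw [sum_congr rfl e, dig_sum (fun i => ∑ k ∈ s with J k = i, c k) _ fun i _ =>
    lt_of_le_of_lt (sum_le_sum_of_subset (filter_subset _ _)) h, if_pos (by omega)]

lemma fam_lt {ι : Type} (s : Finset ι) (J c : ι → ℕ) (h : ∑ k ∈ s, c k < B) (m : ℕ)
    (hm : ∀ k ∈ s, c k ≠ 0 → J k < m) : ∑ k ∈ s, c k * B ^ J k < B ^ m := by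
  classical
  have hm' : ∀ k ∈ s.filter (fun k => c k ≠ 0), J k ∈ range m := fun k hk =>
    mem_range.2 (hm k (mem_filter.1 hk).1 (mem_filter.1 hk).2)
  rw [← sum_filter_of_ne (p := fun k => c k ≠ 0) (fun k _ h => left_ne_zero_of_mul h),
    ← sum_fiberwise_of_maps_to hm']
  have e : ∀ i ∈ range m, ∑ k ∈ s.filter (fun k => c k ≠ 0) with J k = i, c k * B ^ J k
      = (∑ k ∈ s.filter (fun k => c k ≠ 0) with J k = i, c k) * B ^ i := fun i _ => by
    rw [sum_mul]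
    exact sum_congr rfl fun k hk => by rw [(mem_filter.1 hk).2]
  rw [sum_congr rfl e]
  exact sum_lt (fun i => ∑ k ∈ s.filter (fun k => c k ≠ 0) with J k = i, c k) m fun i _ =>
    lt_of_le_of_lt (sum_le_sum_of_subset ((filter_subset _ _).trans (filter_subset _ _))) h

lemma dig_land (X m j : ℕ) : dig (Nat.land X m) j = dig X j &&& dig m j := by
  rw [dig_eq, dig_eq, dig_eq, ← Bpow, B, ← Nat.and_mod_two_pow, ← Nat.and_div_two_pow]; rfl

lemma dig_ms (N s m j : ℕ) (h : dig m j < 2 ^ 48) :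
    2 ^ 40 * dig (ms N s m) j ≤ dig N (j + s) := by
  rw [ms, dig_land, shr_eq, Nat.add_eq, Nat.mul_eq, pow_add, Bpow, ← Nat.div_div_eq_div_mul,
    ← dig_div N s j]
  generalize N / B ^ s = X
  have h1 : dig (X / 2 ^ 40) j &&& dig m j ≤ dig (X / 2 ^ 40) j % 2 ^ 48 := by
    rw [← Nat.mod_eq_of_lt (a := _ &&& _) (lt_of_le_of_lt Nat.and_le_right h),
      Nat.and_mod_two_pow]
    exact Nat.and_le_left
  have h2 : dig (X / 2 ^ 40) j % 2 ^ 48 = dig X j / 2 ^ 40 := by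
    rw [dig_eq, dig_eq, Nat.div_div_eq_div_mul, mul_comm, ← Nat.div_div_eq_div_mul]
    generalize X / B ^ j = Y
    unfold B
    omega
  exact (Nat.mul_le_mul_left _ (h1.trans h2.le)).trans (Nat.mul_div_le _ _)

lemma dig_ms_ne (N s m j : ℕ) (h : dig (ms N s m) j ≠ 0) : dig m j ≠ 0 := by
  intro e
  rw [ms, dig_land, e] at h
  simp at h

lemma geo_eq (k n : ℕ) (hk : 0 < k) : geo k n = ∑ i ∈ range n, (2 ^ k) ^ i := by
  rw [Nat.geomSum_eq (Nat.one_lt_two_pow hk.ne'), geo, shl_eq, shl_eq, one_mul, one_mul,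
    Nat.mul_eq, pow_mul]
  rfl

lemma mask2_eq (W w : ℕ) (hw : w ≤ W) (h0 : 0 < W) : ∀ h, mask2 W h w
    = ∑ J ∈ range (h * W), (if J % W < w then 281474976710655 else 0) * B ^ J := by
  intro h
  rw [mask2, mask1, geo_eq _ _ (by norm_num), geo_eq (Nat.mul 88 W) _ (Nat.mul_pos (by norm_num) h0)]
  simp only [Nat.mul_eq, Bpow]
  induction h with
  | zero => simp
  | succ h ih =>
    rw [sum_range_succ, mul_add, ih, add_mul, one_mul, sum_range_add]
    congr 1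
    obtain ⟨k, rfl⟩ := Nat.exists_eq_add_of_le hw
    rw [sum_range_add, sum_eq_zero (s := range k), add_zero, mul_sum, sum_mul]
    · refine sum_congr rfl fun j hj => ?_
      have := mem_range.1 hj
      rw [Nat.mul_add_mod_of_lt (by omega), if_pos this, show (2 : ℕ) ^ 88 = B from rfl]
      ring
    · intro j hj
      have := mem_range.1 hj
      rw [Nat.mul_add_mod_of_lt (by omega), if_neg (by omega), zero_mul]

lemma dig_mask2 (W h w j : ℕ) (hw : w ≤ W) (h0 : 0 < W) :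
    dig (mask2 W h w) j < 2 ^ 48 ∧ (dig (mask2 W h w) j ≠ 0 → j % W < w) := by
  rw [mask2_eq W w hw h0, dig_sum (fun J => if J % W < w then 281474976710655 else 0) _
    fun J _ => by unfold B; split_ifs <;> norm_num]
  split_ifs <;> simp [*]

lemma dig_mask1 (w j : ℕ) : dig (mask1 w) j < 2 ^ 48 ∧ (dig (mask1 w) j ≠ 0 → j < w) := by
  rw [mask1, geo_eq _ _ (by norm_num), Nat.mul_eq, mul_sum]
  have := dig_sum (fun _ => 281474976710655) w (fun J _ => by unfold B; norm_num) j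
  rw [show (2 : ℕ) ^ 88 = B from rfl, this]
  split_ifs <;> simp [*]

lemma tab_eq {β : Type} (f : ℕ → β) : ∀ n i, tab f n i = (List.range' i n).map f
  | 0, _ => rfl
  | n + 1, i => by
    rw [List.range'_succ, List.map_cons, ← tab_eq f n]
    exact force_eq (i + 1) fun i' => f i :: tab f n i'

lemma dot_cons (p : ℕ) (l : List ℕ) (N : ℕ) : dot (p :: l) N = dig N 0 * p + dot l (N / B) := by
  have e : dot (p :: l) N = cond (Nat.beq (N % B) 0) (dot l (Nat.shiftRight N 88))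
      (N % B * p + dot l (Nat.shiftRight N 88)) := rfl
  rw [e, shr_eq, dig_eq, pow_zero, Nat.div_one]
  cases h : Nat.beq (N % B) 0
  · rfl
  · rw [Nat.eq_of_beq_eq_true h, zero_mul, cond_true, zero_add]; rfl

lemma dot_tab (f : ℕ → ℕ) : ∀ n i N, dot (tab f n i) N = ∑ j ∈ range n, dig N j * f (i + j) := by
  simp only [tab_eq]
  intro n
  induction n with
  | zero => intro i N; rfl
  | succ n ih =>
    intro i N
    rw [List.range'_succ, List.map_cons, dot_cons, ih, sum_range_succ', add_comm, add_zero]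
    congr 1
    refine sum_congr rfl fun j _ => ?_
    rw [← dig_div N 1 j, pow_one, add_assoc, add_comm 1 j]

lemma dot2_tab (W m : ℕ) (f : ℕ → List ℕ) : ∀ n i N, dot2 (88 * W) m (tab f n i) N
    = ∑ j ∈ range n, dot (f (i + j)) (N / B ^ (j * W) % m) := by
  simp only [tab_eq]
  intro n
  induction n with
  | zero => intro i N; rfl
  | succ n ih =>
    intro i N
    rw [List.range'_succ, List.map_cons]
    change dot _ (N % m) + dot2 (88 * W) m _ (Nat.shiftRight N (88 * W)) = _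
    rw [ih, sum_range_succ', add_comm, add_zero, zero_mul, pow_zero, Nat.div_one, shr_eq, Bpow]
    congr 1
    refine sum_congr rfl fun j _ => ?_
    rw [Nat.div_div_eq_div_mul, ← pow_add, add_assoc, add_comm 1 j]
    congr 4
    ring

/-! Packed families of vectors -/

abbrev Vec := Fin 3 → ℝ

/-- `N` packs a finite family of vectors with natural weights; `f` integrates against it -/
def Fam (Q : ℕ → Vec → Prop) (N : ℕ) (f : (Vec → ℝ) → ℝ) : Prop :=
  ∃ (ι : Type) (s : Finset ι) (J c : ι → ℕ) (ρ : ι → Vec), N = ∑ k ∈ s, c k * B ^ J k ∧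
    (∀ k ∈ s, c k ≠ 0 → Q (J k) (ρ k)) ∧ ∀ Φ, f Φ = ∑ k ∈ s, c k * Φ (ρ k)

/-- integration against the digits of `N` -/
noncomputable def V (r : ℕ → Vec) (N : ℕ) (Φ : Vec → ℝ) : ℝ := ∑ J ∈ range N, dig N J * Φ (r J)

variable {Q Q' Q'' : ℕ → Vec → Prop} {N N' : ℕ} {f f' : (Vec → ℝ) → ℝ}

lemma Fam.canon {r : ℕ → Vec} (h : ∀ J, dig N J ≠ 0 → Q J (r J)) : Fam Q N (V r N) :=
  ⟨ℕ, range N, id, dig N, r, (sum_dig' N).symm, fun k _ => h k, fun _ => rfl⟩

lemma Fam.congr (h : Fam Q N f) (e : N = N') (e' : ∀ Φ, f Φ = f' Φ) : Fam Q N' f' := by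
  rwa [← e, ← funext e']

lemma Fam.single (c : ℕ) {J : ℕ} {ρ : Vec} (h : Q J ρ) : Fam Q (dg c J) fun Φ => c * Φ ρ :=
  ⟨Unit, univ, fun _ => J, fun _ => c, fun _ => ρ, by simp [dg_eq], fun _ _ _ => h, by simp⟩

lemma Fam.zero : Fam Q 0 fun _ => 0 :=
  ⟨Unit, ∅, fun _ => 0, fun _ => 0, fun _ => 0, by simp, by simp, by simp⟩

lemma Fam.add (h : Fam Q N f) (h' : Fam Q N' f') : Fam Q (N + N') fun Φ => f Φ + f' Φ := by
  obtain ⟨ι, s, J, c, ρ, h1, h2, h3⟩ := h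
  obtain ⟨ι', s', J', c', ρ', h1', h2', h3'⟩ := h'
  refine ⟨ι ⊕ ι', s.disjSum s', Sum.elim J J', Sum.elim c c', Sum.elim ρ ρ', ?_, ?_, fun Φ => ?_⟩
  · rw [sum_disjSum, h1, h1']; rfl
  · rintro (k | k) hk
    · exact h2 k (by simpa using hk)
    · exact h2' k (by simpa using hk)
  · beta_reduce; rw [sum_disjSum, h3, h3']; rfl

lemma Fam.smul (a : ℕ) (h : Fam Q N f) : Fam Q (a * N) fun Φ => a * f Φ := by
  obtain ⟨ι, s, J, c, ρ, h1, h2, h3⟩ := h
  refine ⟨ι, s, J, fun k => a * c k, ρ, ?_, fun k hk e => h2 k hk (right_ne_zero_of_mul e),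
    fun Φ => ?_⟩
  · rw [h1, mul_sum]; exact sum_congr rfl fun k _ => by ring
  · beta_reduce; rw [h3, mul_sum]; exact sum_congr rfl fun k _ => by push_cast; ring

lemma Fam.sum {α : Type} (s : Finset α) {M : α → ℕ} {F : α → (Vec → ℝ) → ℝ}
    (h : ∀ a ∈ s, Fam Q (M a) (F a)) : Fam Q (∑ a ∈ s, M a) fun Φ => ∑ a ∈ s, F a Φ := by
  classical
  induction s using Finset.induction_on with
  | empty => simpa using Fam.zero
  | insert a s ha ih =>
    simp only [sum_insert ha]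
    exact (h a (mem_insert_self _ _)).add (ih fun b hb => h b (mem_insert_of_mem hb))

lemma Fam.mul (h : Fam Q N f) (h' : Fam Q' N' f')
    (hQ : ∀ I u J v, Q I u → Q' J v → Q'' (I + J) (u * v)) :
    Fam Q'' (N * N') fun Φ => f fun y => f' fun w => Φ (y * w) := by
  obtain ⟨ι, s, J, c, ρ, h1, h2, h3⟩ := h
  obtain ⟨ι', s', J', c', ρ', h1', h2', h3'⟩ := h'
  refine ⟨ι × ι', s ×ˢ s', fun k => J k.1 + J' k.2, fun k => c k.1 * c' k.2,
    fun k => ρ k.1 * ρ' k.2, ?_, fun k hk e => ?_, fun Φ => ?_⟩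
  · rw [h1, h1', sum_mul_sum, sum_product]
    exact sum_congr rfl fun k _ => sum_congr rfl fun l _ => by ring
  · exact hQ _ _ _ _ (h2 _ (mem_product.1 hk).1 (left_ne_zero_of_mul e))
      (h2' _ (mem_product.1 hk).2 (right_ne_zero_of_mul e))
  · beta_reduce
    rw [h3, sum_product]
    refine sum_congr rfl fun k _ => ?_
    rw [h3', mul_sum]
    exact sum_congr rfl fun l _ => by push_cast; ring

lemma Fam.mono (h : Fam Q N f) {Φ Ψ : Vec → ℝ} (hle : ∀ J ρ, Q J ρ → Φ ρ ≤ Ψ ρ) : f Φ ≤ f Ψ := by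
  obtain ⟨ι, s, J, c, ρ, -, e2, e3⟩ := h
  rw [e3, e3]
  refine sum_le_sum fun k hk => ?_
  by_cases e : c k = 0
  · simp [e]
  · exact mul_le_mul_of_nonneg_left (hle _ _ (e2 k hk e)) (Nat.cast_nonneg _)

lemma Fam.nonneg (h : Fam Q N f) {Φ : Vec → ℝ} (hle : ∀ J ρ, Q J ρ → 0 ≤ Φ ρ) : 0 ≤ f Φ := by
  obtain ⟨ι, s, J, c, ρ, -, e2, e3⟩ := h
  rw [e3]
  refine sum_nonneg fun k hk => ?_
  by_cases e : c k = 0
  · simp [e]
  · exact mul_nonneg (Nat.cast_nonneg _) (hle _ _ (e2 k hk e))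

/-- reading off digits -/
lemma Fam.read (h : Fam Q N f) (h1 : ∀ J ρ, Q J ρ → ρ 2 = 1) (hB : f (fun w => |w 2|) < B)
    {α : Type} (S : Finset α) (idx : α → ℕ) (hi : Set.InjOn idx S) (r : α → Vec)
    (hr : ∀ a ∈ S, ∀ ρ, Q (idx a) ρ → r a = ρ) {Φ : Vec → ℝ} (hΦ : ∀ J ρ, Q J ρ → 0 ≤ Φ ρ) :
    ∑ a ∈ S, dig N (idx a) * Φ (r a) ≤ f Φ := by
  classical
  obtain ⟨ι, s, J, c, ρ, e1, e2, e3⟩ := h
  have hc : ∑ k ∈ s, c k < B := by
    rw [e3] at hB
    have : ∑ k ∈ s, (c k : ℝ) * |ρ k 2| = ((∑ k ∈ s, c k : ℕ) : ℝ) := by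
      push_cast
      refine sum_congr rfl fun k hk => ?_
      by_cases e : c k = 0
      · simp [e]
      · rw [h1 _ _ (e2 k hk e), abs_one, mul_one]
    rw [this] at hB
    exact_mod_cast hB
  have h0 : ∀ k ∈ s, 0 ≤ (c k : ℝ) * Φ (ρ k) := fun k hk => by
    by_cases e : c k = 0
    · simp [e]
    · exact mul_nonneg (Nat.cast_nonneg _) (hΦ _ _ (e2 k hk e))
  rw [e3, e1]
  calc _ = ∑ a ∈ S, ∑ k ∈ s with J k = idx a, (c k : ℝ) * Φ (ρ k) := by
        refine sum_congr rfl fun a ha => ?_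
        rw [dig_fam s J c hc, Nat.cast_sum, sum_mul]
        refine sum_congr rfl fun k hk => ?_
        by_cases e : c k = 0
        · simp [e]
        · rw [hr a ha _ ((mem_filter.1 hk).2 ▸ e2 k (mem_filter.1 hk).1 e)]
    _ = ∑ j ∈ S.image idx, ∑ k ∈ s with J k = j, (c k : ℝ) * Φ (ρ k) :=
        (sum_image (f := fun j => ∑ k ∈ s with J k = j, (c k : ℝ) * Φ (ρ k)) hi).symm
    _ = ∑ k ∈ s with J k ∈ S.image idx, (c k : ℝ) * Φ (ρ k) := sum_fiberwise_eq_sum_filter _ _ _ _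
    _ ≤ _ := sum_le_sum_of_subset_of_nonneg (filter_subset _ _) fun k hk _ => h0 k hk

/-- reading off digits after `ms` -/
lemma Fam.read_ms (h : Fam Q N f) (h1 : ∀ J ρ, Q J ρ → ρ 2 = 1) (hB : f (fun w => |w 2|) < B)
    (s m : ℕ) (hm : ∀ j, dig m j < 2 ^ 48)
    {α : Type} (S : Finset α) (idx : α → ℕ) (hi : Set.InjOn idx S) (r : α → Vec)
    (hr : ∀ a ∈ S, dig m (idx a) ≠ 0 → ∀ ρ, Q (idx a + s) ρ → r a = ρ) {Φ : Vec → ℝ}
    (hΦ : ∀ J ρ, Q J ρ → 0 ≤ Φ ρ) (hΦ' : ∀ a ∈ S, 0 ≤ Φ (r a)) :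
    2 ^ 40 * ∑ a ∈ S, dig (ms N s m) (idx a) * Φ (r a) ≤ f Φ := by
  classical
  refine le_trans ?_ (h.read h1 hB (S.filter fun a => dig m (idx a) ≠ 0) (fun a => idx a + s)
    (fun a ha b hb e => hi (mem_filter.1 ha).1 (mem_filter.1 hb).1 (by simpa using e)) r
    (fun a ha => hr a (mem_filter.1 ha).1 (mem_filter.1 ha).2) hΦ)
  rw [mul_sum, sum_filter]
  refine sum_le_sum fun a ha => ?_
  split_ifs with e
  · rw [← mul_assoc]
    refine mul_le_mul_of_nonneg_right ?_ (hΦ' a ha)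
    exact_mod_cast dig_ms N s m _ (hm _)
  · have : dig (ms N s m) (idx a) = 0 := by
      by_contra e'
      exact e (dig_ms_ne _ _ _ _ e')
    simp [this]

lemma Fam.lt (h : Fam Q N f) (h1 : ∀ J ρ, Q J ρ → ρ 2 = 1) (hB : f (fun w => |w 2|) < B) (m : ℕ)
    (hm : ∀ J ρ, Q J ρ → J < m) : N < B ^ m := by
  obtain ⟨ι, s, J, c, ρ, e1, e2, e3⟩ := h
  rw [e1]
  refine fam_lt s J c ?_ m fun k hk e => hm _ _ (e2 k hk e)
  rw [e3] at hB
  have : ∑ k ∈ s, (c k : ℝ) * |ρ k 2| = ((∑ k ∈ s, c k : ℕ) : ℝ) := by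
    push_cast
    refine sum_congr rfl fun k hk => ?_
    by_cases e : c k = 0
    · simp [e]
    · rw [h1 _ _ (e2 k hk e), abs_one, mul_one]
  rw [this] at hB
  exact_mod_cast hB

end Vale.Agent.P154.AF
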