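import Vale.Agent.P154.KS
import Vale.Agent.P154.AF.Pack

namespace Vale.Agent.P154.AF

open Finset Equiv

/-- concave homogeneous functions, nonnegative at the vertices -/
structure Cv (g : Vec → ℝ) : Prop where
  sub : SubL fun w => -g w
  vert : ∀ i, 0 ≤ g (Pi.single i 1)

def Sym (g : Vec → ℝ) : Prop := ∀ (σ : Perm (Fin 3)) (w : Vec), g (w ∘ σ) = g w

variable {g : Vec → ℝ}

lemma sing_nonneg (i j : Fin 3) : (0 : ℝ) ≤ (Pi.single i 1 : Vec) j := by
  by_cases h : j = i <;> simp [h]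

lemma Cv.add (h : Cv g) (u v : Vec) : g u + g v ≤ g (u + v) := by linarith [h.sub.add u v]

lemma Cv.smul (h : Cv g) {c : ℝ} (hc : 0 ≤ c) (u : Vec) : g (c • u) = c * g u := by
  linarith [h.sub.smul c u hc]

lemma Cv.cont (h : Cv g) : Continuous g := continuous_neg_iff.1 h.sub.cont

lemma Cv.nonneg (h : Cv g) {w : Vec} (hw : ∀ i, 0 ≤ w i) : 0 ≤ g w := by
  have e : w = w 0 • Pi.single 0 1 + w 1 • Pi.single 1 1 + w 2 • Pi.single 2 1 := by
    ext i; fin_cases i <;> simp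
  have h1 := h.add (w 0 • Pi.single 0 1 + w 1 • Pi.single 1 1) (w 2 • Pi.single 2 1)
  have h2 := h.add (w 0 • Pi.single 0 1) (w 1 • Pi.single 1 1)
  rw [← e, h.smul (hw 2)] at h1
  rw [h.smul (hw 0), h.smul (hw 1)] at h2
  linarith [mul_nonneg (hw 0) (h.vert 0), mul_nonneg (hw 1) (h.vert 1),
    mul_nonneg (hw 2) (h.vert 2)]

lemma Cv.mono (h : Cv g) {u v : Vec} (huv : ∀ i, u i ≤ v i) : g u ≤ g v := by
  have h1 := h.add u (v - u)
  rw [add_sub_cancel] at h1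
  linarith [h.nonneg (w := v - u) fun i => sub_nonneg.2 (huv i)]

lemma Cv.comp (h : Cv g) (L : Vec →ₗ[ℝ] Vec) (hL : ∀ i j, 0 ≤ L (Pi.single i 1) j) :
    Cv fun w => g (L w) := ⟨h.sub.comp L, fun i => h.nonneg (hL i)⟩

lemma Cv.mul (h : Cv g) {y : Vec} (hy : ∀ i, 0 ≤ y i) : Cv fun w => g (y * w) :=
  h.comp (LinearMap.mulLeft ℝ y) fun i j => mul_nonneg (hy j) (sing_nonneg i j)

lemma Cv.perm (h : Cv g) (σ : Perm (Fin 3)) : Cv fun w => g (w ∘ σ) :=
  h.comp (LinearMap.funLeft ℝ ℝ σ) fun i j => sing_nonneg i (σ j)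

lemma Cv.avg (h : Cv g) : Cv fun w => ∑ σ : Perm (Fin 3), g (w ∘ σ) := by
  refine ⟨⟨(continuous_finsetSum _ fun σ _ => (h.perm σ).cont).neg, fun u v => ?_,
    fun c u hc => ?_⟩, fun i => sum_nonneg fun σ _ => (h.perm σ).vert i⟩
  · rw [← neg_add, ← sum_add_distrib, neg_le_neg_iff]
    exact sum_le_sum fun σ _ => (h.perm σ).add u v
  · rw [mul_neg, mul_sum]
    exact congrArg _ (sum_congr rfl fun σ _ => (h.perm σ).smul hc u)

lemma sym_avg (g : Vec → ℝ) : Sym fun w => ∑ σ : Perm (Fin 3), g (w ∘ σ) := fun τ w =>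
  Equiv.sum_comp (Equiv.mulLeft τ) fun σ => g (w ∘ σ)

lemma sum_perm3 (Φ : Vec → ℝ) (a b c : ℝ) : ∑ σ : Perm (Fin 3), Φ (![a, b, c] ∘ σ)
    = Φ ![a, b, c] + Φ ![b, a, c] + (Φ ![a, c, b] + Φ ![c, a, b])
      + (Φ ![b, c, a] + Φ ![c, b, a]) := by
  have e : (univ : Finset (Perm (Fin 3))) = {1, swap 0 1, swap 1 2, swap 0 2 * swap 1 2,
      swap 1 2 * swap 0 2, swap 0 2} := by decide
  have h : ∀ (σ : Perm (Fin 3)), ![a, b, c] ∘ σ
      = ![![a, b, c] (σ 0), ![a, b, c] (σ 1), ![a, b, c] (σ 2)] := fun σ => by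
    ext i; fin_cases i <;> rfl
  rw [e, sum_insert (by decide), sum_insert (by decide), sum_insert (by decide),
    sum_insert (by decide), sum_insert (by decide), sum_singleton]
  simp only [h]
  change Φ ![a, b, c] + (Φ ![b, a, c] + (Φ ![a, c, b] + (Φ ![c, a, b] + (Φ ![b, c, a]
    + Φ ![c, b, a])))) = _
  ring

variable {O O' : Type} {W : O → Vec} {U : O' → Vec}

lemma Cv.hasSum (h : Cv g) (hW : IsExp W) : HasSum (fun o => g (W o)) (Ex W g) := by
  have := (hW.hasSum_subl h.sub).neg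
  rw [Ex_neg] at this
  simpa using this

lemma Cv.dom (h : Cv g) (D : Dom W U) : Ex U g ≤ Ex W g := by
  have := D _ h.sub
  rw [Ex_neg, Ex_neg] at this
  linarith

lemma Cv.ex_avg (h : Cv g) (hW : IsExp W) :
    Ex W (fun w => ∑ σ : Perm (Fin 3), g (w ∘ σ)) = 6 * Ex W g := by
  have h1 : ∀ σ : Perm (Fin 3), HasSum (fun o => g (W o ∘ σ)) (Ex W g) := fun σ => by
    obtain ⟨e, he⟩ := hW.symm σ
    simpa only [he, Function.comp_def] using (e.hasSum_iff).2 (h.hasSum hW)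
  have h2 := hasSum_sum (s := univ) fun σ _ => h1 σ
  rw [(h.avg.hasSum hW).unique h2]
  simp [Fintype.card_perm, Nat.factorial]

/-! Products of a finite symmetric family -/

/-- the symmetrised finite family -/
noncomputable def Sf (n : ℕ) (c : ℕ → ℝ) (r : ℕ → Vec) (Φ : Vec → ℝ) : ℝ :=
  ∑ J ∈ range n, c J * ∑ σ : Perm (Fin 3), Φ (r J ∘ σ)

noncomputable def Lam (n : ℕ) (c : ℕ → ℝ) (r : ℕ → Vec) : ℕ → (Vec → ℝ) → ℝ
  | 0, Φ => Φ 1
  | k + 1, Φ => Sf n c r fun y => Lam n c r k fun w => Φ (y * w)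

variable {n : ℕ} {c : ℕ → ℝ} {r : ℕ → Vec}

lemma Sf_mono (hc : ∀ J, 0 ≤ c J) (hr : ∀ J i, 0 ≤ r J i) {Φ Ψ : Vec → ℝ}
    (h : ∀ w, (∀ i, 0 ≤ w i) → Φ w ≤ Ψ w) : Sf n c r Φ ≤ Sf n c r Ψ :=
  sum_le_sum fun J _ => mul_le_mul_of_nonneg_left
    (sum_le_sum fun σ _ => h _ fun i => hr J (σ i)) (hc J)

lemma Lam_mono (hc : ∀ J, 0 ≤ c J) (hr : ∀ J i, 0 ≤ r J i) : ∀ (k : ℕ) {Φ Ψ : Vec → ℝ},
    (∀ w, (∀ i, 0 ≤ w i) → Φ w ≤ Ψ w) → Lam n c r k Φ ≤ Lam n c r k Ψ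
  | 0, _, _, h => h _ fun _ => zero_le_one
  | k + 1, _, _, h => Sf_mono hc hr fun _ hy => Lam_mono hc hr k fun _ hw =>
      h _ fun i => mul_nonneg (hy i) (hw i)

lemma Lam_sum {α : Type} (s : Finset α) (a : α → ℝ) : ∀ (k : ℕ) (Φ : α → Vec → ℝ),
    Lam n c r k (fun w => ∑ x ∈ s, a x * Φ x w) = ∑ x ∈ s, a x * Lam n c r k (Φ x)
  | 0, _ => rfl
  | k + 1, Φ => by
    simp only [Lam, Sf, Lam_sum s a k fun x w => Φ x (_ * w), mul_sum]
    rw [sum_comm]
    conv_rhs => rw [sum_comm]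
    rw [sum_comm]
    refine sum_congr rfl fun J _ => ?_
    rw [sum_comm]
    exact sum_congr rfl fun x _ => sum_congr rfl fun σ _ => by ring

lemma Lam_smul (k : ℕ) (a : ℝ) (Φ : Vec → ℝ) :
    Lam n c r k (fun w => a * Φ w) = a * Lam n c r k Φ := by
  simpa using Lam_sum (n := n) (c := c) (r := r) {()} (fun _ => a) k fun _ => Φ

lemma Lam_perm (τ : Perm (Fin 3)) : ∀ (k : ℕ) (Φ : Vec → ℝ),
    Lam n c r k (fun w => Φ (w ∘ τ)) = Lam n c r k Φ
  | 0, _ => rfl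
  | k + 1, Φ => by
    have e : ∀ y : Vec, Lam n c r k (fun w => Φ ((y * w) ∘ τ))
        = Lam n c r k fun w => Φ (y ∘ τ * w) := fun y =>
      Lam_perm τ k fun w => Φ (y ∘ τ * w)
    simp only [Lam, Sf, e]
    exact sum_congr rfl fun J _ => congrArg _ (Equiv.sum_comp (Equiv.mulRight τ)
      fun σ => Lam n c r k fun w => Φ (r J ∘ σ * w))

lemma Lam_le (hc : ∀ J, 0 ≤ c J) (hr : ∀ J i, 0 ≤ r J i) (hW : IsExp W)
    (h : ∀ g, Cv g → Sym g → ∑ J ∈ range n, 6 * c J * g (r J) ≤ Ex W g) :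
    ∀ (k : ℕ) {g : Vec → ℝ}, Cv g → Lam n c r k g ≤ Ex (powE W k) g
  | 0, g, _ => by rw [Ex_pow_zero]; exact le_rfl
  | k + 1, g, hg => by
    have h1 : ∀ g, Cv g → Sf n c r g ≤ Ex W g := fun g hg => by
      have := h _ hg.avg (sym_avg g)
      rw [hg.ex_avg hW] at this
      simp only [mul_assoc, ← mul_sum] at this
      unfold Sf
      linarith
    have hU := hW.pow k
    rw [Ex_pow_succ, Ex_prod_comm]
    have h2 : HasSum (fun o => Ex W fun y => g (powE W k o * y)) (Ex (prodE (powE W k) W) g) :=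
      (hg.hasSum (hU.prod hW)).prod_fiberwise fun o => (hg.mul (hU.nonneg o)).hasSum hW
    have h3 : HasSum (fun o => Sf n c r fun y => g (powE W k o * y))
        (Sf n c r fun y => Ex (powE W k) fun w => g (y * w)) :=
      hasSum_sum fun J _ => HasSum.mul_left _ (hasSum_sum fun σ _ => by
        simpa only [mul_comm] using (hg.mul (y := r J ∘ σ) fun i => hr J _).hasSum hU)
    exact (Sf_mono hc hr fun y hy => Lam_le hc hr hW h k (hg.mul hy)).trans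
      (hasSum_le (fun o => h1 _ (hg.mul (hU.nonneg o))) h3 h2)

/-- multiplicity of a point of the chamber -/
noncomputable def gm (w : Vec) : ℝ :=
  if w 0 < w 1 then (if w 1 < w 2 then 6 else if w 1 = w 2 then 3 else 0)
  else if w 0 = w 1 then (if w 1 < w 2 then 3 else if w 1 = w 2 then 1 else 0) else 0

lemma gm_nonneg (w : Vec) : 0 ≤ gm w := by unfold gm; split_ifs <;> norm_num

lemma gm_smul {a : ℝ} (ha : 0 < a) (w : Vec) : gm (a • w) = gm w := by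
  simp [gm, ha, ha.ne']

lemma gm_sum (w : Vec) : ∑ σ : Perm (Fin 3), gm (w ∘ σ) ≤ 6 := by
  have e : w = ![w 0, w 1, w 2] := by ext i; fin_cases i <;> rfl
  rw [e, sum_perm3]
  generalize w 0 = a
  generalize w 1 = b
  generalize w 2 = d
  simp only [gm, Matrix.cons_val_zero, Matrix.cons_val_one, Matrix.cons_val]
  rcases lt_trichotomy a b with h1 | h1 | h1 <;> rcases lt_trichotomy a d with h2 | h2 | h2 <;>
    rcases lt_trichotomy b d with h3 | h3 | h3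
  all_goals first
    | (exfalso; linarith)
    | (subst_vars
       simp only [*, lt_irrefl, lt_asymm, ne_of_lt, ne_of_gt, if_true, if_false]
       norm_num)

/-- nonnegative homogeneous functions -/
structure NH (Φ : Vec → ℝ) : Prop where
  nonneg : ∀ w, 0 ≤ Φ w
  smul : ∀ (a : ℝ) w, 0 ≤ a → Φ (a • w) = a * Φ w

lemma NH.mul {Φ : Vec → ℝ} (h : NH Φ) (y : Vec) : NH fun w => Φ (y * w) :=
  ⟨fun _ => h.nonneg _, fun a w ha => by rw [mul_smul_comm, h.smul _ _ ha]⟩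

lemma NH.lam {Φ : Vec → ℝ} (h : NH Φ) (hc : ∀ J, 0 ≤ c J) (hr : ∀ J i, 0 ≤ r J i) (k : ℕ) :
    NH fun y => Lam n c r k fun w => Φ (y * w) := by
  refine ⟨fun y => ?_, fun a y ha => ?_⟩
  · have := Lam_mono (n := n) hc hr k (Φ := fun w => 0 * Φ w) (Ψ := fun w => Φ (y * w))
      fun w _ => by rw [zero_mul]; exact h.nonneg _
    rwa [Lam_smul, zero_mul] at this
  · simp only [smul_mul_assoc, h.smul _ _ ha, Lam_smul]

lemma Cv.nh (h : Cv g) : NH fun w => max (g w) 0 * gm w := by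
  refine ⟨fun w => mul_nonneg (le_max_right _ _) (gm_nonneg w), fun a w ha => ?_⟩
  rw [h.smul ha]
  rcases ha.eq_or_lt with rfl | ha'
  · simp
  · rw [gm_smul ha', ← mul_assoc, mul_max_of_nonneg _ _ ha, mul_zero]

lemma Lam_chamber (hc : ∀ J, 0 ≤ c J) (hr : ∀ J i, 0 ≤ r J i) (h : Cv g) (hs : Sym g) (k : ℕ) :
    Lam n c r k (fun w => max (g w) 0 * gm w) ≤ Lam n c r k g := by
  have h1 := Lam_sum (n := n) (c := c) (r := r) univ (fun _ : Perm (Fin 3) => (1 / 6 : ℝ)) k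
    fun σ w => max (g (w ∘ σ)) 0 * gm (w ∘ σ)
  simp only [Lam_perm _ k fun w => max (g w) 0 * gm w, sum_const, card_univ, Fintype.card_perm,
    Fintype.card_fin, Nat.factorial, nsmul_eq_mul] at h1
  have h2 := Lam_mono (n := n) hc hr k (Ψ := g)
    (Φ := fun w => ∑ σ : Perm (Fin 3), 1 / 6 * (max (g (w ∘ σ)) 0 * gm (w ∘ σ))) fun w hw => by
      have := h.nonneg hw
      simp only [hs _ w, max_eq_left this, ← mul_sum]
      nlinarith [gm_sum w]
  rw [h1] at h2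
  push_cast at h2
  linarith

end Vale.Agent.P154.AF
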