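import Vale.Agent.P154.AF.Run

namespace Vale.Agent.P154.AF

theorem d6e0 : fine ⟨9, 11, 15, 4083, 10000⟩ 640 1000
    (iter (sD 5 ⟨9, 11, 15, 4083, 10000⟩ ⟨9, 11, 15, 4083, 10000⟩ ⟨70, 15, 32⟩) 11 (start ⟨9, 11, 15, 4083, 10000⟩)) = true := by
  decide +kernel

theorem d6 {p : ℕ → ℝ} {lam : ℝ} (F : Fa p lam 4083 10000 (sD 5)) :
    ∃ n, Ex (lk 3 p lam n) yy ≤ (640 : ℕ) / (1000 : ℕ) :=
  F.one d6e0 (by decide)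

end Vale.Agent.P154.AF
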