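import Vale.Agent.P154.AF.Run

namespace Vale.Agent.P154.AF

theorem d7e0 : fine ⟨9, 11, 15, 189, 500⟩ 766 1000
    (iter (sD 6 ⟨9, 11, 15, 189, 500⟩ ⟨9, 11, 15, 189, 500⟩ ⟨70, 15, 32⟩) 7 (start ⟨9, 11, 15, 189, 500⟩)) = true := by
  decide +kernel

theorem d7 {p : ℕ → ℝ} {lam : ℝ} (F : Fa p lam 189 500 (sD 6)) :
    ∃ n, Ex (lk 3 p lam n) yy ≤ (766 : ℕ) / (1000 : ℕ) :=
  F.one d7e0 (by decide)

end Vale.Agent.P154.AF
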