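import Vale.Agent.P154.AF.Run

namespace Vale.Agent.P154.AF

theorem d8e0 : fine ⟨9, 11, 15, 221, 625⟩ 1009 1000
    (iter (sD 7 ⟨9, 11, 15, 221, 625⟩ ⟨9, 11, 15, 221, 625⟩ ⟨70, 15, 32⟩) 4 (start ⟨9, 11, 15, 221, 625⟩)) = true := by
  decide +kernel

theorem d8 {p : ℕ → ℝ} {lam : ℝ} (F : Fa p lam 221 625 (sD 7)) :
    ∃ n, Ex (lk 3 p lam n) yy ≤ (1009 : ℕ) / (1000 : ℕ) :=
  F.one d8e0 (by decide)

end Vale.Agent.P154.AF
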