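import Vale.Agent.P154.AF.Run

namespace Vale.Agent.P154.AF

theorem d9e0 : fine ⟨9, 11, 15, 1, 3⟩ 1144 1000
    (iter (sD 8 ⟨9, 11, 15, 1, 3⟩ ⟨9, 11, 15, 1, 3⟩ ⟨70, 15, 32⟩) 3 (start ⟨9, 11, 15, 1, 3⟩)) = true := by
  decide +kernel

theorem d9 {p : ℕ → ℝ} {lam : ℝ} (F : Fa p lam 1 3 (sD 8)) :
    ∃ n, Ex (lk 3 p lam n) yy ≤ (1144 : ℕ) / (1000 : ℕ) :=
  F.one d9e0 (by decide)

end Vale.Agent.P154.AF
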