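import Vale.Agent.P154.AF.Run

namespace Vale.Agent.P154.AF

theorem p10e0 : fine ⟨9, 11, 15, 17, 50⟩ 1050 1000
    (iter (sP 9488 1000 28 ⟨9, 11, 15, 17, 50⟩ ⟨9, 11, 15, 17, 50⟩ ⟨70, 15, 32⟩) 4 (start ⟨9, 11, 15, 17, 50⟩)) = true := by
  decide +kernel

theorem p10 {p : ℕ → ℝ} {lam : ℝ} (F : Fa p lam 17 50 (sP 9488 1000 28)) :
    ∃ n, Ex (lk 3 p lam n) yy ≤ (1050 : ℕ) / (1000 : ℕ) :=
  F.one p10e0 (by decide)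

end Vale.Agent.P154.AF
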