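import Vale.Agent.P154.AF.Run

namespace Vale.Agent.P154.AF

theorem p8e0 : fine ⟨9, 11, 15, 39, 100⟩ 623 1000
    (iter (sP 6931 1000 23 ⟨9, 11, 15, 39, 100⟩ ⟨9, 11, 15, 39, 100⟩ ⟨70, 15, 32⟩) 13 (start ⟨9, 11, 15, 39, 100⟩)) = true := by
  decide +kernel

theorem p8 {p : ℕ → ℝ} {lam : ℝ} (F : Fa p lam 39 100 (sP 6931 1000 23)) :
    ∃ n, Ex (lk 3 p lam n) yy ≤ (623 : ℕ) / (1000 : ℕ) :=
  F.one p8e0 (by decide)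

end Vale.Agent.P154.AF
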