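import Vale.Agent.P154.AF.Kron
import Vale.Agent.P154.Pot

/-! Checking inequalities between symmetric polynomials -/

namespace Vale.Agent.P154.AF

open Finset Equiv

def G3 (n : ℕ) : Grp := (bas 3 n).map List.permutations'

lemma hom_G3 (n : ℕ) : Hom n (G3 n) := by
  intro g hg e he
  obtain ⟨l, hl, rfl⟩ := List.mem_map.1 hg
  rw [(List.mem_permutations'.1 he).sum_eq, (of_mem_parts _ _ _ l hl).2]

lemma phi_eq (n : ℕ) (a : Vec) (σ : Perm (Fin 3)) :
    phi n a = gvR (G3 n) [a (σ 0), a (σ 1), a (σ 2)] := by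
  rw [phi, ← List.map_congr_left (l := bas 3 n)
    (fun l hl => ML_comp link3 (of_mem_parts _ _ _ l hl).1 a σ), gvR, G3, List.map_map]
  rfl

noncomputable def Q2 (a : Vec) : ℝ := 9 * yy a

noncomputable def Q3 (a : Vec) : ℝ := 9 * ∑ i, (a i - 1) ^ 3

noncomputable def fe (a : Vec) : List ℝ :=
  [1, Q2 a, Q3 a, Q2 a ^ 2, Q2 a * Q3 a, Q2 a ^ 3, Q3 a ^ 2]

noncomputable def ev7 (c : List ℤ) (a : Vec) : ℝ := dR (cZ c) (fe a)

def fPS : List (ℕ × PS) := [(0, [(1, [])]), (2, [(3, [2]), (-1, [1, 1])]),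
  (3, [(9, [3]), (-9, [1, 2]), (2, [1, 1, 1])]),
  (4, [(9, [2, 2]), (-6, [1, 1, 2]), (1, [1, 1, 1, 1])]),
  (5, [(27, [2, 3]), (-27, [1, 2, 2]), (15, [1, 1, 1, 2]), (-9, [1, 1, 3]), (-2, [1, 1, 1, 1, 1])]),
  (6, [(27, [2, 2, 2]), (-27, [1, 1, 2, 2]), (9, [1, 1, 1, 1, 2]), (-1, [1, 1, 1, 1, 1, 1])]),
  (6, [(81, [3, 3]), (81, [1, 1, 2, 2]), (4, [1, 1, 1, 1, 1, 1]), (-162, [1, 2, 3]),
    (36, [1, 1, 1, 3]), (-36, [1, 1, 1, 1, 2])])]

def H7 : List (List ℤ) := fPS.map fun e => smulZ (3 ^ e.1) (hv 3 8 e.1 e.2)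

variable {a b : Vec}

lemma sum3 (ha : Simp a) : a 0 + a 1 + a 2 = 3 := by simpa [Fin.sum_univ_three] using ha.2

lemma H7_spec (ha : Simp a) :
    H7.map (fun r => dR (cZ r) (phi 8 a)) = (fe a).map (39366 * ·) := by
  have e : a 2 = 3 - a 0 - a 1 := by linarith [sum3 ha]
  have h2 : Q2 a = 3 * ps 2 a - ps 1 a ^ 2 := by
    simp only [Q2, yy, ps, Fin.sum_univ_three, e]; push_cast; ring
  have h3 : Q3 a = 9 * ps 3 a - 9 * ps 1 a * ps 2 a + 2 * ps 1 a ^ 3 := by
    simp only [Q3, ps, Fin.sum_univ_three, e]; ring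
  have h : ∀ e ∈ fPS, dR (cZ (smulZ (3 ^ e.1) (hv 3 8 e.1 e.2))) (phi 8 a)
      = 39366 * evPS e.2 a := fun e he => by
    have k : hok 8 e.1 e.2 = true := by revert e; decide
    have k2 : e.1 ≤ 8 := by revert e; decide
    rw [dR_smulZ, dR_hv link3 k ha, ← mul_assoc, ← mul_assoc]
    push_cast
    rw [← pow_add, Nat.add_sub_cancel' k2]
    norm_num [Nat.factorial]
  rw [H7, List.map_map, List.map_congr_left (g := fun e => 39366 * evPS e.2 a) h]
  simp only [fPS, fe, h2, h3, evPS, List.map_cons, List.map_nil, List.sum_cons, List.sum_nil,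
    List.prod_cons, List.prod_nil, List.cons.injEq, and_true]
  push_cast
  refine ⟨?_, ?_, ?_, ?_, ?_, ?_, ?_⟩ <;> ring

lemma dR_H7 (ha : Simp a) (c : List ℤ) :
    dR (cZ (vecMat c H7)) (phi 8 a) = 39366 * ev7 c a := by
  rw [dR_vecMat, H7_spec ha, dR_comm, dR_map_mul, dR_comm, ev7]

def dM : List (List ℤ) → ℕ → List (List ℤ) → List (List ℤ)
  | [], _, M => M
  | u :: us, m, M => dM us (1 + m) (madd (lift (emat 3 1 m) M) (diagZ u))

noncomputable def mv : List (List ℤ) → ℕ → Vec → ℝ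
  | [], _, _ => 0
  | u :: us, m, w => 9 ^ us.length * dR (cZ u) (phi (1 + m) w) + mv us (1 + m) w

lemma dM_spec (ha : Simp a) (hb : Simp b) : ∀ (us : List (List ℤ)) (m : ℕ) (M : List (List ℤ)),
    bil (dM us m M) (phi (m + us.length) a) (phi (m + us.length) b)
      = 9 ^ us.length * bil M (phi m a) (phi m b) + ∑ σ : Perm (Fin 3), mv us m (a * b ∘ σ)
  | [], m, M => by simp [dM, mv]
  | u :: us, m, M => by
    rw [dM, List.length_cons, show m + (us.length + 1) = 1 + m + us.length by ring,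
      dM_spec ha hb us, bil_madd, bil_lift link3, bil_diag, ← sum_phi link3, ha.ps_one, hb.ps_one]
    simp only [mv, sum_add_distrib, ← mul_sum]
    push_cast
    ring

lemma mon_smul (S : ℝ) : ∀ (e : List ℕ) (xs : List ℝ),
    mon e (xs.map (S * ·)) = S ^ e.sum * mon e xs
  | [], _ => by simp [mon]
  | k :: e, [] => by
    have := mon_smul S e []
    rw [List.map_nil] at this
    cases k <;> simp [mon, ← this]
  | k :: e, x :: xs => by simp [mon, mon_smul S e xs, mul_pow, pow_add]; ring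

lemma phi_smul (k : ℕ) (S : ℝ) (z : Vec) (f : List ℝ) :
    dR f (phi k (S • z)) = S ^ k * dR f (phi k z) := by
  rw [dR_comm, dR_comm f, ← dR_map_mul, phi_eq k _ 1, phi_eq k z 1, gvR, gvR, List.map_map]
  refine congrArg (dR · f) (List.map_congr_left fun g hg => ?_)
  rw [Function.comp_apply, ← List.sum_map_mul_left]
  refine congrArg _ (List.map_congr_left fun e he => ?_)
  rw [← hom_G3 k g hg e he, ← mon_smul]
  rfl

def qM : List (List ℤ) → ℕ → List (List ℤ)
  | [], _ => []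
  | u :: us, m => smulZ (-3 ^ us.length) (up 3 us.length (1 + m) u) :: qM us (1 + m)

lemma qM_spec (ha : Simp a) (S : ℝ) : ∀ (us : List (List ℤ)) (m : ℕ),
    bil (qM us m) ((List.range' (1 + m) us.length).map (S ^ ·)) (phi (m + us.length) a)
      = -mv us m (S • a)
  | [], m => by simp [bil, mv]
  | u :: us, m => by
    have := qM_spec ha S us (1 + m)
    rw [bil, add_comm 1 (1 + m)] at this
    rw [bil, qM, List.length_cons, show m + (us.length + 1) = 1 + m + us.length by ring,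
      List.range'_succ, List.map_cons, List.map_cons, dR_cons, this, dR_smulZ, dR_up link3,
      ha.ps_one, mv, phi_smul, show (9 : ℝ) = 3 * 3 by norm_num, mul_pow]
    push_cast
    ring

def GS : Grp := (List.range' 0 9).map fun k => [[8 - k, k]]

lemma hom_GS : Hom 8 GS := by unfold Hom; decide

def Tch : Tri := ⟨⟨2, 2, 2⟩, ⟨0, 3, 3⟩, ⟨0, 0, 6⟩⟩

def Ty (p q : ℕ) : Tri :=
  ⟨⟨2 * q, 2 * q, 2 * q⟩, ⟨2 * q + 2 * p, 2 * q - p, 2 * q - p⟩,
    ⟨2 * q + 2 * p, 2 * q + 2 * p, 2 * q - 4 * p⟩⟩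

lemma in_ch (ha : Simp a) {p q : ℕ} (h : 2 * p ≤ q) (hq : 0 < q) : ∃ σ : Perm (Fin 3),
    InT Tch [a (σ 0), a (σ 1), a (σ 2)] ∧ InT (Ty p q)
      [shr (-(p / q)) a (σ 0), shr (-(p / q)) a (σ 1), shr (-(p / q)) a (σ 2)] := by
  have hm := Tuple.monotone_sort a
  refine ⟨Tuple.sort a, ?_⟩
  have h0 := ha.1 (Tuple.sort a 0)
  have h1 : a (Tuple.sort a 0) ≤ a (Tuple.sort a 1) := hm (by decide)
  have h2 : a (Tuple.sort a 1) ≤ a (Tuple.sort a 2) := hm (by decide)
  have h3 := Equiv.sum_comp (Tuple.sort a) a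
  rw [ha.2, Fin.sum_univ_three] at h3
  unfold shr
  generalize a (Tuple.sort a 0) = x at *
  generalize a (Tuple.sort a 1) = y at *
  generalize a (Tuple.sort a 2) = z at *
  have c : (0 : ℝ) < q := by exact_mod_cast hq
  have h4 := sub_nonneg.2 h1
  have h5 := sub_nonneg.2 h2
  refine ⟨⟨x / 2, (y - x) / 3, (z - y) / 6, by positivity, by positivity, by positivity, ?_⟩,
    x / 2 / q, (y - x) / 3 / q, (z - y) / 6 / q, by positivity, by positivity, by positivity, ?_⟩
  · simp only [Tch, List.cons.injEq, and_true]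
    push_cast
    refine ⟨?_, ?_, ?_⟩ <;> ring
  · simp only [Ty, List.cons.injEq, and_true]
    rw [Nat.cast_sub (by omega), Nat.cast_sub (by omega), show z = 3 - x - y by
      push_cast at h3; linarith]
    push_cast
    refine ⟨?_, ?_, ?_⟩ <;> field_simp <;> ring

structure PC where
  u : List ℤ
  us : List (List ℤ)
  k : ℕ
  t : Tr
  t1 : Tr
  t2 : Tr

def outs : List (List ℤ × List ℤ) → List (List ℤ)
  | [] => []
  | e :: L => madd (outer (vecMat e.1 H7) (vecMat e.2 H7)) (outs L)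

def chkQ (k kx p q : ℕ) (M : List (List ℤ)) (t1 t2 : Tr) : Bool :=
  chk k kx 8 8 M GS (G3 8) t1 ⟨⟨q, q - 2 * p, 0⟩, ⟨q, q, 0⟩, ⟨0, 0, 0⟩⟩ Tch &&
    chk k kx 8 8 M GS (G3 8) t2 ⟨⟨q, q, 0⟩, ⟨q, q + p, 0⟩, ⟨0, 0, 0⟩⟩ Tch

def chkP (kx p q : ℕ) (c : List ℤ) (L : List (List ℤ × List ℤ)) (C : PC) : Bool :=
  Nat.beq C.us.length 8 &&
    chk C.k kx 8 8 (madd (dM C.us 0 (diagZ C.u)) (outs L)) (G3 8) (G3 8) C.t Tch (Ty p q) &&
    chkQ C.k kx p q (madd (smulZ (-6561) (up 3 8 0 C.u) :: qM C.us 0)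
      [[], smulZ 6561 (vecMat c H7)]) C.t1 C.t2

theorem chkP_sound {kx p q : ℕ} {c : List ℤ} {L : List (List ℤ × List ℤ)} {C : PC}
    (h : chkP kx p q c L C = true) (hp : 0 < p) (hq : 2 * p ≤ q) (ha : Simp a) (hb : Simp b) :
    0 ≤ avg (ev7 c) a (shr (-(p / q)) b)
      + (L.map fun e => ev7 e.1 a * ev7 e.2 (shr (-(p / q)) b)).sum := by
  simp only [chkP, chkQ, Bool.and_eq_true, Nat.beq_eq] at h
  obtain ⟨⟨h0, h1⟩, h2, h3⟩ := h
  have cp : (0 : ℝ) < p := by exact_mod_cast hp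
  have cq : (2 : ℝ) * p ≤ q := by exact_mod_cast hq
  have q0 : (0 : ℝ) < q := by linarith
  have l1 : (p : ℝ) / q ≤ 1 / 2 := by rw [div_le_iff₀ q0]; linarith
  have l0 : 0 < (p : ℝ) / q := by positivity
  have hy : Simp (shr (-(p / q)) b) := hb.shr ⟨by linarith, by push_cast; linarith⟩
  obtain ⟨σ, s1, -⟩ := in_ch ha hq (by omega)
  obtain ⟨τ, -, s2⟩ := in_ch hb hq (by omega)
  have y1 : ∀ i, 1 - 2 * (p / q : ℝ) ≤ shr (-(p / q)) b i ∧ shr (-(p / q)) b i ≤ 1 + p / q :=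
    fun i => by
    have : b i ≤ 3 := by
      have := single_le_sum (fun j _ => hb.1 j) (mem_univ i)
      rwa [hb.2] at this
    unfold shr
    constructor <;> nlinarith [hb.1 i]
  set y := shr (-(p / q)) b
  have k1 := chk_sound (hom_G3 8) (hom_G3 8) h1 s1 s2
  have k2 := dM_spec ha hy C.us 0 (diagZ C.u)
  have k3 : ∀ L, bil (outs L) (phi 8 a) (phi 8 y)
      = 39366 ^ 2 * (L.map fun e => ev7 e.1 a * ev7 e.2 y).sum := by
    intro L
    induction L with
    | nil => simp [outs, bil]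
    | cons e L ih =>
      rw [outs, bil_madd, ih, bil_outer, dR_H7 ha, dR_H7 hy, List.map_cons, List.sum_cons]; ring
  rw [h0, bil_diag, ← sum_phi link3, mul_sum, ← sum_add_distrib] at k2
  rw [← phi_eq, ← phi_eq, bil_madd, k2, k3] at k1
  have k4 : ∀ ρ : Perm (Fin 3), 9 ^ 8 * dR (cZ C.u) (phi 0 (a * y ∘ ρ)) + mv C.us 0 (a * y ∘ ρ)
      ≤ 6561 * 39366 * hom (ev7 c) (a * y ∘ ρ) := fun ρ => by
    have hw : ∀ i, 0 ≤ (a * y ∘ ρ) i := fun i => mul_nonneg (ha.1 i) (hy.1 _)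
    have e3 := sum3 ha
    have z0 : Zm (a * y ∘ ρ) = (a 0 * y (ρ 0) + a 1 * y (ρ 1) + a 2 * y (ρ 2)) / 3 := by
      simp [Zm, Fin.sum_univ_three]
    have m := fun i => mul_le_mul_of_nonneg_left (y1 (ρ i)).1 (ha.1 i)
    have m' := fun i => mul_le_mul_of_nonneg_left (y1 (ρ i)).2 (ha.1 i)
    have z1 : 1 - 2 * (p / q : ℝ) ≤ Zm (a * y ∘ ρ) := by
      rw [z0]; linear_combination (m 0 + m 1 + m 2) / 3 - (1 - 2 * (p / q : ℝ)) / 3 * e3
    have z2 : Zm (a * y ∘ ρ) ≤ 1 + p / q := by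
      rw [z0]; linear_combination (m' 0 + m' 1 + m' 2) / 3 + (1 + (p / q : ℝ)) / 3 * e3
    obtain ⟨z, hz, e⟩ := exists_simp hw
    generalize Zm (a * y ∘ ρ) = S at *
    obtain ⟨κ, s3, -⟩ := in_ch hz hq (by omega)
    have k5 : 0 ≤ bil (madd (smulZ (-6561) (up 3 8 0 C.u) :: qM C.us 0)
        [[], smulZ 6561 (vecMat c H7)]) (gvR GS [1, S, 0]) (phi 8 z) := by
      rw [phi_eq 8 z κ]
      rcases le_total S 1 with c | c
      · refine chk_sound hom_GS (hom_G3 8) h2 ⟨(1 - S) / (2 * p), (S - (1 - 2 * (p / q))) / (2 * p),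
          0, div_nonneg (by linarith) (by linarith), div_nonneg (by linarith) (by linarith),
          le_rfl, ?_⟩ s3
        simp only [List.cons.injEq, and_true, Nat.cast_sub hq]
        push_cast
        refine ⟨?_, ?_, ?_⟩ <;> field_simp <;> ring
      · refine chk_sound hom_GS (hom_G3 8) h3 ⟨(1 + p / q - S) / p, (S - 1) / p,
          0, div_nonneg (by linarith) cp.le, div_nonneg (by linarith) cp.le, le_rfl, ?_⟩ s3
        simp only [List.cons.injEq, and_true]
        push_cast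
        refine ⟨?_, ?_, ?_⟩ <;> field_simp <;> ring
    have k6 : gvR GS [1, S, 0] = 1 :: (List.range' (1 + 0) 8).map (S ^ ·) := by
      simp [gvR, GS, List.range', mon]
    have k7 := qM_spec hz S C.us 0
    have k8 := dR_up link3 z 8 0 C.u
    rw [h0, bil] at k7
    rw [bil_madd, k6, bil, List.map_cons, dR_cons, k7, dR_smulZ, k8, hz.ps_one] at k5
    rw [e, hom_smul, hz.hom, phi_smul]
    simp only [bil, List.range', List.map_cons, dR_cons, List.map_nil, dR_nil_right, dR_smulZ,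
      dR_H7 hz, cZ_nil, dR_nil_left] at k5
    push_cast at k5
    linarith
  have k9 := sum_le_sum fun ρ (_ : ρ ∈ univ) => k4 ρ
  rw [← mul_sum] at k9
  rw [avg]
  norm_num [Nat.factorial]
  linarith

/-! polynomials in two further variables -/

noncomputable def evP : List (List ℤ) → ℝ → ℝ → ℝ
  | [], _, _ => 0
  | v :: V, x, l => evL v l + x * evP V x l

lemma evP_madd (x l : ℝ) : ∀ U V, evP (madd U V) x l = evP U x l + evP V x l
  | [], V => by simp [madd, evP]
  | _ :: _, [] => by simp [madd, evP]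
  | u :: U, v :: V => by simp only [madd, evP, evL_vadd, evP_madd x l U V]; ring

lemma evP_pmul (x l : ℝ) (u : List ℤ) : ∀ V : List (List ℤ),
    evP (V.map (pmul u)) x l = evL u l * evP V x l
  | [] => by simp [evP]
  | v :: V => by simp only [List.map_cons, evP, evL_pmul, evP_pmul x l u V]; ring

def pad : ℕ → List ℤ → List ℤ → List ℤ
  | 0, _, r => r
  | H + 1, v, r => v.headD 0 :: pad H v.tail r

lemma dR_pad (c l : ℝ) (r : List ℤ) (r' : List ℝ) : ∀ (H s : ℕ) (v : List ℤ), v.length ≤ H →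
    dR (cZ (pad H v r)) ((List.range' s H).map (fun j => c * l ^ j) ++ r')
      = c * l ^ s * evL v l + dR (cZ r) r'
  | 0, s, [], _ => by simp [pad, evL]
  | H + 1, s, v, h => by
    have := dR_pad c l r r' H (s + 1) v.tail (by simp; omega)
    rw [pad, List.range'_succ, List.map_cons, List.cons_append, cZ_cons, dR_cons, this]
    cases v <;> simp [evL]; ring

def flat : List (List ℤ) → List ℤ
  | [] => []
  | v :: V => pad 13 v (flat V)

lemma dR_flat (x l : ℝ) : ∀ (V : List (List ℤ)) (W s : ℕ), V.length ≤ W →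
    (∀ v ∈ V, v.length ≤ 13) → dR (cZ (flat V)) ((List.range' s W).flatMap fun p =>
      (List.range' 0 13).map fun j => x ^ p * l ^ j) = x ^ s * evP V x l
  | [], _, _, _, _ => by simp [flat, evP]
  | v :: V, W + 1, s, h, h' => by
    rw [flat, List.range'_succ (n := W), List.flatMap_cons, dR_pad _ _ _ _ _ _ _ (h' v (by simp)),
      dR_flat x l V W _ (by simpa using h) fun v hv => h' v (List.mem_cons_of_mem _ hv), evP]
    ring

def GF : Grp :=
  (List.range' 0 5).flatMap fun p => (List.range' 0 13).map fun j => [[16 - p - j, p, j]]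

lemma hom_GF : Hom 16 GF := by unfold Hom; decide +kernel

def chkF (k kx : ℕ) (V : List (List (List ℤ))) (t : Tr) (T : Tri) : Bool :=
  V.all (fun U => Nat.ble U.length 5 && U.all fun v => Nat.ble v.length 13) &&
    chk k kx 8 16 (lsum H7 (V.map flat)) (G3 8) GF t Tch T

theorem chkF_sound {k kx : ℕ} {V : List (List (List ℤ))} {t : Tr} {T : Tri}
    (h : chkF k kx V t T = true) (ha : Simp a) {x l : ℝ} (hT : InT T [1, x, l]) :
    0 ≤ dR (fe a) (V.map (evP · x l)) := by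
  simp only [chkF, Bool.and_eq_true, List.all_eq_true, Nat.ble_eq] at h
  obtain ⟨σ, s1, -⟩ := in_ch ha (p := 0) (q := 1) (by omega) (by omega)
  have k1 := chk_sound (hom_G3 8) hom_GF h.2 s1 hT
  have k2 : gvR GF [1, x, l] = (List.range' 0 5).flatMap fun p =>
      (List.range' 0 13).map fun j => x ^ p * l ^ j := by
    simp only [gvR, GF, List.map_flatMap, List.map_map, Function.comp_def, mon, List.map_cons,
      List.map_nil, List.sum_cons, List.sum_nil, List.headD_cons, List.tail_cons, one_pow, one_mul,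
      mul_one, add_zero]
  rw [← phi_eq, bil_lsum, H7_spec ha, dR_map_mul, k2, List.map_map, List.map_congr_left
    (g := (evP · x l)) fun U hU => by
      rw [Function.comp_apply, dR_flat x l U 5 0 (h.1 U hU).1 (h.1 U hU).2, pow_zero, one_mul]] at k1
  linarith

end Vale.Agent.P154.AF
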