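import Vale.Agent.P154.AF.Acc

/-! The convolution over the children -/

namespace Vale.Agent.P154.AF

open Finset Equiv

noncomputable def rA (t : ℝ) (W R J : ℕ) : Vec := ![t ^ (J / W) / t ^ R, t ^ (J % W) / t ^ R, 1]

noncomputable def rE (t : ℝ) (R J : ℕ) : Vec := ![0, t ^ J / t ^ R, 1]

def QA (t : ℝ) (W R cw J : ℕ) (ρ : Vec) : Prop := J % W < cw ∧ ρ = rA t W R J

def QE (t : ℝ) (R J : ℕ) (ρ : Vec) : Prop := ρ = rE t R J

def z0 : Vec := ![0, 1, 1]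

variable {t : ℝ} {W R R' : ℕ}

lemma QA_mul {c c' : ℕ} (h : c + c' ≤ W + 1) (I : ℕ) (u : Vec) (J : ℕ) (v : Vec)
    (h1 : QA t W R c I u) (h2 : QA t W R' c' J v) : QA t W (R + R') W (I + J) (u * v) := by
  obtain ⟨a1, rfl⟩ := h1
  obtain ⟨a2, rfl⟩ := h2
  have hW : I % W + J % W < W := by omega
  have e1 : (I + J) % W = I % W + J % W := by rw [Nat.add_mod, Nat.mod_eq_of_lt hW]
  have e2 : (I + J) / W = I / W + J / W := Nat.add_div_eq_of_add_mod_lt hW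
  refine ⟨by omega, ?_⟩
  unfold rA
  rw [e1, e2]
  ext i
  fin_cases i <;> simp [pow_add, div_mul_div_comm]

lemma QE_mul (I : ℕ) (u : Vec) (J : ℕ) (v : Vec) (h1 : QE t R I u) (h2 : QE t R' J v) :
    QE t (R + R') (I + J) (u * v) := by
  rw [h1, h2]
  unfold QE rE
  ext i
  fin_cases i <;> simp [pow_add, div_mul_div_comm]

lemma rA_shift (ht : 0 < t) {J s : ℕ} (h : J % W + s < W) :
    rA t W (s + R) (J + (s * W + s)) = rA t W R J := by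
  have hW : 0 < W := by omega
  have e0 : J + (s * W + s) = (J % W + s) + (J / W + s) * W := by
    have := Nat.div_add_mod' J W
    rw [add_mul]; omega
  unfold rA
  rw [e0, Nat.add_mul_mod_self_right, Nat.mod_eq_of_lt h, Nat.add_mul_div_right _ _ hW,
    Nat.div_eq_of_lt h, zero_add]
  ext i
  fin_cases i <;> simp [pow_add] <;> field_simp

lemma rE_shift (ht : 0 < t) (J s : ℕ) : rE t (s + R) (J + s) = rE t R J := by
  unfold rE
  ext i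
  fin_cases i <;> simp [pow_add]
  field_simp

lemma rE_self (ht : 0 < t) (R : ℕ) : rE t R R = z0 := by
  unfold rE z0
  rw [div_self (by positivity)]

lemma z0_rE (R J : ℕ) : z0 * rE t R J = rE t R J := by
  unfold rE z0
  ext i
  fin_cases i <;> simp

lemma z0_z0 : z0 * z0 = z0 := by
  unfold z0
  ext i
  fin_cases i <;> simp

lemma nh_abs : NH fun w => |w 2| :=
  ⟨fun _ => abs_nonneg _, fun a w ha => by simp [abs_mul, abs_of_nonneg ha]⟩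

lemma V_nonneg (r : ℕ → Vec) (N : ℕ) {Φ : Vec → ℝ} (h : NH Φ) : 0 ≤ V r N Φ :=
  sum_nonneg fun _ _ => mul_nonneg (Nat.cast_nonneg _) (h.nonneg _)

lemma NH.v {Φ : Vec → ℝ} (h : NH Φ) (r : ℕ → Vec) (N : ℕ) :
    NH fun y => V r N fun w => Φ (y * w) :=
  ⟨fun y => V_nonneg r N (h.mul y), fun a y ha => by
    simp only [V, smul_mul_assoc, h.smul _ _ ha, mul_sum]
    exact sum_congr rfl fun _ _ => by ring⟩

lemma msA {N s h w : ℕ} {f : (Vec → ℝ) → ℝ} (ht : 0 < t) (hw : w + s ≤ W) (h0 : 0 < W)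
    {c : ℕ} (F : Fam (QA t W (s + R) c) N f) (hB : f (fun w => |w 2|) ≤ 2 ^ 80) {Φ : Vec → ℝ}
    (hΦ : NH Φ) : 2 ^ 40 * V (rA t W R) (ms N (s * W + s) (mask2 W h w)) Φ ≤ f Φ :=
  F.read_ms (fun J ρ q => by rw [q.2]; rfl) (by rw [B_real]; linarith) _ _
    (fun j => (dig_mask2 W h w j (by omega) h0).1) _ id (Set.injOn_id _) _
    (fun a _ e ρ q => by
      have := (dig_mask2 W h w a (by omega) h0).2 e
      rw [q.2]
      exact (rA_shift ht (by omega)).symm)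
    (fun _ _ _ => hΦ.nonneg _) fun _ _ => hΦ.nonneg _

lemma msE {N s w : ℕ} {f : (Vec → ℝ) → ℝ} (ht : 0 < t)
    (F : Fam (QE t (s + R)) N f) (hB : f (fun w => |w 2|) ≤ 2 ^ 81) {Φ : Vec → ℝ}
    (hΦ : NH Φ) : 2 ^ 40 * V (rE t R) (ms N s (mask1 w)) Φ ≤ f Φ :=
  F.read_ms (fun J ρ q => by rw [q]; rfl) (by rw [B_real]; linarith) _ _
    (fun j => (dig_mask1 w j).1) _ id (Set.injOn_id _) _
    (fun a _ _ ρ q => by rw [q]; exact (rE_shift ht _ _).symm)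
    (fun _ _ _ => hΦ.nonneg _) fun _ _ => hΦ.nonneg _

lemma canA {N s h w : ℕ} (hw : w ≤ W) (h0 : 0 < W) :
    Fam (QA t W R w) (ms N s (mask2 W h w)) (V (rA t W R) (ms N s (mask2 W h w))) :=
  Fam.canon fun J e => ⟨(dig_mask2 W h w J hw h0).2 (dig_ms_ne _ _ _ _ e), rfl⟩

lemma canE (N : ℕ) : Fam (QE t R) N (V (rE t R) N) := Fam.canon fun _ _ => rfl

/-- the data of one level -/
structure Lev (t : ℝ) (W ry w : ℕ) (M Mb ω : ℕ) (L : ℕ → (Vec → ℝ) → ℝ) : Prop where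
  ht : 0 < t
  hW : w + 2 * ry = W
  hw : 0 < w
  fM : Fam (QA t W ry (2 * ry + 1)) M (V (rA t W ry) M)
  mass : ∀ k, L k (fun w => |w 2|) ≤ 1
  step : ∀ (k : ℕ) (Φ Ψ Θ : Vec → ℝ), NH Φ → NH Ψ → NH Θ →
    (∀ y, Ψ y + Θ (z0 * y) ≤ 2 ^ 40 * L k fun w => Φ (y * w)) →
    V (rA t W ry) M Ψ + V (rE t ry) Mb Θ + ω * (2 ^ 40 * L k fun w => Φ (z0 * w))
      ≤ 2 ^ 40 * (2 ^ 40 * L (k + 1) Φ)

def Inv (t : ℝ) (W r2 w : ℕ) (L : (Vec → ℝ) → ℝ) (P E T : ℕ) : Prop :=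
  Fam (QA t W r2 w) P (V (rA t W r2) P) ∧
    ∀ Φ, NH Φ → V (rA t W r2) P Φ + V (rE t r2) E Φ ≤ 2 ^ 40 * L Φ ∧
      V (rE t r2) T Φ ≤ 2 ^ 40 * L fun w => Φ (z0 * w)

lemma V_z0 (N : ℕ) (Φ : Vec → ℝ) : V (rE t R) N (fun w => Φ (z0 * w)) = V (rE t R) N Φ := by
  simp only [V, z0_rE]

lemma nh_zero : NH fun _ => 0 := ⟨fun _ => le_rfl, by simp⟩

lemma Lev.inv {ry w r2 M Mb ω : ℕ} {L : ℕ → (Vec → ℝ) → ℝ} (H : Lev t W ry w M Mb ω L)
    {k P E T : ℕ} (I : Inv t W r2 w (L k) P E T) :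
    Inv t W r2 w (L (k + 1)) (ms (M * P) (ry * W + ry) (mask2 W w w))
      (ms (Mb * E + dg ω ry * T) ry (mask1 w)) (ms ((Mb + dg ω ry) * T) ry (mask1 w)) := by
  obtain ⟨fP, I⟩ := I
  have ht := H.ht
  have hW := H.hW
  have hw := H.hw
  have fo : Fam (QE t ry) (dg ω ry) fun Φ => ω * Φ z0 := Fam.single ω (rE_self ht ry).symm
  have f1 := H.fM.mul fP (QA_mul (by omega))
  have f2 := ((canE (t := t) (R := ry) Mb).mul (canE (R := r2) E) QE_mul).add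
    (fo.mul (canE (R := r2) T) QE_mul)
  have f3 := ((canE (t := t) (R := ry) Mb).add fo).mul (canE (R := r2) T) QE_mul
  simp only [V_z0] at f2 f3
  have hω : (0 : ℝ) ≤ ω := Nat.cast_nonneg _
  have k1 : ∀ Φ, NH Φ → (V (rA t W ry) M fun y => V (rA t W r2) P fun w => Φ (y * w))
      + ((V (rE t ry) Mb fun y => V (rE t r2) E fun w => Φ (y * w)) + ω * V (rE t r2) T Φ)
      ≤ 2 ^ 40 * (2 ^ 40 * L (k + 1) Φ) := fun Φ hΦ => by
    have := H.step k Φ _ _ hΦ (hΦ.v (rA t W r2) P) (hΦ.v (rE t r2) E) fun y => by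
      have := (I _ (hΦ.mul y)).1
      rw [← V_z0] at this
      simpa only [mul_assoc, mul_left_comm] using this
    linarith [mul_le_mul_of_nonneg_left (I _ hΦ).2 hω]
  have k2 : ∀ Φ, NH Φ → (V (rE t ry) Mb fun y => V (rE t r2) T fun w => Φ (y * w))
      + ω * V (rE t r2) T Φ ≤ 2 ^ 40 * (2 ^ 40 * L (k + 1) fun w => Φ (z0 * w)) := fun Φ hΦ => by
    have := H.step k _ _ _ (hΦ.mul z0) nh_zero (hΦ.v (rE t r2) T) fun y => by
      have := (I _ (hΦ.mul (z0 * y))).2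
      rw [zero_add]
      refine this.trans (le_of_eq ?_)
      congr 2
      ext w
      rw [mul_mul_mul_comm, z0_z0]
    simp only [← mul_assoc z0 z0, z0_z0] at this
    have h0 : V (rA t W ry) M (fun _ => 0) = 0 := by simp [V]
    linarith [mul_le_mul_of_nonneg_left (I _ hΦ).2 hω]
  have m1 := k1 _ nh_abs
  have m2 := k2 _ nh_abs
  have m3 := H.mass (k + 1)
  have e3 : (fun w : Vec => |(z0 * w) 2|) = fun w => |w 2| := by ext w; simp [z0]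
  rw [e3] at m2
  have n1 := V_nonneg (rA t W ry) M (nh_abs.v (rA t W r2) P)
  have n2 := V_nonneg (rE t ry) Mb (nh_abs.v (rE t r2) E)
  have n3 := mul_nonneg hω (V_nonneg (rE t r2) T nh_abs)
  refine ⟨canA (by omega) (by omega), fun Φ hΦ => ⟨?_, ?_⟩⟩
  · have a1 := msA (h := w) (w := w) ht (by omega) (by omega) f1 (by linarith) hΦ
    have a2 := msE (w := w) ht f2 (by linarith) hΦ
    linarith [k1 Φ hΦ]
  · have a3 := msE (w := w) ht f3 (by linarith) hΦ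
    linarith [k2 Φ hΦ]

def Out (t : ℝ) (W r2 w : ℕ) (X : (Vec → ℝ) → ℝ) (OA OE : ℕ) : Prop :=
  ∃ fA fE, Fam (QA t W r2 w) OA fA ∧ Fam (QE t r2) OE fE ∧
    ∀ Φ, NH Φ → fA Φ + fE Φ ≤ 2 ^ 40 * (2 ^ 40 * X Φ)

def Wok (p : ℕ → ℝ) : ℕ → List ℕ → Prop
  | _, [] => True
  | k, w :: ws => (w : ℝ) ≤ 2 ^ 40 * p (k + 1) ∧ Wok p (k + 1) ws

lemma Lev.kids {ry w r2 M Mb ω : ℕ} {L : ℕ → (Vec → ℝ) → ℝ} (H : Lev t W ry w M Mb ω L)
    {p : ℕ → ℝ} {Goal : ℕ → Prop} {K : ℕ → ℕ → ℕ}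
    (hK : ∀ k OA OE, Out t W r2 w (fun Φ => ∑ j ∈ range (k + 1), p j * L j Φ) OA OE →
      Goal (K OA OE)) :
    ∀ (ws : List ℕ) (k P E T OA OE : ℕ), Wok p k ws → Inv t W r2 w (L k) P E T →
      Out t W r2 w (fun Φ => ∑ j ∈ range (k + 1), p j * L j Φ) OA OE →
      Goal (kids M Mb (dg ω ry) (ry * W + ry) ry (mask2 W w w) (mask1 w) K ws P E T OA OE)
  | [], k, _, _, _, OA, OE, _, _, h => hK k OA OE h
  | v :: ws, k, P, E, T, OA, OE, hw, I, ⟨fA, fE, h1, h2, h3⟩ => by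
    have I' := H.inv I
    refine Lev.kids H hK ws (k + 1) _ _ _ _ _ hw.2 I' ⟨_, _, h1.add (I'.1.smul v),
      h2.add ((canE _).smul v), fun Φ hΦ => ?_⟩
    have a := (I'.2 Φ hΦ).1
    have b := mul_le_mul hw.1 a (add_nonneg (V_nonneg _ _ hΦ) (V_nonneg _ _ hΦ))
      ((Nat.cast_nonneg _).trans hw.1)
    have := h3 Φ hΦ
    beta_reduce at this ⊢
    rw [sum_range_succ]
    simp only [Nat.mul_eq, Nat.add_eq]
    linarith

end Vale.Agent.P154.AF
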