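import Vale.Agent.P154.Pair
import Vale.Agent.P154.AF.Pack

/-! Coefficient positivity on products of two triangles, by Kronecker substitution -/

namespace Vale.Agent.P154.AF

open Finset

inductive Pol (W : ℕ) (x y z : ℝ) (d : ℕ) : (ℕ → ℕ) → ℝ → Prop
  | zero : Pol W x y z d (fun _ => 0) 0
  | step (c i j : ℕ) (h : i + j ≤ d) {N : ℕ → ℕ} {r : ℝ} : Pol W x y z d N r →
      Pol W x y z d (fun B => c * B ^ (i + W * j) + N B) (c * (x ^ (d - i - j) * y ^ i * z ^ j) + r)

variable {W d d' : ℕ} {x y z r r' : ℝ} {N N' : ℕ → ℕ}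

lemma Pol.congr (h : Pol W x y z d N r) (e : ∀ B, N' B = N B) (e' : r' = r) :
    Pol W x y z d N' r' := by rwa [funext e, e']

lemma Pol.add (h : Pol W x y z d N r) (h' : Pol W x y z d N' r') :
    Pol W x y z d (fun B => N B + N' B) (r + r') := by
  induction h with
  | zero => exact h'.congr (fun _ => zero_add _) (zero_add _)
  | step c i j h _ ih => exact (ih.step c i j h).congr (fun _ => add_assoc _ _ _) (add_assoc _ _ _)

lemma Pol.mul1 (h : Pol W x y z d N r) (c i j : ℕ) (hij : i + j ≤ d') :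
    Pol W x y z (d' + d) (fun B => c * B ^ (i + W * j) * N B)
      (c * (x ^ (d' - i - j) * y ^ i * z ^ j) * r) := by
  induction h with
  | zero => exact Pol.zero.congr (fun _ => mul_zero _) (mul_zero _)
  | step c' i' j' h _ ih =>
    refine (ih.step (c * c') (i + i') (j + j') (by omega)).congr (fun B => by ring) ?_
    rw [show d' + d - (i + i') - (j + j') = d' - i - j + (d - i' - j') by omega]
    push_cast
    ring

lemma Pol.mul (h : Pol W x y z d N r) (h' : Pol W x y z d' N' r') :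
    Pol W x y z (d + d') (fun B => N B * N' B) (r * r') := by
  induction h with
  | zero => exact Pol.zero.congr (fun _ => zero_mul _) (zero_mul _)
  | step c i j h _ ih => exact ((h'.mul1 c i j h).add ih).congr (fun _ => add_mul _ _ _) (add_mul _ _ _)

lemma Pol.one : Pol W x y z 0 (fun _ => 1) 1 :=
  (Pol.zero.step 1 0 0 le_rfl).congr (fun _ => by simp) (by simp)

lemma Pol.pow (h : Pol W x y z 1 N r) : ∀ k, Pol W x y z k (fun B => N B ^ k) (r ^ k)
  | 0 => Pol.one.congr (fun _ => pow_zero _) (pow_zero _)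
  | k + 1 => ((h.pow k).mul h).congr (fun _ => pow_succ _ _) (pow_succ _ _)

lemma Pol.lin (a b c : ℕ) :
    Pol W x y z 1 (fun B => a + B * b + B ^ W * c) (x * a + y * b + z * c) :=
  (((Pol.zero.step c 0 1 le_rfl).step b 1 0 le_rfl).step a 0 0 (by simp)).congr
    (fun _ => by simp; ring) (by simp; ring)

def monN : List ℕ → List ℕ → ℕ
  | [], _ => 1
  | k :: l, xs => Nat.mul (Nat.pow (xs.headD 0) k) (monN l xs.tail)

lemma Pol.mon : ∀ (e : List ℕ) {cs : List (ℕ → ℕ)} {xs : List ℝ},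
    List.Forall₂ (Pol W x y z 1) cs xs →
    Pol W x y z e.sum (fun B => monN e (cs.map (· B))) (mon e xs)
  | [], _, _, _ => Pol.one
  | k :: l, _, _, .nil => (Pol.zero.pow k).mul (Pol.mon l .nil)
  | k :: l, _, _, .cons h t => (h.pow k).mul (Pol.mon l t)

def valid (W d J : ℕ) : Bool := Nat.ble (Nat.add (Nat.mod J W) (Nat.div J W)) d

noncomputable def mo (W d : ℕ) (x y z : ℝ) (J : ℕ) : ℝ :=
  if valid W d J then x ^ (d - J % W - J / W) * y ^ (J % W) * z ^ (J / W) else 0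

def Rep (d : ℕ) (x y z : ℝ) (N : ℕ → ℕ) (r : ℝ) (c : ℕ → ℕ) : Prop :=
  (∀ B, N B = ∑ J ∈ range ((d + 1) * (d + 1)), c J * B ^ J) ∧
    r = ∑ J ∈ range ((d + 1) * (d + 1)), c J * mo (d + 1) d x y z J

lemma Pol.rep (h : Pol (d + 1) x y z d N r) : ∃ c, Rep d x y z N r c := by
  induction h with
  | zero => exact ⟨fun _ => 0, by simp, by simp⟩
  | step c i j h _ ih =>
    obtain ⟨f, h1, h2⟩ := ih
    unfold Rep
    have m : i + (d + 1) * j ∈ range ((d + 1) * (d + 1)) := mem_range.2 (by nlinarith)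
    have e1 : (i + (d + 1) * j) % (d + 1) = i := by
      rw [Nat.add_mul_mod_self_left, Nat.mod_eq_of_lt (by omega)]
    have e2 : (i + (d + 1) * j) / (d + 1) = j := by
      rw [Nat.add_mul_div_left _ _ (by omega), Nat.div_eq_of_lt (by omega), zero_add]
    generalize (d + 1) * (d + 1) = L at *
    generalize i + (d + 1) * j = I at *
    refine ⟨fun J => (if I = J then c else 0) + f J, fun B => ?_, ?_⟩
    · simp only [add_mul, sum_add_distrib, ite_mul, zero_mul, sum_ite_eq, m, if_true, h1]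
    · simp only [Nat.cast_add, Nat.cast_ite, Nat.cast_zero, add_mul, sum_add_distrib, ite_mul,
        zero_mul, sum_ite_eq, m, if_true, ← h2]
      rw [mo, e1, e2, if_pos]
      rw [valid, Nat.ble_eq]
      change I % (d + 1) + I / (d + 1) ≤ d
      omega

abbrev Grp := List (List (List ℕ))

def gvN (G : Grp) (cs : List ℕ) : List ℕ := G.map fun g => (g.map (monN · cs)).sum

noncomputable def gvR (G : Grp) (xs : List ℝ) : List ℝ := G.map fun g => (g.map (mon · xs)).sum

def Hom (d : ℕ) (G : Grp) : Prop := ∀ g ∈ G, ∀ e ∈ g, e.sum = d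

lemma rep_list {cs : List (ℕ → ℕ)} {xs : List ℝ} (h : List.Forall₂ (Pol (d + 1) x y z 1) cs xs) :
    ∀ G : Grp, Hom d G → ∃ C : List (ℕ → ℕ),
      (∀ B, gvN G (cs.map (· B))
        = C.map fun c => ∑ J ∈ range ((d + 1) * (d + 1)), c J * B ^ J) ∧
      ∀ f, dR f (gvR G xs)
        = ∑ J ∈ range ((d + 1) * (d + 1)), mo (d + 1) d x y z J * dR (cN (C.map (· J))) f
  | [], _ => ⟨[], fun _ => rfl, by simp [gvR]⟩
  | g :: G, H => by
    obtain ⟨C, h1, h2⟩ := rep_list h G fun g hg => H g (List.mem_cons_of_mem _ hg)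
    have : ∀ g : List (List ℕ), (∀ e ∈ g, e.sum = d) → Pol (d + 1) x y z d
        (fun B => (g.map (monN · (cs.map (· B)))).sum) (g.map (mon · xs)).sum := by
      intro g
      induction g with
      | nil => exact fun _ => Pol.zero
      | cons e g ih =>
        intro hg
        exact (hg e (by simp) ▸ Pol.mon e h).add (ih fun e he => hg e (List.mem_cons_of_mem _ he))
    obtain ⟨c, a1, a2⟩ := (this g (H g (by simp))).rep
    refine ⟨c :: C, fun B => ?_, fun f => ?_⟩
    · rw [List.map_cons, ← h1, ← a1]; rfl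
    · cases f with
      | nil => simp
      | cons t f =>
        change t * (g.map (mon · xs)).sum + dR f (gvR G xs) = _
        rw [h2, a2, mul_sum, ← sum_add_distrib]
        exact sum_congr rfl fun J _ => by simp; ring

lemma digit_sum {B : ℕ} : ∀ (n : ℕ) (a : ℕ → ℕ), (∀ J < n, a J < B) → ∀ j < n,
    (∑ J ∈ range n, a J * B ^ J) / B ^ j % B = a j
  | n + 1, a, h, j, hj => by
    have h0 := h 0 (by omega)
    have e : ∑ J ∈ range (n + 1), a J * B ^ J = a 0 + B * ∑ J ∈ range n, a (J + 1) * B ^ J := by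
      rw [sum_range_succ', mul_sum, add_comm, pow_zero, mul_one]
      exact congrArg _ (sum_congr rfl fun J _ => by ring)
    rw [e]
    cases j with
    | zero => simpa using Nat.mod_eq_of_lt h0
    | succ j =>
      rw [pow_succ', ← Nat.div_div_eq_div_mul, Nat.add_mul_div_left _ _ (by omega),
        Nat.div_eq_of_lt h0, zero_add]
      exact digit_sum n _ (fun J hJ => h _ (by omega)) j (by omega)

lemma vaddN_map {α : Type} (f g : α → ℕ) : ∀ C : List α,
    vaddN (C.map f) (C.map g) = C.map fun c => f c + g c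
  | [] => rfl
  | _ :: C => congrArg (List.cons _) (vaddN_map f g C)

lemma vaddN_nil : ∀ u : List ℕ, vaddN u [] = u
  | [] => rfl
  | _ :: _ => rfl

lemma packC_range (B : ℕ) (C : List (ℕ → ℕ)) : ∀ n s,
    packC B ((List.range' s (n + 1)).map fun J => C.map (· J))
      = C.map fun c => ∑ J ∈ range (n + 1), c (s + J) * B ^ J
  | 0, s => by simp [packC, vaddN_nil]
  | n + 1, s => by
    rw [List.range'_succ, List.map_cons, packC, packC_range B C n, List.map_map, vaddN_map]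
    refine List.map_congr_left fun c _ => ?_
    rw [sum_range_succ' _ (n + 1), Function.comp_apply, Nat.mul_eq, mul_sum, add_comm]
    simp only [pow_zero, mul_one, add_zero, add_assoc, add_comm 1]
    exact congrArg (· + _) (sum_congr rfl fun J _ => by ring)

lemma pk_const (B h : ℕ) {α : Type} : ∀ Y : List α,
    pk B (Y.map fun _ => h) = h * ∑ i ∈ range Y.length, B ^ i
  | [] => by simp [pk]
  | _ :: Y => by
    rw [List.map_cons, pk_cons, pk_const B h Y, List.length_cons, sum_range_succ']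
    simp only [pow_succ', ← mul_sum]
    ring

structure Pt where
  a : ℕ
  b : ℕ
  c : ℕ

structure Tri where
  u : Pt
  v : Pt
  w : Pt

def kp (T : Tri) (B C : ℕ) : List ℕ :=
  [Nat.add (Nat.add T.u.a (Nat.mul B T.v.a)) (Nat.mul C T.w.a),
    Nat.add (Nat.add T.u.b (Nat.mul B T.v.b)) (Nat.mul C T.w.b),
    Nat.add (Nat.add T.u.c (Nat.mul B T.v.c)) (Nat.mul C T.w.c)]

def InT (T : Tri) (xs : List ℝ) : Prop :=
  ∃ x y z : ℝ, 0 ≤ x ∧ 0 ≤ y ∧ 0 ≤ z ∧ xs = [x * T.u.a + y * T.v.a + z * T.w.a,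
    x * T.u.b + y * T.v.b + z * T.w.b, x * T.u.c + y * T.v.c + z * T.w.c]

lemma InT.rep {T : Tri} {xs : List ℝ} (h : InT T xs) {G : Grp} (H : Hom d G) :
    ∃ C : List (ℕ → ℕ), (∀ B, gvN G (kp T B (B ^ (d + 1)))
        = C.map fun c => ∑ J ∈ range ((d + 1) * (d + 1)), c J * B ^ J) ∧
      ∀ X : List (List ℕ), (∀ J < (d + 1) * (d + 1), valid (d + 1) d J → C.map (· J) ∈ X) →
        InCone X (gvR G xs) := by
  obtain ⟨x, y, z, hx, hy, hz, rfl⟩ := h
  obtain ⟨C, h1, h2⟩ := rep_list (.cons (Pol.lin T.u.a T.v.a T.w.a) (.cons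
    (Pol.lin T.u.b T.v.b T.w.b) (.cons (Pol.lin (x := x) (y := y) (z := z) T.u.c T.v.c T.w.c)
    .nil))) G H
  refine ⟨C, h1, fun X hX f hf => ?_⟩
  rw [h2]
  refine sum_nonneg fun J hJ => ?_
  unfold mo
  split_ifs with v
  · exact mul_nonneg (by positivity) (hf _ (hX J (mem_range.1 hJ) v))
  · simp

def rowsX (kx n : ℕ) (Ns : List ℕ) : List (List ℕ) :=
  ((List.range' 0 ((n + 1) * (n + 1))).filter (valid (n + 1) n)).map fun J =>
    Ns.map fun N => Nat.mod (Nat.shiftRight N (Nat.mul kx J)) (Nat.pow 2 kx)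

def chkK2 (k m : ℕ) (P N : List (List ℕ)) (U V : List ℕ) (X : List (List ℕ)) : Bool :=
  chkRows (2 ^ k) (2 ^ k * geo (k + 1) ((m + 1) * (m + 1))) (P.map (dN · U)) (N.map (dN · U))
    (P.map (dN · V)) (N.map (dN · V)) X

def chkK (k kx n m : ℕ) (P N : List (List ℕ)) (G G' : Grp) (T T' : Tri) : Bool :=
  (gvN G (kp T 1 1)).all (Nat.blt · (Nat.pow 2 kx)) &&
    chkK2 k m P N (gvN G' (kp T' (2 ^ (k + 1)) ((2 ^ (k + 1)) ^ (m + 1)))) (gvN G' (kp T' 1 1))
      (rowsX kx n (gvN G (kp T (2 ^ kx) ((2 ^ kx) ^ (n + 1)))))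

lemma chkK_sound {k kx n m : ℕ} {M : List (List ℤ)} {G G' : Grp} (H : Hom n G) (H' : Hom m G')
    {T T' : Tri} (h : chkK k kx n m (posM M) (negM M) G G' T T' = true) {xs ys : List ℝ}
    (hx : InT T xs) (hy : InT T' ys) : 0 ≤ bil M (gvR G xs) (gvR G' ys) := by
  obtain ⟨C, a1, a2⟩ := hx.rep H
  obtain ⟨C', b1, b2⟩ := hy.rep H'
  simp only [chkK, Bool.and_eq_true, List.all_eq_true, Nat.blt_eq] at h
  obtain ⟨h1, h2⟩ := h
  have p := fun B => packC_range B C' (m * (m + 1) + m) 0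
  rw [show m * (m + 1) + m + 1 = (m + 1) * (m + 1) by ring] at p
  simp only [zero_add, ← b1] at p
  have p1 := p 1
  have a3 := a1 1
  rw [one_pow] at p1 a3
  refine chkBil_sound (k := k) ?_ (a2 (rowsX kx n (gvN G (kp T (2 ^ kx) ((2 ^ kx) ^ (n + 1)))))
    fun J hJ v => ?_) (b2 ((List.range' 0 ((m + 1) * (m + 1))).map fun J => C'.map (· J))
    fun J hJ _ => List.mem_map_of_mem (by simpa using hJ))
  · rw [chkBil, p, p1, pk_const, List.length_map, List.length_range', ← geo_eq _ _ (by omega)]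
    exact h2
  · refine List.mem_map.2 ⟨J, List.mem_filter.2 ⟨by simpa using hJ, v⟩, ?_⟩
    rw [a1, List.map_map]
    refine List.map_congr_left fun c hc => ?_
    have := h1 _ (a3 ▸ List.mem_map_of_mem hc)
    simp only [one_pow, mul_one] at this
    rw [Function.comp_apply, shr_eq, Nat.mul_eq, pow_mul]
    exact digit_sum _ c (fun I hI => lt_of_le_of_lt (single_le_sum (fun _ _ => Nat.zero_le _)
      (mem_range.2 hI)) this) J hJ

/-! subdivision -/

inductive Tr
  | l : Tr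
  | n : Bool → ℕ → ℕ → ℕ → Tr → Tr → Tr

def Tri.rot (T : Tri) : ℕ → Tri
  | 0 => T
  | 1 => ⟨T.v, T.w, T.u⟩
  | _ => ⟨T.w, T.u, T.v⟩

def Tri.mid (T : Tri) (p q : ℕ) : Pt :=
  ⟨Nat.add (Nat.mul p T.u.a) (Nat.mul q T.v.a), Nat.add (Nat.mul p T.u.b) (Nat.mul q T.v.b),
    Nat.add (Nat.mul p T.u.c) (Nat.mul q T.v.c)⟩

def Tri.fst (T : Tri) (p q : ℕ) : Tri := ⟨T.u, T.mid p q, T.w⟩

def Tri.snd (T : Tri) (p q : ℕ) : Tri := ⟨T.mid p q, T.v, T.w⟩

lemma InT.rot {T : Tri} {xs : List ℝ} (h : InT T xs) : ∀ r, InT (T.rot r) xs := by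
  obtain ⟨x, y, z, hx, hy, hz, rfl⟩ := h
  rintro (_ | _ | r)
  · exact ⟨x, y, z, hx, hy, hz, rfl⟩
  · exact ⟨y, z, x, hy, hz, hx, by simp only [Tri.rot]; ring_nf⟩
  · exact ⟨z, x, y, hz, hx, hy, by simp only [Tri.rot]; ring_nf⟩

lemma InT.split {T : Tri} {xs : List ℝ} (h : InT T xs) (p q : ℕ) :
    InT (T.fst (p + 1) (q + 1)) xs ∨ InT (T.snd (p + 1) (q + 1)) xs := by
  obtain ⟨x, y, z, hx, hy, hz, rfl⟩ := h
  have hp : (0 : ℝ) < p + 1 := by positivity
  have hq : (0 : ℝ) < q + 1 := by positivity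
  rcases le_total (y * (p + 1)) (x * (q + 1)) with c | c
  · refine Or.inl ⟨x - y * (p + 1) / (q + 1), y / (q + 1), z,
      sub_nonneg.2 ((div_le_iff₀ hq).2 c), by positivity, hz, ?_⟩
    simp only [Tri.fst, Tri.mid, Nat.add_eq, Nat.mul_eq, List.cons.injEq, and_true]
    push_cast
    refine ⟨?_, ?_, ?_⟩ <;> field_simp <;> ring
  · refine Or.inr ⟨x / (p + 1), y - x * (q + 1) / (p + 1), z, by positivity,
      sub_nonneg.2 ((div_le_iff₀ hp).2 c), hz, ?_⟩
    simp only [Tri.snd, Tri.mid, Nat.add_eq, Nat.mul_eq, List.cons.injEq, and_true]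
    push_cast
    refine ⟨?_, ?_, ?_⟩ <;> field_simp <;> ring

def chkT (f : Tri → Tri → Bool) : Tr → Tri → Tri → Bool
  | .l, T, T' => f T T'
  | .n false r p q s t, T, T' => chkT f s ((T.rot r).fst (p + 1) (q + 1)) T' &&
      chkT f t ((T.rot r).snd (p + 1) (q + 1)) T'
  | .n true r p q s t, T, T' => chkT f s T ((T'.rot r).fst (p + 1) (q + 1)) &&
      chkT f t T ((T'.rot r).snd (p + 1) (q + 1))

lemma chkT_sound {f : Tri → Tri → Bool} {xs ys : List ℝ} {P : Prop}
    (hf : ∀ T T', f T T' = true → InT T xs → InT T' ys → P) :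
    ∀ (t : Tr) (T T' : Tri), chkT f t T T' = true → InT T xs → InT T' ys → P
  | .l, T, T', h, hx, hy => hf T T' h hx hy
  | .n false r p q s t, T, T', h, hx, hy => by
    simp only [chkT, Bool.and_eq_true] at h
    exact ((hx.rot r).split p q).elim (chkT_sound hf s _ _ h.1 · hy) (chkT_sound hf t _ _ h.2 · hy)
  | .n true r p q s t, T, T', h, hx, hy => by
    simp only [chkT, Bool.and_eq_true] at h
    exact ((hy.rot r).split p q).elim (chkT_sound hf s _ _ h.1 hx) (chkT_sound hf t _ _ h.2 hx)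

def chk2 (k kx n m : ℕ) (P N : List (List ℕ)) (G G' : Grp) : Tr → Tri → Tri → Bool :=
  chkT (chkK k kx n m P N G G')

def chk (k kx n m : ℕ) (M : List (List ℤ)) (G G' : Grp) : Tr → Tri → Tri → Bool :=
  chk2 k kx n m (posM M) (negM M) G G'

theorem chk_sound {k kx n m : ℕ} {M : List (List ℤ)} {G G' : Grp} (H : Hom n G) (H' : Hom m G')
    {t : Tr} {T T' : Tri} (h : chk k kx n m M G G' t T T' = true) {xs ys : List ℝ}
    (hx : InT T xs) (hy : InT T' ys) : 0 ≤ bil M (gvR G xs) (gvR G' ys) :=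
  chkT_sound (fun _ _ h => chkK_sound H H' h) t T T' h hx hy

end Vale.Agent.P154.AF
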