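import Vale.Agent.P154.KS

/-! Degradation of the channel and thinning of the offspring law -/

namespace Vale.Agent.P154.AF

open Finset Filter

variable {q : ℕ} [NeZero q] {O O' O'' : Type} {W : O → Fin q → ℝ} {Y : O' → Fin q → ℝ}
  {U : O'' → Fin q → ℝ} {h : (Fin q → ℝ) → ℝ}

omit [NeZero q] in
lemma dom_trans (h1 : Dom W Y) (h2 : Dom Y U) : Dom W U := fun h H => (h1 h H).trans (h2 h H)

omit [NeZero q] in
lemma subl_mul (H : SubL h) (y : Fin q → ℝ) : SubL fun w => h (y * w) :=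
  H.comp (LinearMap.mulLeft ℝ y)

lemma hasSum_fib (hW : IsExp W) (hY : IsExp Y) (H : SubL h) :
    HasSum (fun o => Ex Y fun y => h (W o * y)) (Ex (prodE W Y) h) :=
  ((hW.prod hY).hasSum_subl H).prod_fiberwise fun o => hY.hasSum_subl (subl_mul H (W o))

lemma jensen (hY : IsExp Y) (H : SubL h) : h 1 ≤ Ex Y h := by
  have h0 : h 0 = 0 := by simpa using H.smul 0 0 le_rfl
  have h1 : HasSum Y 1 := Pi.hasSum.2 hY.sum
  exact le_of_tendsto_of_tendsto' ((H.cont.tendsto _).comp h1) (hY.hasSum_subl H)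
    fun s => le_sum_of_subadditive h h0.le H.add _ _

lemma pow_mono (hY : IsExp Y) (H : SubL h) : Monotone fun k => Ex (powE Y k) h := by
  refine monotone_nat_of_le_succ fun k => ?_
  rw [Ex_pow_succ, Ex_prod_comm]
  refine hasSum_le (fun o => ?_) ((hY.pow k).hasSum_subl H) (hasSum_fib (hY.pow k) hY H)
  simpa using jensen hY (subl_mul H (powE Y k o))

/-- binomial averages -/
noncomputable def bin (θ : ℝ) (a : ℕ → ℝ) (k : ℕ) : ℝ :=
  ∑ m ∈ antidiagonal k, k.choose m.1 * θ ^ m.1 * (1 - θ) ^ m.2 * a m.1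

lemma bin_succ (θ : ℝ) (a : ℕ → ℝ) (k : ℕ) :
    bin θ a (k + 1) = θ * bin θ (fun j => a (j + 1)) k + (1 - θ) * bin θ a k := by
  unfold bin
  have := sum_antidiagonal_choose_succ_mul (fun i j => θ ^ i * (1 - θ) ^ j * a i) k
  simp only [← mul_assoc] at this
  rw [this, add_comm, mul_sum, mul_sum]
  congr 1
  · refine sum_congr rfl fun m hm => ?_
    rw [← mem_antidiagonal.1 hm, Nat.choose_symm_add]; ring
  · exact sum_congr rfl fun m _ => by ring

lemma bin_const (θ c : ℝ) : ∀ k, bin θ (fun _ => c) k = c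
  | 0 => by simp [bin]
  | k + 1 => by rw [bin_succ, bin_const θ c k]; ring

lemma bin_le {θ : ℝ} (h0 : 0 ≤ θ) (h1 : θ ≤ 1) {a : ℕ → ℝ} (ha : Monotone a) (k : ℕ) :
    bin θ a k ≤ a k := by
  rw [← bin_const θ (a k) k]
  refine sum_le_sum fun m hm => mul_le_mul_of_nonneg_left
    (ha (by have := mem_antidiagonal.1 hm; omega)) ?_
  have := sub_nonneg.2 h1
  positivity

lemma pow_le_bin (hW : IsExp W) (hY : IsExp Y) {θ : ℝ} (h0 : 0 ≤ θ) (h1 : θ ≤ 1)
    (hθ : ∀ h, SubL h → Ex W h ≤ θ * Ex Y h + (1 - θ) * h 1) :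
    ∀ (k : ℕ) {h : (Fin q → ℝ) → ℝ}, SubL h → Ex (powE W k) h ≤ bin θ (fun j => Ex (powE Y j) h) k
  | 0, h, _ => by simp [bin, Ex_pow_zero]
  | k + 1, h, H => by
    have hU := hW.pow k
    have a1 : Ex (powE W (k + 1)) h ≤ θ * Ex (prodE (powE W k) Y) h + (1 - θ) * Ex (powE W k) h := by
      rw [Ex_pow_succ, Ex_prod_comm]
      refine hasSum_le (fun o => ?_) (hasSum_fib hU hW H)
        (((hasSum_fib hU hY H).mul_left θ).add ((hU.hasSum_subl H).mul_left (1 - θ)))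
      simpa using hθ _ (subl_mul H (powE W k o))
    have a2 : Ex (prodE (powE W k) Y) h ≤ bin θ (fun j => Ex (powE Y (j + 1)) h) k := by
      rw [Ex_prod_comm]
      refine hasSum_le (fun o => pow_le_bin hW hY h0 h1 hθ k (subl_mul H (Y o)))
        (hasSum_fib hY hU H) (hasSum_sum fun m _ => HasSum.mul_left _ ?_)
      beta_reduce
      rw [Ex_pow_succ]
      exact hasSum_fib hY (hY.pow _) H
    rw [bin_succ]
    linarith [mul_le_mul_of_nonneg_left a2 h0,
      mul_le_mul_of_nonneg_left (pow_le_bin hW hY h0 h1 hθ k H) (sub_nonneg.2 h1)]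

lemma poisson_nonneg {d : ℝ} (hd : 0 ≤ d) (k : ℕ) : 0 ≤ poisson d k := by
  unfold poisson; positivity

lemma poisson_bin {d θ : ℝ} (hd : 0 ≤ d) (h0 : 0 ≤ θ) (h1 : θ ≤ 1) {a : ℕ → ℝ} {s : ℝ}
    (hs : HasSum (fun j => poisson (d * θ) j * a j) s) :
    HasSum (fun k => poisson d k * bin θ a k) s := by
  have h2 := poisson_hasSum (d * (1 - θ))
  have h3 := summable_norm_sum_mul_antidiagonal_of_summable_norm hs.summable.norm
    h2.summable.norm
  have h4 := tsum_mul_tsum_eq_tsum_sum_antidiagonal_of_summable_norm hs.summable.norm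
    h2.summable.norm
  rw [hs.tsum_eq, h2.tsum_eq, mul_one] at h4
  rw [h4]
  refine hasSum_of_eq h3.of_norm.hasSum fun k => ?_
  rw [bin, mul_sum]
  refine sum_congr rfl fun m hm => ?_
  rw [← mem_antidiagonal.1 hm, Nat.cast_add_choose]
  unfold poisson
  rw [show -d = -(d * θ) + -(d * (1 - θ)) by ring, Real.exp_add, pow_add, mul_pow, mul_pow]
  field_simp

lemma sh_le (hW : IsExp W) {lam θ : ℝ} (ha : Adm q lam) (ha' : Adm q (θ * lam)) (h0 : 0 ≤ θ)
    (h1 : θ ≤ 1) (h : (Fin q → ℝ) → ℝ) (H : SubL h) :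
    Ex (shE (θ * lam) W) h ≤ θ * Ex (shE lam W) h + (1 - θ) * h 1 := by
  have := hW.hasSum_Zm.mul_left ((1 - θ) * h 1)
  rw [mul_one] at this
  refine hasSum_le (fun o => ?_) ((hW.sh ha').hasSum_subl H)
    ((((hW.sh ha).hasSum_subl H).mul_left θ).add this)
  have e : shE (θ * lam) W o = θ • shE lam W o + ((1 - θ) * Zm (W o)) • 1 := by
    ext i; simp [shE_eq]; ring
  rw [e]
  refine (H.add _ _).trans (le_of_eq ?_)
  rw [H.smul _ _ h0, H.smul _ _ (mul_nonneg (sub_nonneg.2 h1) (Zm_nonneg (hW.nonneg o)))]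
  ring

/-- comparison of two branching mechanisms -/
def Cmp (q : ℕ) (p : ℕ → ℝ) (lam : ℝ) (p' : ℕ → ℝ) (lam' : ℝ) : Prop :=
  ∀ {O : Type} (W : O → Fin q → ℝ), IsExp W →
    Dom (mixE p (powE (shE lam W))) (mixE p' (powE (shE lam' W)))

lemma cmp_dary {d D : ℕ} (hd : d ≤ D) {lam θ : ℝ} (ha : Adm q lam) (ha' : Adm q (θ * lam))
    (h0 : 0 ≤ θ) (h1 : θ ≤ 1) : Cmp q (dary d) (θ * lam) (dary D) lam := by
  intro O W hW h H
  have s : ∀ d, HasSum (dary d) 1 := fun d => by simpa using dary_hasSum d fun _ => 1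
  rw [(IsExp.hasSum_mix (dary_nonneg d) (s d) (hW.sh ha').pow H.cont).unique (dary_hasSum d _),
    (IsExp.hasSum_mix (dary_nonneg D) (s D) (hW.sh ha).pow H.cont).unique (dary_hasSum D _)]
  exact (pow_le_bin (hW.sh ha') (hW.sh ha) h0 h1 (sh_le hW ha ha' h0 h1) d H).trans
    ((bin_le h0 h1 (pow_mono (hW.sh ha) H) d).trans (pow_mono (hW.sh ha) H hd))

lemma cmp_poisson {d ρ lam θ : ℝ} (hd : 0 ≤ d) (hρ : 0 < ρ) (hdρ : d * θ ≤ ρ) (ha : Adm q lam)
    (ha' : Adm q (θ * lam)) (h0 : 0 ≤ θ) (h1 : θ ≤ 1) :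
    Cmp q (poisson d) (θ * lam) (poisson ρ) lam := by
  intro O W hW h H
  have m := fun {e : ℝ} (he : 0 ≤ e) => IsExp.hasSum_mix (poisson_nonneg he) (poisson_hasSum e)
    (hW.sh ha).pow H.cont
  have e0 := mul_nonneg hd h0
  have b0 : 0 ≤ d * θ / ρ := by positivity
  have b1 : d * θ / ρ ≤ 1 := (div_le_one hρ).2 hdρ
  refine (hasSum_le (fun k => mul_le_mul_of_nonneg_left (pow_le_bin (hW.sh ha') (hW.sh ha) h0 h1
    (sh_le hW ha ha' h0 h1) k H) (poisson_nonneg hd k)) (IsExp.hasSum_mix (poisson_nonneg hd)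
    (poisson_hasSum d) (hW.sh ha').pow H.cont) (poisson_bin hd h0 h1 (m e0))).trans ?_
  refine hasSum_le (fun k => mul_le_mul_of_nonneg_left (bin_le b0 b1 (pow_mono (hW.sh ha) H) k)
    (poisson_nonneg hρ.le k)) (poisson_bin hρ.le b0 b1 ?_) (m hρ.le)
  rw [mul_div_cancel₀ _ hρ.ne']
  exact m e0

lemma Cmp.dom {p p' : ℕ → ℝ} {lam lam' : ℝ} (C : Cmp q p lam p' lam') (hp : ∀ k, 0 ≤ p k)
    (hs : HasSum p 1) (hp' : ∀ k, 0 ≤ p' k) (hs' : HasSum p' 1) (ha : Adm q lam)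
    (ha' : Adm q lam') : ∀ n, Dom (lk q p lam n) (lk q p' lam' n)
  | 0 => fun _ _ => le_rfl
  | n + 1 => by
    have h1 := isExp_lk hp hs ha n
    have h2 := isExp_lk hp' hs' ha' n
    have D := Dom.sh h1 h2 (Cmp.dom C hp hs hp' hs' ha ha' n) ha'
    rw [lk_succ, lk_succ]
    refine dom_trans (C _ h1) fun h H => ?_
    exact hasSum_le (fun k => mul_le_mul_of_nonneg_left
      (Dom.pow (h1.sh ha') (h2.sh ha') D k h H) (hp' k))
      (IsExp.hasSum_mix hp' hs' (h1.sh ha').pow H.cont)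
      (IsExp.hasSum_mix hp' hs' (h2.sh ha').pow H.cont)

lemma dom_tv (hW : IsExp W) (hY : IsExp Y) (D : Dom W Y) : Ex W tv ≤ Ex Y tv := by
  have hq := qpos (q := q)
  have H : SubL (fun w : Fin q → ℝ => (∑ i, |w i - Zm w|) / (2 * q)) := by
    refine ⟨by unfold Zm; fun_prop, fun u v => ?_, fun c u hc => ?_⟩
    · rw [← add_div, ← sum_add_distrib]
      refine div_le_div_of_nonneg_right (sum_le_sum fun i _ => ?_) (by positivity)
      refine le_trans (le_of_eq ?_) (abs_add_le _ _)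
      congr 1
      simp [Zm, sum_add_distrib]; ring
    · rw [← mul_div_assoc, mul_sum]
      congr 1
      refine sum_congr rfl fun i _ => ?_
      rw [Zm_smul, Pi.smul_apply, smul_eq_mul, ← mul_sub, abs_mul, abs_of_nonneg hc]
  rw [hW.ex_congr continuous_tv H.cont fun a h => by simp [tv, h.zm],
    hY.ex_congr continuous_tv H.cont fun a h => by simp [tv, h.zm]]
  exact D _ H

lemma Cmp.nonrecon {p p' : ℕ → ℝ} {lam lam' : ℝ} (C : Cmp q p lam p' lam') (hp : ∀ k, 0 ≤ p k)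
    (hs : HasSum p 1) (hp' : ∀ k, 0 ≤ p' k) (hs' : HasSum p' 1) (ha : Adm q lam)
    (ha' : Adm q lam') (h : NonRecon q p' lam') : NonRecon q p lam := by
  refine squeeze_zero (fun n => ?_) (fun n => ?_) h
  · rw [adv_eq]
    exact (isExp_lk hp hs ha n).ex_nonneg continuous_tv fun a _ => by unfold tv; positivity
  · rw [adv_eq, adv_eq]
    exact dom_tv (isExp_lk hp hs ha n) (isExp_lk hp' hs' ha' n) (C.dom hp hs hp' hs' ha ha' n)

end Vale.Agent.P154.AF
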