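import Vale.Agent.P154.AF.Step
import Vale.Agent.P154.AF.Thin

/-! Reading off the chi-square information, the offspring weights, and the iteration -/

namespace Vale.Agent.P154.AF

open Finset Equiv Pointwise

/-- tangent planes of the chi-square functional -/
noncomputable def tg (w a : Vec) : ℝ :=
  2 / 3 * (a 0 * w 0 + a 1 * w 1 + a 2 * w 2) - ((a 0 ^ 2 + a 1 ^ 2 + a 2 ^ 2) / 3 + 1) * (sm w / 3)

noncomputable def hy (w : Vec) : ℝ := sSup (tg w '' Set.Icc 0 3)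

lemma tg_cont : Continuous (Function.uncurry tg) := by
  unfold tg sm Function.uncurry; fun_prop

lemma tg_le (w : Vec) {a : Vec} (ha : a ∈ Set.Icc (0 : Vec) 3) : tg w a ≤ hy w :=
  le_csSup (isCompact_Icc.image (tg_cont.uncurry_left w)).bddAbove ⟨a, ha, rfl⟩

lemma hy_le {w : Vec} {c : ℝ} (h : ∀ a ∈ Set.Icc (0 : Vec) 3, tg w a ≤ c) : hy w ≤ c :=
  csSup_le ⟨_, 0, ⟨le_rfl, fun i => by norm_num⟩, rfl⟩ (by rintro _ ⟨a, ha, rfl⟩; exact h a ha)

lemma subl_hy : SubL hy := by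
  refine ⟨isCompact_Icc.continuous_sSup tg_cont, fun u v => hy_le fun a ha => ?_, fun c u hc => ?_⟩
  · have : tg (u + v) a = tg u a + tg v a := by simp only [tg, sm, Pi.add_apply]; ring
    linarith [tg_le u ha, tg_le v ha]
  · have : tg (c • u) '' Set.Icc 0 3 = c • (tg u '' Set.Icc 0 3) := by
      rw [← Set.image_smul, Set.image_image]
      congr 1
      ext a
      simp only [tg, sm, Pi.smul_apply, smul_eq_mul]; ring
    rw [hy, this, Real.sSup_smul_of_nonneg hc]; rfl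

lemma hy_simp {a : Vec} (h : Simp a) : hy a = yy a := by
  have e : a 0 + a 1 + a 2 = 3 := by simpa [Fin.sum_univ_three] using h.2
  have y : yy a = (a 0 ^ 2 + a 1 ^ 2 + a 2 ^ 2) / 3 - 1 := by
    simp only [yy, Fin.sum_univ_three]; push_cast; linear_combination (-2 / 3) * e
  refine le_antisymm (hy_le fun b _ => ?_) (le_trans (le_of_eq ?_) (tg_le a (a := a) ⟨h.1, fun i => ?_⟩))
  · rw [y, tg, sm, e]
    nlinarith [sq_nonneg (a 0 - b 0), sq_nonneg (a 1 - b 1), sq_nonneg (a 2 - b 2)]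
  · rw [y, tg, sm, e]; ring
  · have := h.1 0; have := h.1 1; have := h.1 2
    fin_cases i <;> simp <;> linarith

variable {O O' : Type} {W : O → Vec} {U : O' → Vec} {S T : Tg}

lemma ex_hy (hW : IsExp W) : Ex W hy = Ex W yy :=
  hW.ex_congr subl_hy.cont continuous_yy fun _ => hy_simp

lemma yy_le_of_dom (hW : IsExp W) (hU : IsExp U) (D : Dom W U) : Ex W yy ≤ Ex U yy := by
  rw [← ex_hy hW, ← ex_hy hU]; exact D _ subl_hy

noncomputable def gy (w : Vec) : ℝ := 2 / 3 * sm w - hy w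

lemma gy_eq {w : Vec} (hw : ∀ i, 0 ≤ w i) :
    gy w = 2 * (w 0 * w 1 + w 0 * w 2 + w 1 * w 2) / sm w := by
  obtain ⟨a, ha, e⟩ := exists_simp hw
  have hZ := Zm_nonneg hw
  generalize Zm w = Z at *
  subst e
  have e : a 0 + a 1 + a 2 = 3 := by simpa [Fin.sum_univ_three] using ha.2
  rw [gy, subl_hy.smul _ _ hZ, hy_simp ha]
  simp only [sm, yy, Pi.smul_apply, smul_eq_mul, Fin.sum_univ_three, ← mul_add, e]
  rcases hZ.eq_or_lt with rfl | h
  · simp
  · have : a 2 = 3 - a 0 - a 1 := by linarith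
    rw [this]
    field_simp
    ring

lemma cv_gy : Cv gy := by
  refine ⟨⟨(Continuous.sub (by unfold sm; fun_prop) subl_hy.cont).neg, fun u v => ?_,
    fun c u hc => ?_⟩, fun i => ?_⟩
  · have := subl_hy.add u v
    simp only [gy, sm, Pi.add_apply]
    linarith
  · simp only [gy, subl_hy.smul _ _ hc, sm, Pi.smul_apply, smul_eq_mul]; ring
  · rw [gy_eq (sing_nonneg i)]
    fin_cases i <;> simp

lemma ex_gy (hW : IsExp W) : Ex W gy = 2 - Ex W yy := by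
  have := ((cv_sm.hasSum hW).mul_left (2 / 3)).sub (hW.hasSum_subl subl_hy)
  rw [ex_sm hW, ex_hy hW] at this
  rw [(cv_gy.hasSum hW).unique this]; norm_num

lemma gy_perm {w : Vec} (hw : ∀ i, 0 ≤ w i) : ∑ σ : Perm (Fin 3), gy (w ∘ σ) = 6 * gy w := by
  have e : w = ![w 0, w 1, w 2] := by ext i; fin_cases i <;> rfl
  have h : ∀ a b c : ℝ, 0 ≤ a → 0 ≤ b → 0 ≤ c →
      gy ![a, b, c] = 2 * (a * b + a * c + b * c) / (a + b + c) := fun a b c _ _ _ =>
    gy_eq fun i => by fin_cases i <;> simpa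
  have h0 := hw 0; have h1 := hw 1; have h2 := hw 2
  rw [e, sum_perm3]
  simp only [h, h0, h1, h2]
  ring

lemma patF_le (h : S.ok) {J : ℕ} (hJ : J < nm S) : (patF S J : ℝ) ≤ 2 ^ 40 * gy (mr S J) := by
  rw [gy_eq (mr_nonneg h J), mr, if_neg hJ.ne]
  change (patF2 S.tn S.td (J / (S.ry + 1)) (J % (S.ry + 1)) : ℝ) ≤ _
  generalize J / (S.ry + 1) = a
  generalize J % (S.ry + 1) = b
  refine Nat.cast_div_le.trans ?_
  simp only [Nat.mul_eq, Nat.add_eq, shl_eq, sm,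
    Matrix.cons_val_zero, Matrix.cons_val_one, Matrix.cons_val]
  push_cast
  have a1 := lo_le S a; have a2 := lo_le S b; have a3 := hi_ge h a; have a4 := hi_ge h b
  have t0 := h.t_pos
  have p1 : 0 < S.t ^ a := by positivity
  have p2 : 0 < S.t ^ b := by positivity
  have m := mul_le_mul a1 a2 (Nat.cast_nonneg _) (by positivity)
  rw [← mul_div_assoc, ← mul_div_mul_left _ (S.t ^ a + S.t ^ b + 1) (by positivity : (2 : ℝ) ^ 40 ≠ 0)]
  refine div_le_div₀ (by positivity) ?_ (by positivity) ?_ <;> linarith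

lemma score_spec (h : S.ok) (hW : IsExp W) {mw : ℕ} (hs : St S (shE (-S.l) W) mw) :
    2 ^ 80 * (S.l ^ 2 * Ex W yy) + score S mw ≤ 2 ^ 81 := by
  have ha := adm_neg S.l_nonneg h.l_le
  have hY := hW.sh ha
  have h1 := hs _ cv_gy.avg (sym_avg gy)
  rw [cv_gy.ex_avg hY, ex_gy hY, hW.ex_sh ha] at h1
  simp only [gy_perm (mr_nonneg h _), yy_shr, neg_sq] at h1
  have h2 := hW.ex_affine continuous_yy (S.l ^ 2) 0
  simp only [add_zero] at h2
  rw [h2, sum_range_succ] at h1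
  have h3 : gy (mr S (nm S)) = 1 := by
    rw [gy_eq (mr_nonneg h _), mr, if_pos rfl]; simp [sm]; norm_num
  have h4 : ∑ J ∈ range (nm S), (dig mw J : ℝ) * patF S J
      ≤ 2 ^ 40 / 6 * ∑ J ∈ range (nm S), (dig mw J : ℝ) * (6 * gy (mr S J)) := by
    rw [mul_sum]
    refine sum_le_sum fun J hJ => ?_
    have := mul_le_mul_of_nonneg_left (patF_le h (mem_range.1 hJ))
      (Nat.cast_nonneg (dig mw J) : (0 : ℝ) ≤ _)
    linarith
  have h5 : score S mw = ∑ J ∈ range (nm S), dig mw J * patF S (0 + J) + dig mw (nm S) * 2 ^ 40 := by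
    rw [← dot_tab, ← shl_eq]; rfl
  rw [h5]
  simp only [zero_add]
  push_cast
  rw [h3] at h1
  linarith

/-! offspring weights -/

lemma sqs_le : ∀ (n x : ℕ) (y : ℝ), (x : ℝ) ≤ 2 ^ 100 * y → (sqs n x : ℝ) ≤ 2 ^ 100 * y ^ 2 ^ n
  | 0, x, y, h => by simpa [sqs] using h
  | n + 1, x, y, h => by
    have := sqs_le n (Nat.shiftRight (Nat.mul x x) 100) (y ^ 2) (by
      rw [shr_eq]
      refine Nat.cast_div_le.trans ?_
      have := mul_le_mul h h (Nat.cast_nonneg _) ((Nat.cast_nonneg _).trans h)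
      rw [Nat.mul_eq]
      push_cast
      linarith)
    rwa [← pow_mul, ← pow_succ'] at this

lemma pz_le (rn rd : ℕ) (h : 0 < rd) : (pz rn rd : ℝ) ≤ 2 ^ 40 * poisson (rn / rd) 0 := by
  have h1 := sqs_le 40 (Nat.sub 1267650600228229401496703205376
      (Nat.succ (Nat.div (Nat.shiftLeft rn 60) rd))) (Real.exp (-(rn / rd) / 2 ^ 40)) (by
    rw [Nat.sub_eq]
    rcases le_total 1267650600228229401496703205376
      (Nat.succ (Nat.div (Nat.shiftLeft rn 60) rd)) with c | c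
    · rw [Nat.sub_eq_zero_of_le c, Nat.cast_zero]; positivity
    · rw [Nat.cast_sub c]
      have a : rn * 2 ^ 60 < rd * (rn * 2 ^ 60 / rd + 1) := Nat.lt_mul_div_succ _ h
      have e : Nat.succ (Nat.div (Nat.shiftLeft rn 60) rd) = rn * 2 ^ 60 / rd + 1 := by
        rw [shl_eq]; rfl
      rw [e]
      generalize rn * 2 ^ 60 / rd + 1 = m at *
      have b : (rn : ℝ) * 2 ^ 60 < rd * m := by exact_mod_cast a
      have b' : (rn : ℝ) / rd * 2 ^ 60 ≤ m := by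
        rw [div_mul_eq_mul_div, div_le_iff₀ (by exact_mod_cast h)]; linarith
      have := Real.add_one_le_exp (-((rn : ℝ) / rd) / 2 ^ 40)
      push_cast
      linarith)
  rw [← Real.exp_nat_mul, show ((2 ^ 40 : ℕ) : ℝ) * (-((rn : ℝ) / rd) / 2 ^ 40) = -(rn / rd) by
    push_cast; ring] at h1
  rw [pz, shr_eq]
  refine Nat.cast_div_le.trans ?_
  simp only [poisson, pow_zero, mul_one, Nat.factorial_zero, Nat.cast_one, div_one]
  push_cast
  linarith

lemma pws_ok (rn rd : ℕ) : ∀ n k w : ℕ, (w : ℝ) ≤ 2 ^ 40 * poisson (rn / rd) k →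
    Wok (poisson (rn / rd)) k (pws rn rd n k w)
  | 0, _, _, _ => trivial
  | n + 1, k, w, h => by
    have : ((Nat.div (Nat.mul w rn) (Nat.mul rd (Nat.add k 1)) : ℕ) : ℝ)
        ≤ 2 ^ 40 * poisson (rn / rd) (k + 1) := by
      refine Nat.cast_div_le.trans ?_
      simp only [Nat.mul_eq, Nat.add_eq]
      push_cast
      have e := poisson_succ (rn / rd) k
      rw [← div_div, div_le_iff₀ (by positivity), mul_assoc, e, mul_div_assoc]
      have := mul_le_mul_of_nonneg_right h (by positivity : (0 : ℝ) ≤ rn / rd)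
      linarith
    exact ⟨this, pws_ok rn rd n (k + 1) _ this⟩

noncomputable def dws (n : ℕ) : List ℕ :=
  Nat.rec (motive := fun _ => List ℕ) [1099511627776] (fun _ ih => 0 :: ih) n

lemma dws_ok : ∀ n k : ℕ, Wok (dary (k + n + 1)) k (dws n)
  | 0, k => ⟨by simp [dary]; norm_num, trivial⟩
  | n + 1, k => ⟨by have := dary_nonneg (k + (n + 1) + 1) (k + 1); push_cast; positivity, by
      have := dws_ok n (k + 1)
      rwa [show k + 1 + n + 1 = k + (n + 1) + 1 by ring] at this⟩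

/-! the iteration -/

structure Law (p : ℕ → ℝ) (lam : ℝ) : Prop where
  nn : ∀ k, 0 ≤ p k
  sum : HasSum p 1
  adm : Adm 3 lam

/-- `f` is a valid step from `S` to `T` for every mechanism dominated by `p` -/
def Ok (p : ℕ → ℝ) (S T : Tg) (f : ℕ → ℕ) : Prop :=
  T.ok ∧ ∀ {O O' : Type} (Y : O → Vec) (U : O' → Vec), IsExp Y → IsExp U →
    Dom U (mixE p (powE Y)) → ∀ mw, St S Y mw → St T (shE (-T.l) U) (f mw)

noncomputable def stepP (S T : Tg) (G : Win) (rn rd K : ℕ) : ℕ → ℕ :=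
  step S T G (pz rn rd) (pws rn rd K 0 (pz rn rd))

noncomputable def stepD (S T : Tg) (G : Win) (n : ℕ) : ℕ → ℕ := step S T G 0 (dws n)

lemma okP (hS : S.ok) (hT : T.ok) (G : Win) {rn rd : ℕ} (h : 0 < rd) (K : ℕ) :
    Ok (poisson (rn / rd)) S T (stepP S T G rn rd K) :=
  ⟨hT, fun _ _ hY hU D _ hs => step_spec hS hT hY hU (poisson_nonneg (by positivity))
    (poisson_hasSum _) D G (pz_le rn rd h) (pws_ok rn rd K 0 _ (pz_le rn rd h)) hs⟩

lemma dary_sum (d : ℕ) : HasSum (dary d) 1 := by simpa using dary_hasSum d fun _ => 1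

lemma okD (hS : S.ok) (hT : T.ok) (G : Win) (n : ℕ) : Ok (dary (n + 1)) S T (stepD S T G n) :=
  ⟨hT, fun _ _ hY hU D _ hs => step_spec hS hT hY hU (dary_nonneg _) (dary_sum _) D G
    (by simp [dary]) (by simpa using dws_ok n 0) hs⟩

def Run (p : ℕ → ℝ) (lam : ℝ) (S : Tg) (mw : ℕ) : Prop :=
  S.ok ∧ ∃ n, St S (shE (-S.l) (lk 3 p lam n)) mw

variable {p p' : ℕ → ℝ} {lam : ℝ} {f : ℕ → ℕ} {mw : ℕ}

lemma Law.start (L : Law p lam) (h : S.ok) : Run p lam S (start S) :=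
  ⟨h, 0, fin2_spec h (isExp_lk L.nn L.sum L.adm 0) (x := fun _ => 0) (Acc.zero fun _ _ => le_rfl)
    fun g hg _ => by
      have := (isExp_lk L.nn L.sum L.adm 0).ex_nonneg hg.cont fun a ha => hg.nonneg ha.1
      positivity⟩

lemma Run.step (R : Run p lam S mw) (L : Law p lam) (C : Cmp 3 p lam p' (-S.l))
    (F : Ok p' S T f) : Run p lam T (f mw) := by
  obtain ⟨h, n, hn⟩ := R
  have hW := isExp_lk L.nn L.sum L.adm n
  refine ⟨F.1, n + 1, F.2 _ _ (hW.sh (adm_neg S.l_nonneg h.l_le))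
    (isExp_lk L.nn L.sum L.adm _) ?_ _ hn⟩
  rw [lk_succ]
  exact C _ hW

lemma Run.iter (L : Law p lam) (C : Cmp 3 p lam p' (-S.l)) (F : Ok p' S S f) :
    ∀ (n : ℕ) {mw : ℕ}, Run p lam S mw → Run p lam S (iter f n mw)
  | 0, _, R => R
  | n + 1, mw, R => by
    have := Run.iter L C F n (R.step L C F)
    rwa [← force_eq (f mw) (AF.iter f n)] at this

/-- the final test: the information is at most `an / ad` -/
noncomputable def fine (S : Tg) (an ad mw : ℕ) : Bool :=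
  Nat.ble (Nat.mul (Nat.shiftLeft (Nat.mul S.lq S.lq) 81) ad)
    (Nat.add (Nat.mul (Nat.mul (score S mw) (Nat.mul S.lq S.lq)) ad)
      (Nat.mul (Nat.shiftLeft (Nat.mul S.lp S.lp) 80) an))

lemma Run.fine (R : Run p lam S mw) (L : Law p lam) {an ad : ℕ} (h0 : 0 < S.lp) (h1 : 0 < ad)
    (h : fine S an ad mw = true) : ∃ n, Ex (lk 3 p lam n) yy ≤ an / ad := by
  obtain ⟨hS, n, hn⟩ := R
  refine ⟨n, ?_⟩
  have a := score_spec hS (isExp_lk L.nn L.sum L.adm n) hn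
  rw [AF.fine, Nat.ble_eq, shl_eq, shl_eq] at h
  simp only [Nat.mul_eq, Nat.add_eq] at h
  have b : (S.lq : ℝ) * S.lq * 2 ^ 81 * ad ≤ score S mw * (S.lq * S.lq) * ad
      + S.lp * S.lp * 2 ^ 80 * an := by exact_mod_cast h
  have c0 : (0 : ℝ) < S.lp := by exact_mod_cast h0
  have c1 : (0 : ℝ) < ad := by exact_mod_cast h1
  have c2 : (0 : ℝ) < S.lq := by exact_mod_cast hS.h3
  rw [le_div_iff₀ c1]
  have e : S.l * S.lq = S.lp := by rw [Tg.l]; field_simp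
  have a' := mul_le_mul_of_nonneg_right a (by positivity : (0 : ℝ) ≤ S.lq * S.lq * ad)
  rw [← e] at b
  have : 0 < S.l := by rw [Tg.l]; positivity
  refine le_of_mul_le_mul_left ?_ (by positivity : 0 < 2 ^ 80 * (S.l * S.lq * (S.l * S.lq)))
  nlinarith

noncomputable def go (st : Tg → Tg → Win → ℕ → ℕ) (S T : Tg) (G G' : Win) (n mw : ℕ) : ℕ :=
  force (st S T G mw) (iter (st T T G') n)

/-- a family of valid steps for the mechanism (p, lam) with the lattice parameter `lp / lq` -/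
def Fa (p : ℕ → ℝ) (lam : ℝ) (lp lq : ℕ) (st : Tg → Tg → Win → ℕ → ℕ) : Prop :=
  Law p lam ∧ ∃ p', Cmp 3 p lam p' (-(lp / lq)) ∧ ∀ S T G, S.ok → T.ok → Ok p' S T (st S T G)

instance (S : Tg) : Decidable S.ok :=
  decidable_of_iff (0 < S.tn ∧ S.tn < S.td ∧ 0 < S.lq ∧ 2 * S.lp ≤ S.lq)
    ⟨fun h => ⟨h.1, h.2.1, h.2.2.1, h.2.2.2⟩, fun h => ⟨h.1, h.2, h.3, h.4⟩⟩

variable {lp lq a b c a' b' c' n : ℕ} {st : Tg → Tg → Win → ℕ → ℕ} {G G' : Win} {mw' : ℕ}

lemma Fa.init (F : Fa p lam lp lq st) (e : iter (st ⟨a, b, c, lp, lq⟩ ⟨a, b, c, lp, lq⟩ G) n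
    (start ⟨a, b, c, lp, lq⟩) = mw) (h : Tg.ok ⟨a, b, c, lp, lq⟩) :
    Run p lam ⟨a, b, c, lp, lq⟩ mw := by
  obtain ⟨L, p', C, F⟩ := F
  subst e
  exact Run.iter (S := ⟨a, b, c, lp, lq⟩) L @C (F _ _ G h h) n (L.start h)

lemma Fa.go (F : Fa p lam lp lq st) (R : Run p lam ⟨a, b, c, lp, lq⟩ mw)
    (e : go st ⟨a, b, c, lp, lq⟩ ⟨a', b', c', lp, lq⟩ G G' n mw = mw')
    (h : Tg.ok ⟨a', b', c', lp, lq⟩) : Run p lam ⟨a', b', c', lp, lq⟩ mw' := by
  obtain ⟨L, p', C, F⟩ := F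
  rw [← e, AF.go, force_eq]
  exact Run.iter (S := ⟨a', b', c', lp, lq⟩) L @C (F _ _ G' h h) n
    (R.step (T := ⟨a', b', c', lp, lq⟩) L @C (F _ _ G R.1 h))

lemma Fa.last (F : Fa p lam lp lq st) (R : Run p lam ⟨a, b, c, lp, lq⟩ mw) {an ad : ℕ}
    (e : fine ⟨a', b', c', lp, lq⟩ an ad
      (AF.go st ⟨a, b, c, lp, lq⟩ ⟨a', b', c', lp, lq⟩ G G' n mw) = true)
    (h : Tg.ok ⟨a', b', c', lp, lq⟩ ∧ 0 < lp ∧ 0 < ad) : ∃ n, Ex (lk 3 p lam n) yy ≤ an / ad :=
  (F.go R rfl h.1).fine F.1 h.2.1 h.2.2 e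

lemma Fa.one (F : Fa p lam lp lq st) {an ad : ℕ} (e : fine ⟨a, b, c, lp, lq⟩ an ad
      (iter (st ⟨a, b, c, lp, lq⟩ ⟨a, b, c, lp, lq⟩ G) n (start ⟨a, b, c, lp, lq⟩)) = true)
    (h : Tg.ok ⟨a, b, c, lp, lq⟩ ∧ 0 < lp ∧ 0 < ad) : ∃ n, Ex (lk 3 p lam n) yy ≤ an / ad :=
  (F.init rfl h.1).fine F.1 h.2.1 h.2.2 e

noncomputable def sP (rn rd K : ℕ) (S T : Tg) (G : Win) : ℕ → ℕ := stepP S T G rn rd K

noncomputable def sD (n : ℕ) (S T : Tg) (G : Win) : ℕ → ℕ := stepD S T G n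

lemma faP {D l : ℝ} (h : D * l ^ 2 = 1) (h0 : 0 < l) {rn rd : ℕ} (K : ℕ) (h1 : l ≤ lp / lq)
    (h2 : (lp : ℝ) / lq ≤ 1 / 2) (h3 : 1 ≤ l * (lp / lq) * (rn / rd)) :
    Fa (poisson D) (-l) lp lq (sP rn rd K) := by
  have D0 : 0 ≤ D := by by_contra c; nlinarith
  have l0 := h0.trans_le h1
  have r0 : (0 : ℝ) < rn / rd := by
    by_contra c
    nlinarith [mul_pos h0 l0]
  have rd0 : 0 < rd := Nat.pos_of_ne_zero fun e => by simp [e] at r0
  refine ⟨⟨poisson_nonneg D0, poisson_hasSum D, adm_neg h0.le (h1.trans h2)⟩, _, ?_,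
    fun S T G hS hT => okP hS hT G rd0 K⟩
  generalize (lp : ℝ) / lq = L at *
  have e : -l = l / L * -L := by field_simp
  rw [e]
  intro O
  refine cmp_poisson D0 r0 ?_ (adm_neg l0.le h2) (e ▸ adm_neg h0.le (h1.trans h2)) (by positivity)
    ((div_le_one l0).2 h1)
  rw [← mul_div_assoc, div_le_iff₀ l0]
  refine le_of_mul_le_mul_right ?_ h0
  linarith

lemma faD {l : ℝ} (h0 : 0 < l) (n : ℕ) (h1 : l ≤ lp / lq) (h2 : (lp : ℝ) / lq ≤ 1 / 2) :
    Fa (dary (n + 1)) (-l) lp lq (sD n) := by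
  have l0 := h0.trans_le h1
  refine ⟨⟨dary_nonneg _, dary_sum _, adm_neg h0.le (h1.trans h2)⟩, _, ?_,
    fun S T G hS hT => okD hS hT G n⟩
  generalize (lp : ℝ) / lq = L at *
  have e : -l = l / L * -L := by field_simp
  rw [e]
  intro O
  exact cmp_dary le_rfl (adm_neg l0.le h2) (e ▸ adm_neg h0.le (h1.trans h2)) (by positivity)
    ((div_le_one l0).2 h1)

end Vale.Agent.P154.AF
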