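import Vale.Agent.P154.KS

/-! Bonferroni bounds and factorial moments -/

namespace Vale.Agent.P154.AF

open Finset Filter

noncomputable def bs (z : ℝ) : ℕ → ℕ → ℝ
  | 0, k => (1 - z) ^ k
  | m + 1, k => ∑ i ∈ range k, bs z m i

lemma hockey (j : ℕ) : ∀ k, ∑ i ∈ range k, (i.choose j : ℝ) = k.choose (j + 1)
  | 0 => by simp
  | k + 1 => by rw [sum_range_succ, hockey j k, Nat.choose_succ_succ']; push_cast; ring

lemma bs_nonneg {z : ℝ} (h : z ≤ 1) : ∀ m k, 0 ≤ bs z m k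
  | 0, _ => pow_nonneg (sub_nonneg.2 h) _
  | m + 1, _ => sum_nonneg fun i _ => bs_nonneg h m i

lemma bs_eq (z : ℝ) : ∀ m k, bs z m k = k.choose m - z * bs z (m + 1) k
  | 0, k => by
    have := mul_neg_geom_sum (1 - z) k
    simp only [bs, Nat.choose_zero_right, Nat.cast_one]
    linarith
  | m + 1, k => by
    rw [bs, sum_congr rfl fun i _ => bs_eq z m i, sum_sub_distrib, hockey, ← mul_sum]; rfl

lemma bs_succ (z : ℝ) (k : ℕ) : bs z 1 (k + 1) = (1 - z) * bs z 1 k + 1 := by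
  have := bs_eq z 0 k
  rw [bs, sum_range_succ, this, bs]
  simp only [Nat.choose_zero_right, Nat.cast_one]
  ring

lemma seq_bound {β cp cm X g al y : ℝ} {Φ m u : ℕ → ℝ} (hX : 0 ≤ X) (b0 : 0 ≤ β)
    (b1 : β * X ≤ 1) (p0 : 0 ≤ cp) (m0 : 0 ≤ cm) (m1 : cm * X ≤ 1) (h0 : Φ 0 = 0) (h0' : m 0 = 0)
    (h0'' : u 0 = 0) (u2 : ∀ k, u k ≤ 2)
    (H1 : ∀ k, Φ (k + 1) ≤ Φ k + y + 9 * X * m k + 9 * u k * al)
    (H2 : ∀ k, m (k + 1) ≤ (1 - β * X) * m k + g)
    (H3 : ∀ k, u (k + 1) ≤ u k + X + cp * X * u k)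
    (H4 : ∀ k, (1 - cm * X) * u k + X ≤ u (k + 1)) :
    ∃ e a1 a2 : ℝ, (e = 0 ∨ e = 1) ∧
      (a1 = cp ∧ a2 = cp ^ 2 * (1 + 2 * cp) ∨ a1 = -cm ∧ a2 = 0) ∧ ∀ k : ℕ,
      Φ k ≤ k.choose 1 * y + 9 * X * g * (k.choose 2 - β * X * k.choose 3
        + (β * X) ^ 2 * k.choose 4 - e * (β * X) ^ 3 * k.choose 5)
        + 9 * al * (X * k.choose 2 + a1 * X ^ 2 * k.choose 3 + a2 * X ^ 3 * k.choose 4) := by
  have z0 := mul_nonneg b0 hX
  have z1 := mul_nonneg m0 hX
  have z2 := mul_nonneg p0 hX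
  have A : ∀ k, m k ≤ g * bs (β * X) 1 k := fun k => by
    induction k with
    | zero => simp [h0', bs]
    | succ k ih =>
      rw [bs_succ]
      linarith [H2 k, mul_le_mul_of_nonneg_left ih (sub_nonneg.2 b1)]
  have B : ∀ k, X * bs (cm * X) 1 k ≤ u k := fun k => by
    induction k with
    | zero => simp [h0'', bs]
    | succ k ih =>
      rw [bs_succ]
      linarith [H4 k, mul_le_mul_of_nonneg_left ih (sub_nonneg.2 m1)]
  have C : ∀ k : ℕ, Φ k ≤ k.choose 1 * y + 9 * X * g * bs (β * X) 2 k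
      + 9 * al * ∑ i ∈ range k, u i := fun k => by
    induction k with
    | zero => simp [h0, bs]
    | succ k ih =>
      rw [bs, sum_range_succ, sum_range_succ]
      rw [bs] at ih
      simp only [Nat.choose_one_right] at ih ⊢
      push_cast
      linarith [H1 k, mul_le_mul_of_nonneg_left (A k) hX]
  have D : ∀ k : ℕ, u k ≤ X * k.choose 1 + cp * X * ∑ i ∈ range k, u i := fun k => by
    induction k with
    | zero => simp [h0'']
    | succ k ih =>
      rw [sum_range_succ]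
      simp only [Nat.choose_one_right] at ih ⊢
      push_cast
      linarith [H3 k]
  have E : ∀ c1 c2 c3 : ℝ, (∀ i : ℕ, u i ≤ c1 * i.choose 1 + c2 * i.choose 2 + c3 * i.choose 3) →
      ∀ k : ℕ, ∑ i ∈ range k, u i ≤ c1 * k.choose 2 + c2 * k.choose 3 + c3 * k.choose 4 :=
    fun c1 c2 c3 h k => by
      simpa only [sum_add_distrib, ← mul_sum, hockey] using sum_le_sum fun i (_ : i ∈ range k) => h i
  have E1 := E (X * (1 + 2 * cp)) 0 0 fun k => by
    have := sum_le_sum fun i (_ : i ∈ range k) => u2 i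
    rw [sum_const, card_range, nsmul_eq_mul] at this
    have h := D k
    rw [Nat.choose_one_right] at h ⊢
    linarith [mul_le_mul_of_nonneg_left this z2]
  have E2 := E X (cp * X * (X * (1 + 2 * cp))) 0 fun k => by
    linarith [D k, mul_le_mul_of_nonneg_left (E1 k) z2]
  have E3 := E X (cp * X * X) (cp * X * (cp * X * (X * (1 + 2 * cp)))) fun k => by
    linarith [D k, mul_le_mul_of_nonneg_left (E2 k) z2]
  have E4 : ∀ k : ℕ, X * k.choose 2 - cm * X ^ 2 * k.choose 3 ≤ ∑ i ∈ range k, u i := fun k => by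
    have := sum_le_sum fun i (_ : i ∈ range k) => B i
    rw [← mul_sum, ← bs, bs_eq, bs_eq] at this
    linarith [mul_nonneg (mul_nonneg hX (mul_nonneg z1 z1)) (bs_nonneg m1 (2 + 1 + 1) k)]
  have F : ∀ k : ℕ, 0 ≤ bs (β * X) 5 k ∧ bs (β * X) 5 k ≤ k.choose 5 ∧ bs (β * X) 2 k
      = k.choose 2 - β * X * k.choose 3 + (β * X) ^ 2 * k.choose 4
        - (β * X) ^ 3 * bs (β * X) 5 k := fun k => by
    refine ⟨bs_nonneg b1 _ _, ?_, ?_⟩
    · rw [bs_eq]; linarith [mul_nonneg z0 (bs_nonneg b1 (5 + 1) k)]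
    · rw [bs_eq, bs_eq, bs_eq]; ring
  have z3 := mul_nonneg hX (pow_nonneg z0 3)
  obtain ⟨e, he, G⟩ : ∃ e : ℝ, (e = 0 ∨ e = 1) ∧ ∀ k : ℕ,
      g * (e * k.choose 5) ≤ g * bs (β * X) 5 k := by
    rcases le_total 0 g with c | c
    · exact ⟨0, Or.inl rfl, fun k => by simpa using mul_nonneg c (F k).1⟩
    · exact ⟨1, Or.inr rfl, fun k => by simpa using mul_le_mul_of_nonpos_left (F k).2.1 c⟩
  rcases le_total 0 al with c | c
  · refine ⟨e, _, _, he, Or.inl ⟨rfl, rfl⟩, fun k => ?_⟩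
    have := C k
    rw [(F k).2.2] at this
    linarith [mul_le_mul_of_nonneg_left (G k) z3, mul_le_mul_of_nonneg_left (E3 k) c]
  · refine ⟨e, _, _, he, Or.inr ⟨rfl, rfl⟩, fun k => ?_⟩
    have := C k
    rw [(F k).2.2] at this
    linarith [mul_le_mul_of_nonneg_left (G k) z3, mul_le_mul_of_nonpos_left (E4 k) c]

/-- normalised factorial moments of a critical offspring law -/
def Mo (p : ℕ → ℝ) (l : ℝ) (t : ℤ) : Prop := ∀ j : ℕ,
  HasSum (fun k : ℕ => p k * (k.choose j * (l ^ 2) ^ j))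
    ((∏ i ∈ range j, (1 - i * (t * l ^ 2))) / j.factorial)

lemma mo_poisson {D l : ℝ} (h : D * l ^ 2 = 1) : Mo (poisson D) l 0 := by
  intro j
  simp only [Int.cast_zero, zero_mul, mul_zero, sub_zero, prod_const_one]
  induction j with
  | zero => simpa using poisson_hasSum D
  | succ j ih =>
    rw [← hasSum_nat_add_iff' 1]
    have := ih.div_const (j + 1)
    simp only [range_one, sum_singleton, Nat.choose_zero_succ, Nat.cast_zero, zero_mul, mul_zero,
      sub_zero]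
    rw [Nat.factorial_succ, Nat.cast_mul, mul_comm, ← div_div, Nat.cast_succ]
    refine hasSum_of_eq this fun k => ?_
    have e1 := poisson_succ D k
    have e2 : ((k : ℝ) + 1) * k.choose j = (k + 1).choose (j + 1) * (j + 1) := by
      exact_mod_cast Nat.add_one_mul_choose_eq k j
    rw [eq_div_iff (by positivity), pow_succ (l ^ 2)]
    linear_combination (l ^ 2) ^ j * l ^ 2 * (k.choose j * e1 - poisson D (k + 1) * e2)
      + poisson D k * k.choose j * (l ^ 2) ^ j * h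

lemma mo_dary {D : ℕ} {l : ℝ} (h : D * l ^ 2 = 1) : Mo (dary D) l 1 := by
  intro j
  have e : (∏ i ∈ range j, (1 - i * (((1 : ℤ) : ℝ) * l ^ 2))) / j.factorial
      = D.choose j * (l ^ 2) ^ j := by
    induction j with
    | zero => simp
    | succ j ih =>
      have e2 : (D.choose (j + 1) : ℝ) * (j + 1) = D.choose j * (D - j) := by
        rcases le_total j D with c | c
        · exact_mod_cast Nat.choose_succ_right_eq D j
        · rcases c.eq_or_lt with rfl | c
          · simp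
          · simp [Nat.choose_eq_zero_of_lt c, Nat.choose_eq_zero_of_lt (Nat.lt_succ_of_lt c)]
      rw [prod_range_succ, Nat.factorial_succ, Nat.cast_mul, mul_comm ((j + 1 : ℕ) : ℝ),
        mul_div_mul_comm, ih, Nat.cast_succ, ← mul_div_assoc, div_eq_iff (by positivity),
        pow_succ (l ^ 2)]
      push_cast
      linear_combination -(l ^ 2) ^ j * l ^ 2 * e2 - D.choose j * (l ^ 2) ^ j * h
  rw [e]
  exact dary_hasSum D _

lemma tendsto_of_pot {x Φ : ℕ → ℝ} {c K : ℝ} (hc : 0 < c) (h0 : ∀ n, 0 ≤ x n) (ha : Antitone x)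
    (hK : ∀ n, |Φ n| ≤ K) (N : ℕ) (h : ∀ n, N ≤ n → Φ (n + 1) ≤ Φ n - c * x n ^ 2) :
    Tendsto x atTop (nhds 0) := by
  have hb : BddBelow (Set.range x) := ⟨0, by rintro _ ⟨n, rfl⟩; exact h0 n⟩
  have hl := tendsto_atTop_ciInf ha hb
  have h1 : ∀ n, ⨅ n, x n ≤ x n := ciInf_le hb
  have hL : 0 ≤ ⨅ n, x n := ge_of_tendsto' hl h0
  generalize ⨅ n, x n = L at *
  rcases hL.eq_or_lt with rfl | hL'
  · exact hl
  have h2 : ∀ k : ℕ, Φ (N + k) ≤ Φ N - k * (c * L ^ 2) := fun k => by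
    induction k with
    | zero => simp
    | succ k ih =>
      have := h (N + k) (by omega)
      have := mul_le_mul_of_nonneg_left (pow_le_pow_left₀ hL (h1 (N + k)) 2) hc.le
      rw [← add_assoc]
      push_cast
      linarith
  obtain ⟨k, hk⟩ := exists_nat_gt (2 * K / (c * L ^ 2))
  rw [div_lt_iff₀ (by positivity)] at hk
  linarith [h2 k, (abs_le.1 (hK N)).2, (abs_le.1 (hK (N + k))).1]

end Vale.Agent.P154.AF
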