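import Vale.Agent.P154.AF.Ineq
import Vale.Agent.P154.AF.Seq
import Vale.Agent.P154.AF.Run

/-! The local potential argument -/

namespace Vale.Agent.P154.AF

open Finset Filter

variable {O O' : Type} {W : O → Vec} {U : O' → Vec}

lemma cont_ev7 (c : List ℤ) : Continuous (ev7 c) := by
  have h : ∀ (fs : List (Vec → ℝ)) (u : List ℝ), (∀ f ∈ fs, Continuous f) →
      Continuous fun a => dR u (fs.map (· a)) := by
    intro fs
    induction fs with
    | nil => intro u _; simpa using continuous_const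
    | cons f fs ih =>
      intro u h
      cases u with
      | nil => simpa using continuous_const
      | cons x u => exact ((h f (by simp)).const_mul x).add (ih u fun g hg => h g (by simp [hg]))
  have h2 : Continuous Q2 := continuous_yy.const_mul 9
  have h3 : Continuous Q3 := by unfold Q3; fun_prop
  refine h [fun _ => 1, Q2, Q3, fun a => Q2 a ^ 2, fun a => Q2 a * Q3 a, fun a => Q2 a ^ 3,
    fun a => Q3 a ^ 2] (cZ c) ?_
  simp only [List.forall_mem_cons, List.not_mem_nil, false_imp_iff, implies_true, and_true]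
  refine ⟨?_, ?_, ?_, ?_, ?_, ?_, ?_⟩ <;> fun_prop

lemma ex_mul (W : O → Vec) (c : ℝ) (F : Vec → ℝ) : Ex W (fun a => c * F a) = c * Ex W F := by
  simp only [Ex, hom, ← tsum_mul_left, mul_left_comm]

lemma ex_add (hW : IsExp W) {F G : Vec → ℝ} (hF : Continuous F) (hG : Continuous G) :
    Ex W (fun a => F a + G a) = Ex W F + Ex W G :=
  (hasSum_of_eq ((hW.hasSum hF).add (hW.hasSum hG)) fun o => by simp only [hom, mul_add]).tsum_eq

lemma ex_smulZ (W : O → Vec) (c : ℤ) (v : List ℤ) : Ex W (ev7 (smulZ c v)) = c * Ex W (ev7 v) := by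
  rw [← ex_mul]; congr 1; ext a; exact dR_smulZ _ _ _

lemma ex_one (hW : IsExp W) : Ex W (ev7 [1]) = 1 := by
  rw [← hW.ex_const 1]; congr 1; ext a; simp [ev7, fe]

lemma ex_Q (W : O → Vec) (c : ℤ) : Ex W (ev7 [0, c]) = c * 9 * Ex W yy := by
  rw [← ex_mul]; congr 1; ext a; simp [ev7, fe, Q2, mul_assoc]

lemma prod_ge {L l : ℝ} (hU : IsExp U) (hW : IsExp W) (h0 : 0 < l) (h1 : l ≤ L) (h2 : L ≤ 1 / 2)
    {c : List ℤ} {E : List (List ℤ × List ℤ)} (h : ∀ a b, Simp a → Simp b →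
      0 ≤ avg (ev7 c) a (shr (-L) b) + (E.map fun e => ev7 e.1 a * ev7 e.2 (shr (-L) b)).sum) :
    0 ≤ Ex (prodE U (shE (-l) W)) (ev7 c)
      + (E.map fun e => Ex U (ev7 e.1) * Ex (shE (-l) W) (ev7 e.2)).sum := by
  have hY := hW.sh (adm_neg h0.le (h1.trans h2))
  have L0 := h0.trans_le h1
  have s : HasSum (fun o : O' × O => (E.map fun e => hom (ev7 e.1) (U o.1)
      * hom (ev7 e.2) (shE (-l) W o.2)).sum)
      (E.map fun e => Ex U (ev7 e.1) * Ex (shE (-l) W) (ev7 e.2)).sum := by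
    clear h
    induction E with
    | nil => exact hasSum_zero
    | cons e E ih => exact (hasSum_mul' (hU.hasSum (cont_ev7 _)) (hY.hasSum (cont_ev7 _))).add ih
  refine ((hU.hasSum_avg hY (cont_ev7 c)).add s).nonneg fun o => ?_
  obtain ⟨a, ha, ea⟩ := exists_simp (hU.nonneg o.1)
  obtain ⟨b, hb, eb⟩ := exists_simp (hW.nonneg o.2)
  have hb' := hb.shr (adm_of_nonneg (div_pos h0 L0).le ((div_le_one L0).2 h1))
  have e : shE (-l) W o.2 = Zm (W o.2) • shr (-L) (shr (l / L) b) := by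
    ext i
    have := congrFun eb i
    simp only [Pi.smul_apply, smul_eq_mul, shr, shE_eq] at this ⊢
    rw [this]
    field_simp
    ring
  have k := mul_nonneg (mul_nonneg (Zm_nonneg (hU.nonneg o.1)) (Zm_nonneg (hW.nonneg o.2)))
    (h a _ ha hb')
  rw [e]
  generalize Zm (U o.1) = x at *
  simp only [ea, avg_smul, hom_smul, ha.hom, (hb'.shr (adm_neg L0.le h2)).hom, mul_mul_mul_comm x,
    List.sum_map_mul_left]
  rwa [← mul_add]

structure C6 where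
  a : ℤ
  b : ℤ
  c : ℤ
  d : ℤ
  e : ℤ
  f : ℤ

def C6.l (c : C6) : List ℤ := [0, c.a, c.b, c.c, c.d, c.e, c.f]

structure LC where
  p : ℕ
  q : ℕ
  b : ℕ
  d : ℕ
  cp : ℕ
  cm : ℕ
  z : ℕ
  dl : ℕ
  φ : C6
  χ : C6
  G : C6
  A : C6

def LC.c0 (C : LC) : Bool :=
  decide (0 < C.p ∧ 2 * C.p ≤ C.q ∧ 5 ≤ C.b ∧ 0 < C.d ∧ C.cm ≤ 2 * C.d ∧ 0 < C.z ∧ 0 < C.dl)

def LC.c1 (C : LC) (kx : ℕ) : PC → Bool := chkP kx C.p C.q (smulZ (-1) C.φ.l)
  [(C.φ.l, [1]), ([1], C.φ.l), (C.χ.l, [0, 1]), ([0, 1], C.A.l)]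

def LC.c2 (C : LC) (kx : ℕ) : PC → Bool := chkP kx C.p C.q (smulZ (-C.b) C.χ.l)
  [(smulZ C.b C.χ.l, [1]), ([1], C.G.l), (C.χ.l, [0, -1])]

def LC.c3 (C : LC) (kx : ℕ) : PC → Bool := chkP kx C.p C.q [0, -(9 * C.d * C.z)]
  [([0, 9 * C.d * C.z], [1]), ([1], [0, 9 * C.d * C.z]), ([0, C.cp * C.z], [0, 1])]

def LC.c4 (C : LC) (kx : ℕ) : PC → Bool := chkP kx C.p C.q [0, 9 * C.d * C.z]
  [([0, -(9 * C.d * C.z)], [1]), ([1], [0, -(9 * C.d * C.z)]), ([0, C.cm * C.z], [0, 1])]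

def LC.Ok (C : LC) : Prop := C.c0 = true ∧ (∃ k P, C.c1 k P = true) ∧ (∃ k P, C.c2 k P = true) ∧
  (∃ k P, C.c3 k P = true) ∧ ∃ k P, C.c4 k P = true

def gp (t : ℤ) : ℕ → List ℤ
  | 0 => [1, 0, -t]
  | j + 1 => pmul [1, 0, -((j + 2) * t)] (gp t j)

def LC.cc (C : LC) (t e : ℤ) : List (List ℤ) :=
  [pmul [540 * C.d ^ 3 * C.b ^ 3] (gp t 0), pmul [-1620 * C.d ^ 3 * C.b ^ 2] (gp t 1),
    pmul [3645 * C.d ^ 3 * C.b] (gp t 2), pmul [-6561 * C.d ^ 3 * e] (gp t 3)]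

def LC.ca (C : LC) (t a1 a2 : ℤ) : List (List ℤ) :=
  [pmul [540 * C.d ^ 3 * C.b ^ 4] (gp t 0), pmul [180 * C.b ^ 4 * a1] (gp t 1),
    pmul [45 * C.b ^ 4 * a2] (gp t 2)]

def tm (K : ℤ) (cc ca : List (List ℤ)) (f g a : ℤ) (u : List ℤ) : List (List ℤ) :=
  madd [vaddZ [K * f] (pmul [-(K * f)] u)]
    ([] :: (madd (cc.map (pmul [-g])) (ca.map (pmul [-a]))).map (pmul u))

def LC.V2 (C : LC) (nu : List (List ℤ)) (f : ℤ → ℤ → ℤ → List ℤ → List (List ℤ)) :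
    List (List (List ℤ)) :=
  [[] :: nu.map (pmul [9]), madd (f C.φ.a C.G.a C.A.a [1])
    (madd (nu.map (pmul [-1])) [[], [-C.dl]]), f C.φ.b C.G.b C.A.b [0, -1],
    f C.φ.c C.G.c C.A.c [0, 0, 1], f C.φ.d C.G.d C.A.d [0, 0, 0, -1],
    f C.φ.e C.G.e C.A.e [0, 0, 0, 0, 1], f C.φ.f C.G.f C.A.f [0, 0, 0, 0, 1]]

def LC.cf (C : LC) (k kx : ℕ) (nu : List (List ℤ)) (t e a1 a2 : ℤ) : Tr → Tri → Bool :=
  chkF k kx (C.V2 nu (tm (120 * C.b ^ 4 * C.d ^ 3) (C.cc t e) (C.ca t a1 a2)))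

def LC.c5 (C : LC) (k kx : ℕ) (nu : List (List ℤ)) (t : ℤ) (t1 t2 t3 t4 : Tr) (T : Tri) : Bool :=
  C.cf k kx nu t 0 (C.cp * C.d ^ 2) (C.cp ^ 2 * (C.d + 2 * C.cp)) t1 T &&
    C.cf k kx nu t 0 (-(C.cm * C.d ^ 2)) 0 t2 T &&
    C.cf k kx nu t 1 (C.cp * C.d ^ 2) (C.cp ^ 2 * (C.d + 2 * C.cp)) t3 T &&
    C.cf k kx nu t 1 (-(C.cm * C.d ^ 2)) 0 t4 T

def LC.Cov (C : LC) (t : ℤ) (T : Tri) : Prop :=
  ∃ k kx nu t1 t2 t3 t4, C.c5 k kx nu t t1 t2 t3 t4 T = true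

lemma ev7_shr (c : C6) (l : ℝ) (a : Vec) : ev7 c.l (shr (-l) a) = l ^ 2 * (c.a * Q2 a
    - c.b * l * Q3 a + c.c * l ^ 2 * Q2 a ^ 2 - c.d * l ^ 3 * (Q2 a * Q3 a)
    + c.e * l ^ 4 * Q2 a ^ 3 + c.f * l ^ 4 * Q3 a ^ 2) := by
  have h2 : Q2 (shr (-l) a) = l ^ 2 * Q2 a := by rw [Q2, yy_shr, Q2]; ring
  have h3 : Q3 (shr (-l) a) = -l ^ 3 * Q3 a := by
    simp only [Q3, shr, Fin.sum_univ_three]; ring
  simp only [ev7, C6.l, fe, h2, h3, cZ_cons, cZ_nil, dR_cons, dR_nil_left]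
  push_cast
  ring

lemma LC.cf_ex (C : LC) {k kx : ℕ} {nu : List (List ℤ)} {t e a1 a2 : ℤ} {s : Tr} {T : Tri}
    (h : C.cf k kx nu t e a1 a2 s T = true) (hW : IsExp W) {l : ℝ} (h0 : 0 ≤ l) (h1 : l ≤ 1 / 2)
    (hT : InT T [1, Ex W yy, l]) :
    120 * C.b ^ 4 * C.d ^ 3 * Ex (shE (-l) W) (ev7 C.φ.l)
      + Ex W yy * evP (C.cc t e) (Ex W yy) l * Ex (shE (-l) W) (ev7 C.G.l)
      + Ex W yy * evP (C.ca t a1 a2) (Ex W yy) l * Ex (shE (-l) W) (ev7 C.A.l)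
      ≤ l ^ 2 * (120 * C.b ^ 4 * C.d ^ 3 * Ex W (ev7 C.φ.l) - C.dl * 9 * Ex W yy ^ 2) := by
  have ha := adm_neg h0 h1
  have c : ∀ v, Continuous fun a => ev7 v (shr (-l) a) := fun v =>
    (cont_ev7 v).comp (continuous_shr (q := 3) (-l))
  have c1 := cont_ev7 C.φ.l
  have c2 := continuous_yy (q := 3)
  set x := Ex W yy with hx
  generalize hc : evP (C.cc t e) x l = cc
  generalize hc' : evP (C.ca t a1 a2) x l = ca
  have := hW.ex_le (F := fun a => 120 * C.b ^ 4 * C.d ^ 3 * ev7 C.φ.l (shr (-l) a)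
      + x * cc * ev7 C.G.l (shr (-l) a) + x * ca * ev7 C.A.l (shr (-l) a))
    (G := fun a => l ^ 2 * (120 * C.b ^ 4 * C.d ^ 3) * ev7 C.φ.l a
      + (-(l ^ 2 * 9 * (evP nu x l + C.dl * x)) * yy a + l ^ 2 * 9 * x * evP nu x l))
    ((((c _).const_mul _).add ((c _).const_mul _)).add ((c _).const_mul _)) (by fun_prop)
    fun a hs => by
      have k := mul_nonneg (sq_nonneg l) (chkF_sound h hs hT)
      simp only [LC.V2, tm, fe, List.map_cons, List.map_nil, dR_cons, dR_nil_left, evP_madd,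
        evP_pmul, evP, evL_vadd, evL_pmul, evL, hc, hc'] at k
      simp only [ev7_shr]
      simp only [ev7, C6.l, fe, cZ_cons, cZ_nil, dR_cons, dR_nil_left]
      rw [show yy a = Q2 a / 9 by rw [Q2]; ring]
      push_cast at k ⊢
      linarith
  rw [ex_add hW (((c _).const_mul _).fun_add ((c _).const_mul _)) ((c _).const_mul _),
    ex_add hW ((c _).const_mul _) ((c _).const_mul _),
    ex_add hW (c1.const_mul _) ((c2.const_mul _).fun_add continuous_const),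
    hW.ex_affine c2, ex_mul, ex_mul, ex_mul, ex_mul] at this
  simp only [hW.ex_sh ha]
  linarith

lemma ex_yy_le (hW : IsExp W) : Ex W yy ≤ 2 := by
  have := hW.ex_nonneg cv_gy.cont fun a ha => cv_gy.nonneg ha.1
  rw [ex_gy hW] at this
  linarith

lemma LC.level (C : LC) (h : C.Ok) (hW : IsExp W) {p : ℕ → ℝ} (hp : ∀ k, 0 ≤ p k)
    (hs : HasSum p 1) {l : ℝ} {t : ℤ} (hm : Mo p l t) (h0 : 0 < l) (h1 : l ≤ C.p / C.q) {T : Tri}
    (hc : C.Cov t T) (hT : InT T [1, Ex W yy, l]) :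
    Ex (mixE p (powE (shE (-l) W))) (ev7 C.φ.l) ≤ Ex W (ev7 C.φ.l)
      - C.dl * 9 / (120 * C.b ^ 4 * C.d ^ 3) * Ex W yy ^ 2 := by
  obtain ⟨c0, ⟨_, _, c1⟩, ⟨_, _, c2⟩, ⟨_, _, c3⟩, _, _, c4⟩ := h
  obtain ⟨hp0, hq, hb, hd, hcm, hz, -⟩ := of_decide_eq_true c0
  have b5 : (5 : ℝ) ≤ C.b := by exact_mod_cast hb
  have b0 : (0 : ℝ) < C.b := by linarith
  have d0 : (0 : ℝ) < C.d := by exact_mod_cast hd
  have z0 : (0 : ℝ) < C.z := by exact_mod_cast hz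
  have m2 : (C.cm : ℝ) ≤ 2 * C.d := by exact_mod_cast hcm
  have L2 : (C.p : ℝ) / C.q ≤ 1 / 2 := by
    have : (2 : ℝ) * C.p ≤ C.q := by exact_mod_cast hq
    rw [div_le_iff₀ (by exact_mod_cast (by omega : 0 < C.q))]; linarith
  have l2 := h1.trans L2
  have hY := hW.sh (adm_neg h0.le l2)
  have x0 := hW.ex_nonneg continuous_yy fun a _ => yy_nonneg a
  have x2 := ex_yy_le hW
  have eX : Ex (shE (-l) W) yy = l ^ 2 * Ex W yy := by
    rw [hW.ex_sh (adm_neg h0.le l2), ← ex_mul]; simp only [yy_shr, neg_sq]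
  have X0 : 0 ≤ l ^ 2 * Ex W yy := by positivity
  have X1 : l ^ 2 * Ex W yy ≤ 1 / 2 := by nlinarith [pow_le_pow_left₀ h0.le l2 2]
  have P := fun k {c E kx P} (h : chkP kx C.p C.q c E P = true) =>
    prod_ge (hY.pow k) hW h0 h1 L2 fun a b ha hb => chkP_sound h hp0 hq ha hb
  have zero : ∀ c : C6, Ex (powE (shE (-l) W) 0) (ev7 c.l) = 0 := fun c => by
    simp [Ex_pow_zero, ev7, C6.l, fe, Q2, Q3, yy]
  obtain ⟨e, a1, a2, he, ha, key⟩ := seq_bound (β := 9 / C.b) (cp := C.cp / C.d) (cm := C.cm / C.d)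
    (g := Ex (shE (-l) W) (ev7 C.G.l) / C.b) (al := Ex (shE (-l) W) (ev7 C.A.l))
    (y := Ex (shE (-l) W) (ev7 C.φ.l)) (Φ := fun k => Ex (powE (shE (-l) W) k) (ev7 C.φ.l))
    (m := fun k => Ex (powE (shE (-l) W) k) (ev7 C.χ.l))
    (u := fun k => Ex (powE (shE (-l) W) k) yy) X0 (by positivity)
    (by rw [div_mul_eq_mul_div, div_le_one b0]; linarith) (by positivity) (by positivity)
    (by rw [div_mul_eq_mul_div, div_le_one d0]; nlinarith) (zero _) (zero _)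
    (by simp [Ex_pow_zero, yy]) (fun k => ex_yy_le (hY.pow k))
    (fun k => by
      have := P k c1
      simp only [List.map_cons, List.map_nil, List.sum_cons, List.sum_nil, ex_smulZ, ex_one hY,
        ex_one (hY.pow k), ex_Q, eX] at this
      rw [Ex_pow_succ, Ex_prod_comm]
      push_cast at this
      linarith)
    (fun k => by
      have := P k c2
      simp only [List.map_cons, List.map_nil, List.sum_cons, List.sum_nil, ex_smulZ, ex_one hY,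
        ex_one (hY.pow k), ex_Q, eX] at this
      rw [Ex_pow_succ, Ex_prod_comm]
      push_cast at this
      refine le_of_mul_le_mul_left ?_ b0
      field_simp
      linarith)
    (fun k => by
      have := P k c3
      simp only [List.map_cons, List.map_nil, List.sum_cons, List.sum_nil, ex_one hY,
        ex_one (hY.pow k), ex_Q, eX] at this
      rw [Ex_pow_succ, Ex_prod_comm]
      push_cast at this
      refine le_of_mul_le_mul_left ?_ (by positivity : 0 < 81 * C.z * (C.d : ℝ))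
      rw [← div_mul_cancel₀ (C.cp : ℝ) d0.ne'] at this
      linarith)
    (fun k => by
      have := P k c4
      simp only [List.map_cons, List.map_nil, List.sum_cons, List.sum_nil, ex_one hY,
        ex_one (hY.pow k), ex_Q, eX] at this
      rw [Ex_pow_succ, Ex_prod_comm]
      push_cast at this
      refine le_of_mul_le_mul_left ?_ (by positivity : 0 < 81 * C.z * (C.d : ℝ))
      rw [← div_mul_cancel₀ (C.cm : ℝ) d0.ne'] at this
      linarith)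
  obtain ⟨k, kx, nu, t1, t2, t3, t4, hc⟩ := hc
  simp only [LC.c5, Bool.and_eq_true] at hc
  obtain ⟨e', a1', a2', s, f1, f2, f3, F⟩ : ∃ (e' a1' a2' : ℤ) (s : Tr), (e' : ℝ) = e ∧
      (a1' : ℝ) = a1 * C.d ^ 3 ∧ (a2' : ℝ) = a2 * C.d ^ 3 ∧ C.cf k kx nu t e' a1' a2' s T = true := by
    rcases he with rfl | rfl <;> rcases ha with ⟨rfl, rfl⟩ | ⟨rfl, rfl⟩
    exacts [⟨_, _, _, _, by simp, by push_cast; field_simp, by push_cast; field_simp, hc.1.1.1⟩,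
      ⟨_, _, _, _, by simp, by push_cast; field_simp, by simp, hc.1.1.2⟩,
      ⟨_, _, _, _, by simp, by push_cast; field_simp, by push_cast; field_simp, hc.1.2⟩,
      ⟨_, _, _, _, by simp, by push_cast; field_simp, by simp, hc.2⟩]
  have F' := C.cf_ex F hW h0.le l2 hT
  simp only [LC.cc, LC.ca, gp, evP, evL_pmul, evL] at F'
  push_cast at F'
  rw [f1, f2, f3] at F'
  set x := Ex W yy
  set g := Ex (shE (-l) W) (ev7 C.G.l)
  set al := Ex (shE (-l) W) (ev7 C.A.l)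
  set y := Ex (shE (-l) W) (ev7 C.φ.l)
  have S := hasSum_le (fun k => ?_)
    ((IsExp.hasSum_mix hp hs hY.pow (cont_ev7 C.φ.l)).mul_left (l ^ 2))
    ((((((hm 1).mul_left y).add ((hm 2).mul_left (9 * x * (g / C.b + al)))).add
    ((hm 3).mul_left (9 * x ^ 2 * (al * a1 - g / C.b * (9 / C.b))))).add
    ((hm 4).mul_left (9 * x ^ 3 * (al * a2 + g / C.b * (9 / C.b) ^ 2)))).add
    ((hm 5).mul_left (-9 * x ^ 4 * e * (g / C.b) * (9 / C.b) ^ 3)))
  · simp only [prod_range_succ, prod_range_zero, Nat.factorial] at S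
    push_cast at S
    refine le_of_mul_le_mul_left (S.trans ?_) (pow_pos h0 2)
    refine le_of_mul_le_mul_left ?_ (by positivity : 0 < 120 * (C.b : ℝ) ^ 4 * C.d ^ 3)
    refine le_trans (le_of_eq ?_) (F'.trans (le_of_eq ?_)) <;> field_simp <;> ring
  · linarith [mul_le_mul_of_nonneg_left (key k) (mul_nonneg (hp k) (sq_nonneg l))]

theorem LC.nonrecon (C : LC) (h : C.Ok) {p : ℕ → ℝ} (hp : ∀ k, 0 ≤ p k) (hs : HasSum p 1) {l : ℝ}
    {t : ℤ} (hm : Mo p l t) (h0 : 0 < l) (h1 : l ≤ C.p / C.q) {a : ℝ}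
    (hc : ∀ x, 0 ≤ x → x ≤ a → ∃ T, C.Cov t T ∧ InT T [1, x, l])
    (hn : ∃ n, Ex (lk 3 p (-l) n) yy ≤ a) : NonRecon 3 p (-l) := by
  obtain ⟨N, hN⟩ := hn
  obtain ⟨hp0, hq, hb, hd, -, -, hz⟩ := of_decide_eq_true h.1
  have L2 : (C.p : ℝ) / C.q ≤ 1 / 2 := by
    have : (2 : ℝ) * C.p ≤ C.q := by exact_mod_cast hq
    rw [div_le_iff₀ (by exact_mod_cast (by omega : 0 < C.q))]; linarith
  have ha := adm_neg h0.le (h1.trans L2)
  have hE := isExp_lk hp hs ha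
  have x0 := fun n => (hE n).ex_nonneg continuous_yy fun a _ => yy_nonneg a
  have an : Antitone fun n => Ex (lk 3 p (-l) n) yy :=
    antitone_nat_of_succ_le fun n => yy_le_of_dom (hE _) (hE _) (dom_lk hp hs ha n)
  obtain ⟨K, hK⟩ := exists_bound (cont_ev7 C.φ.l)
  have b0 : 0 < C.b := by omega
  refine nonrecon_of_chi hp hs ha (tendsto_of_pot
    (c := C.dl * 9 / (120 * C.b ^ 4 * C.d ^ 3)) (by positivity) x0 an
    (fun n => (hE n).abs_ex_le (cont_ev7 C.φ.l) hK) N fun n hn => ?_)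
  obtain ⟨T, c1, c2⟩ := hc _ (x0 n) ((an hn).trans hN)
  rw [lk_succ]
  exact C.level h (hE n) hp hs hm h0 h1 c1 c2

end Vale.Agent.P154.AF
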