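import Vale.Agent.P154.AF.Ca
import Vale.Agent.P154.AF.Cb
import Vale.Agent.P154.AF.Cc
import Vale.Agent.P154.AF.Cd
import Vale.Agent.P154.AF.Dp0
import Vale.Agent.P154.AF.Dp1
import Vale.Agent.P154.AF.Dp2
import Vale.Agent.P154.AF.Dp3
import Vale.Agent.P154.AF.Dp4
import Vale.Agent.P154.AF.Dp5
import Vale.Agent.P154.AF.Dp6
import Vale.Agent.P154.AF.Dp7
import Vale.Agent.P154.AF.Dp8
import Vale.Agent.P154.AF.Dp9
import Vale.Agent.P154.AF.Dp10
import Vale.Agent.P154.AF.Dd4
import Vale.Agent.P154.AF.Dd5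
import Vale.Agent.P154.AF.Dd6
import Vale.Agent.P154.AF.Dd7
import Vale.Agent.P154.AF.Dd8
import Vale.Agent.P154.AF.Dd9
import Vale.Agent.P154.AF.Dd10

/-! Nonreconstruction for the three-state antiferromagnet -/

namespace Vale.Agent.P154.AF

lemma LC.trap (C : LC) (h : C.Ok) {t : ℤ} {L0 L1 A0 A1 : ℕ}
    (c1 : C.Cov t ⟨⟨100, 0, L0⟩, ⟨100, 0, L1⟩, ⟨100, A0, L0⟩⟩)
    (c2 : C.Cov t ⟨⟨100, 0, L1⟩, ⟨100, A0, L0⟩, ⟨100, A1, L1⟩⟩)
    (k : L0 < L1 ∧ 0 < A0 ∧ 0 < A1 ∧ L1 * C.q = 100 * C.p ∧ 0 < C.q) {p : ℕ → ℝ}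
    (hp : ∀ k, 0 ≤ p k) (hs : HasSum p 1) {l : ℝ} (hm : Mo p l t) (h0 : 0 < l) {a : ℝ}
    (hn : ∃ n, Ex (lk 3 p (-l) n) yy ≤ a) (l0 : L0 ≤ 100 * l) (l1 : 100 * l ≤ L1)
    (ha : 100 * a * (L1 - L0) ≤ A0 * (L1 - 100 * l) + A1 * (100 * l - L0)) :
    NonRecon 3 p (-l) := by
  obtain ⟨k1, k2, k3, k4, k5⟩ := k
  have e1 : (0 : ℝ) < L1 - L0 := sub_pos.2 (by exact_mod_cast k1)
  have e2 : (0 : ℝ) < A0 := by exact_mod_cast k2
  have e3 : (0 : ℝ) < A1 := by exact_mod_cast k3
  have e4 : (L1 : ℝ) * C.q = 100 * C.p := by exact_mod_cast k4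
  have e5 : (0 : ℝ) < C.q := by exact_mod_cast k5
  refine C.nonrecon h hp hs hm h0 (by rw [le_div_iff₀ e5]; nlinarith) (fun x x0 xa => ?_) hn
  obtain ⟨θ, t0, t1, e⟩ : ∃ θ : ℝ, 0 ≤ θ ∧ θ ≤ 1 ∧ l = (L0 + θ * (L1 - L0)) / 100 :=
    ⟨(100 * l - L0) / (L1 - L0), div_nonneg (by linarith) e1.le, (div_le_one e1).2 (by linarith),
      by field_simp; ring⟩
  have b : 100 * x ≤ A0 * (1 - θ) + A1 * θ := by
    refine le_of_mul_le_mul_right ?_ e1
    rw [e] at ha
    nlinarith
  rcases le_total (100 * x) (A0 * (1 - θ)) with c | c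
  · refine ⟨_, c1, (A0 * (1 - θ) - 100 * x) / A0 / 100, θ / 100, x / A0,
      by have := sub_nonneg.2 c; positivity, by positivity, by positivity, ?_⟩
    simp only [e, List.cons.injEq, and_true]
    push_cast
    refine ⟨?_, ?_, ?_⟩ <;> field_simp <;> ring
  · refine ⟨_, c2, (A0 * (1 - θ) + A1 * θ - 100 * x) / A1 / 100, (1 - θ) / 100,
      (100 * x - A0 * (1 - θ)) / A1 / 100, by have := sub_nonneg.2 b; positivity,
      by have := sub_nonneg.2 t1; positivity, by have := sub_nonneg.2 c; positivity, ?_⟩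
    simp only [e, List.cons.injEq, and_true]
    push_cast
    refine ⟨?_, ?_, ?_⟩ <;> field_simp <;> ring

theorem critP {D l : ℝ} (h : D * l ^ 2 = 1) (h0 : 0 < l) (h1 : l ≤ 1 / 2) :
    NonRecon 3 (poisson D) (-l) := by
  have D0 : 0 ≤ D := by by_contra c; nlinarith
  have hp := poisson_nonneg D0
  have hs := poisson_hasSum D
  have hm := mo_poisson h
  rcases le_total l (31 / 100) with c | c
  · exact a.trap aok af0 af1 (by decide) hp hs hm h0
      ⟨0, ex_yy_le (isExp_lk hp hs (adm_neg h0.le h1) 0)⟩ (by push_cast; linarith)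
      (by push_cast; linarith) (by push_cast; linarith)
  rcases le_total l (17 / 50) with c | c
  · exact d.trap dok df0 df1 (by decide) hp hs hm h0 (p10 (faP h h0 _
      (by push_cast; linarith) (by norm_num) (by push_cast; linarith))) (by push_cast; linarith)
      (by push_cast; linarith) (by push_cast; linarith)
  rcases le_total l (37 / 100) with c | c
  · exact d.trap dok df0 df1 (by decide) hp hs hm h0 (p9 (faP h h0 _
      (by push_cast; linarith) (by norm_num) (by push_cast; linarith))) (by push_cast; linarith)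
      (by push_cast; linarith) (by push_cast; linarith)
  rcases le_total l (39 / 100) with c | c
  · exact b.trap bok bf0 bf1 (by decide) hp hs hm h0 (p8 (faP h h0 _
      (by push_cast; linarith) (by norm_num) (by push_cast; linarith))) (by push_cast; linarith)
      (by push_cast; linarith) (by push_cast; linarith)
  rcases le_total l (41 / 100) with c | c
  · exact b.trap bok bf0 bf1 (by decide) hp hs hm h0 (p7 (faP h h0 _
      (by push_cast; linarith) (by norm_num) (by push_cast; linarith))) (by push_cast; linarith)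
      (by push_cast; linarith) (by push_cast; linarith)
  rcases le_total l (43 / 100) with c | c
  · exact b.trap bok bf0 bf1 (by decide) hp hs hm h0 (p6 (faP h h0 _
      (by push_cast; linarith) (by norm_num) (by push_cast; linarith))) (by push_cast; linarith)
      (by push_cast; linarith) (by push_cast; linarith)
  rcases le_total l (11 / 25) with c | c
  · exact AF.c.trap cok cf0 cf1 (by decide) hp hs hm h0 (p5 (faP h h0 _
      (by push_cast; linarith) (by norm_num) (by push_cast; linarith))) (by push_cast; linarith)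
      (by push_cast; linarith) (by push_cast; linarith)
  rcases le_total l (453 / 1000) with c | c
  · exact AF.c.trap cok cf0 cf1 (by decide) hp hs hm h0 (p4 (faP h h0 _
      (by push_cast; linarith) (by norm_num) (by push_cast; linarith))) (by push_cast; linarith)
      (by push_cast; linarith) (by push_cast; linarith)
  rcases le_total l (233 / 500) with c | c
  · exact AF.c.trap cok cf0 cf1 (by decide) hp hs hm h0 (p3 (faP h h0 _
      (by push_cast; linarith) (by norm_num) (by push_cast; linarith))) (by push_cast; linarith)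
      (by push_cast; linarith) (by push_cast; linarith)
  rcases le_total l (239 / 500) with c | c
  · exact AF.c.trap cok cf0 cf1 (by decide) hp hs hm h0 (p2 (faP h h0 _
      (by push_cast; linarith) (by norm_num) (by push_cast; linarith))) (by push_cast; linarith)
      (by push_cast; linarith) (by push_cast; linarith)
  rcases le_total l (49 / 100) with c | c
  · exact AF.c.trap cok cf0 cf1 (by decide) hp hs hm h0 (p1 (faP h h0 _
      (by push_cast; linarith) (by norm_num) (by push_cast; linarith))) (by push_cast; linarith)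
      (by push_cast; linarith) (by push_cast; linarith)
  exact AF.c.trap cok cf0 cf1 (by decide) hp hs hm h0 (p0 (faP h h0 _
      (by push_cast; linarith) (by norm_num) (by push_cast; linarith))) (by push_cast; linarith)
      (by push_cast; linarith) (by push_cast; linarith)

theorem critD {D : ℕ} {l : ℝ} (hD : 4 ≤ D) (h : D * l ^ 2 = 1) (h0 : 0 < l) :
    NonRecon 3 (dary D) (-l) := by
  have hp := dary_nonneg D
  have hs := dary_sum D
  have hm := mo_dary h
  have up : ∀ u : ℝ, 0 < u → 1 ≤ D * u ^ 2 → l ≤ u := fun u hu e => by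
    by_contra c
    have : (4 : ℝ) ≤ D := by exact_mod_cast hD
    nlinarith [mul_pos (sub_pos.2 (not_le.1 c)) (add_pos h0 hu)]
  have lo : ∀ u : ℝ, D * u ^ 2 ≤ 1 → u ≤ l := fun u e => by
    by_contra c
    have : (4 : ℝ) ≤ D := by exact_mod_cast hD
    nlinarith [mul_pos (sub_pos.2 (not_le.1 c)) (add_pos (h0.trans (not_le.1 c)) h0)]
  rcases le_or_gt 11 D with c | c
  · have : (11 : ℝ) ≤ D := by exact_mod_cast c
    have c1 := up (31 / 100) (by norm_num) (by linarith)
    exact a.trap aok af2 af3 (by decide) hp hs hm h0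
      ⟨0, ex_yy_le (isExp_lk hp hs (adm_neg h0.le (by linarith)) 0)⟩ (by push_cast; linarith)
      (by push_cast; linarith) (by push_cast; linarith)
  interval_cases D
  · have c1 := up (1 / 2) (by norm_num) (by norm_num)
    have c2 := lo (43 / 100) (by norm_num)
    exact AF.c.trap cok cf2 cf3 (by decide) hp hs hm h0 (d4 (faD h0 _
      (by push_cast; linarith) (by norm_num))) (by push_cast; linarith)
      (by push_cast; linarith) (by push_cast; linarith)
  · have c1 := up (4473 / 10000) (by norm_num) (by norm_num)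
    have c2 := lo (43 / 100) (by norm_num)
    exact AF.c.trap cok cf2 cf3 (by decide) hp hs hm h0 (d5 (faD h0 _
      (by push_cast; linarith) (by norm_num))) (by push_cast; linarith)
      (by push_cast; linarith) (by push_cast; linarith)
  · have c1 := up (4083 / 10000) (by norm_num) (by norm_num)
    have c2 := lo (37 / 100) (by norm_num)
    exact b.trap bok bf2 bf3 (by decide) hp hs hm h0 (d6 (faD h0 _
      (by push_cast; linarith) (by norm_num))) (by push_cast; linarith)
      (by push_cast; linarith) (by push_cast; linarith)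
  · have c1 := up (189 / 500) (by norm_num) (by norm_num)
    have c2 := lo (37 / 100) (by norm_num)
    exact b.trap bok bf2 bf3 (by decide) hp hs hm h0 (d7 (faD h0 _
      (by push_cast; linarith) (by norm_num))) (by push_cast; linarith)
      (by push_cast; linarith) (by push_cast; linarith)
  · have c1 := up (221 / 625) (by norm_num) (by norm_num)
    have c2 := lo (31 / 100) (by norm_num)
    exact d.trap dok df2 df3 (by decide) hp hs hm h0 (d8 (faD h0 _
      (by push_cast; linarith) (by norm_num))) (by push_cast; linarith)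
      (by push_cast; linarith) (by push_cast; linarith)
  · have c1 := up (1 / 3) (by norm_num) (by norm_num)
    have c2 := lo (31 / 100) (by norm_num)
    exact d.trap dok df2 df3 (by decide) hp hs hm h0 (d9 (faD h0 _
      (by push_cast; linarith) (by norm_num))) (by push_cast; linarith)
      (by push_cast; linarith) (by push_cast; linarith)
  · have c1 := up (3163 / 10000) (by norm_num) (by norm_num)
    have c2 := lo (31 / 100) (by norm_num)
    exact d.trap dok df2 df3 (by decide) hp hs hm h0 (d10 (faD h0 _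
      (by push_cast; linarith) (by norm_num))) (by push_cast; linarith)
      (by push_cast; linarith) (by push_cast; linarith)

lemma exists_crit {d l : ℝ} (h0 : 0 ≤ l) (h1 : l ≤ 1 / 2) (h : d * l ^ 2 ≤ 1) :
    ∃ m θ : ℝ, max d 4 * m ^ 2 = 1 ∧ 0 < m ∧ m ≤ 1 / 2 ∧ 0 ≤ θ ∧ θ ≤ 1 ∧ -l = θ * -m := by
  have h4 := le_max_right d 4
  have h5 : max d 4 * l ^ 2 ≤ 1 := by
    rcases max_choice d 4 with e | e <;> rw [e]
    · exact h
    · nlinarith
  generalize max d 4 = D at *
  have s0 : 0 < √D := Real.sqrt_pos.2 (by linarith)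
  have s1 : √D ^ 2 = D := Real.sq_sqrt (by linarith)
  have s2 : 2 ≤ √D := Real.le_sqrt_of_sq_le (by linarith)
  refine ⟨1 / √D, l * √D, by rw [div_pow, s1]; field_simp, by positivity,
    one_div_le_one_div_of_le (by norm_num) s2, by positivity, ?_, by field_simp⟩
  refine abs_le_of_sq_le_sq' ?_ zero_le_one |>.2
  rw [mul_pow, s1]
  linarith

theorem af_dary (d : ℕ) {l : ℝ} (h0 : 0 ≤ l) (h1 : l ≤ 1 / 2) (h : d * l ^ 2 ≤ 1) :
    NonRecon 3 (dary d) (-l) := by
  obtain ⟨m, θ, e, m0, m1, t0, t1, e'⟩ := exists_crit h0 h1 h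
  have ha := adm_neg h0 h1
  have hm := adm_neg m0.le m1
  rw [e'] at ha ⊢
  exact Cmp.nonrecon (@cmp_dary 3 _ d _ (le_max_left d 4) _ _ hm ha t0 t1) (dary_nonneg _)
    (dary_sum _) (dary_nonneg _) (dary_sum _) ha hm
    (critD (le_max_right d 4) (by push_cast; exact e) m0)

theorem af_poisson {d : ℝ} (hd : 0 ≤ d) {l : ℝ} (h0 : 0 ≤ l) (h1 : l ≤ 1 / 2)
    (h : d * l ^ 2 ≤ 1) : NonRecon 3 (poisson d) (-l) := by
  obtain ⟨m, θ, e, m0, m1, t0, t1, e'⟩ := exists_crit h0 h1 h
  have ha := adm_neg h0 h1
  have hm := adm_neg m0.le m1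
  have h4 : 0 < max d 4 := lt_max_of_lt_right (by norm_num)
  rw [e'] at ha ⊢
  exact Cmp.nonrecon (@cmp_poisson 3 _ d _ _ _ hd h4 ((mul_le_of_le_one_right hd t1).trans
    (le_max_left d 4)) hm ha t0 t1) (poisson_nonneg hd) (poisson_hasSum _) (poisson_nonneg h4.le)
    (poisson_hasSum _) ha hm (critP e m0 m1)

end Vale.Agent.P154.AF
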