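import Mathlib

/-! The density evolution program.  Measures on the rays (t^i, t^j, 1) are packed into natural
numbers, one digit of `88` bits for each ray; probabilities are scaled by `2^40`. -/

namespace Vale.Agent.P154.AF

noncomputable def force {β : Type} (n : ℕ) (f : ℕ → β) : β :=
  Nat.rec (motive := fun _ => β) (f 0) (fun k _ => f (Nat.succ k)) n

/-- lower approximation of `2^40 * (tn/td)^e` -/
def lo (tn td e : ℕ) : ℕ := Nat.div (Nat.shiftLeft (Nat.pow tn e) 40) (Nat.pow td e)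

def hi (tn td e : ℕ) : ℕ := Nat.succ (lo tn td e)

def dg (c J : ℕ) : ℕ := Nat.shiftLeft c (Nat.mul 88 J)

def dig (N J : ℕ) : ℕ := Nat.mod (Nat.shiftRight N (Nat.mul 88 J)) 309485009821345068724781056

def geo (k n : ℕ) : ℕ :=
  Nat.div (Nat.sub (Nat.shiftLeft 1 (Nat.mul k n)) 1) (Nat.sub (Nat.shiftLeft 1 k) 1)

def mask1 (w : ℕ) : ℕ := Nat.mul 281474976710655 (geo 88 w)

def mask2 (W h w : ℕ) : ℕ := Nat.mul (mask1 w) (geo (Nat.mul 88 W) h)

/-- drop `s` digits, divide the digits by `2^40`, keep the digits selected by the mask -/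
def ms (N s m : ℕ) : ℕ := Nat.land (Nat.shiftRight N (Nat.add (Nat.mul 88 s) 40)) m

/-- `sum_j (digit j of N) * l_j` -/
noncomputable def dot (l : List ℕ) : ℕ → ℕ :=
  List.rec (motive := fun _ => ℕ → ℕ) (fun _ => 0)
    (fun p _ ih N => cond (Nat.beq (Nat.mod N 309485009821345068724781056) 0)
      (ih (Nat.shiftRight N 88))
      (Nat.add (Nat.mul (Nat.mod N 309485009821345068724781056) p) (ih (Nat.shiftRight N 88)))) l

noncomputable def dot2 (k m : ℕ) (L : List (List ℕ)) : ℕ → ℕ :=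
  List.rec (motive := fun _ => ℕ → ℕ) (fun _ => 0)
    (fun l _ ih N => Nat.add (dot l (Nat.mod N m)) (ih (Nat.shiftRight N k))) L

/-- the list `[f i, f (i+1), ..., f (i+n-1)]` -/
noncomputable def tab {β : Type} (f : ℕ → β) (n : ℕ) : ℕ → List β :=
  Nat.rec (motive := fun _ => ℕ → List β) (fun _ => [])
    (fun _ ih i => force (Nat.add i 1) fun i' => f i :: ih i') n

/-- message lattice: base `tn/td`, exponents up to `ry`, channel parameter `lp/lq` -/
structure Tg where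
  tn : ℕ
  td : ℕ
  ry : ℕ
  lp : ℕ
  lq : ℕ

/-- search: the largest `a ≤ fuel + a0` with `y0 / y2 ≤ t^a` -/
noncomputable def find (tn td y0 y2 : ℕ) (fuel : ℕ) : ℕ → ℕ :=
  Nat.rec (motive := fun _ => ℕ → ℕ) (fun a => a)
    (fun _ ih a => cond (Nat.ble y0 (Nat.mul y2 (lo tn td (Nat.add a 1)))) (ih (Nat.add a 1)) a)
    fuel

/-- position of `y / y2` between `t^(a+1)` and `t^a`, multiplied by `y2` -/
def frac (tn td y y2 a : ℕ) : ℕ :=
  Nat.min y2 (Nat.div (Nat.sub (Nat.shiftLeft y 40) (Nat.mul y2 (hi tn td (Nat.add a 1))))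
    (Nat.sub (hi tn td a) (hi tn td (Nat.add a 1))))

/-- the checked part: three lattice rays and the ray (0,1,1) with weights below `y` -/
def pack (tn td ry y0 y1 y2 mass a1 b1 c1 a2 b2 c2 a3 b3 c3 c4 : ℕ) : ℕ :=
  cond (Nat.ble (Nat.add (Nat.add (Nat.mul c1 (hi tn td a1)) (Nat.mul c2 (hi tn td a2)))
        (Nat.mul c3 (hi tn td a3))) (Nat.shiftLeft y0 40) &&
      (Nat.ble (Nat.add (Nat.add (Nat.add (Nat.mul c1 (hi tn td b1))
        (Nat.mul c2 (hi tn td b2))) (Nat.mul c3 (hi tn td b3))) (Nat.shiftLeft c4 40))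
        (Nat.shiftLeft y1 40) &&
      (Nat.ble (Nat.add (Nat.add (Nat.add c1 c2) c3) c4) y2 &&
      (Nat.ble a1 ry && (Nat.ble a2 ry && (Nat.ble a3 ry &&
      (Nat.ble b1 ry && (Nat.ble b2 ry && Nat.ble b3 ry))))))))
    (Nat.add (Nat.add (Nat.add (Nat.add (dg c1 (Nat.add (Nat.mul a1 (Nat.succ ry)) b1))
      (dg c2 (Nat.add (Nat.mul a2 (Nat.succ ry)) b2)))
      (dg c3 (Nat.add (Nat.mul a3 (Nat.succ ry)) b3)))
      (dg c4 (Nat.mul (Nat.succ ry) (Nat.succ ry))))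
      (dg mass (Nat.succ (Nat.mul (Nat.succ ry) (Nat.succ ry)))))
    0

def split4 (tn td ry y0 y1 y2 mass z a b s t : ℕ) : ℕ :=
  cond (Nat.ble t s)
    (pack tn td ry y0 y1 y2 mass (Nat.add a 1) (Nat.add b 1) (Nat.sub z s)
      a (Nat.add b 1) (Nat.sub s t) a b t 0)
    (pack tn td ry y0 y1 y2 mass (Nat.add a 1) (Nat.add b 1) (Nat.sub z t)
      (Nat.add a 1) b (Nat.sub t s) a b s 0)

def split3 (tn td ry y0 y1 y2 mass z a b : ℕ) : ℕ :=
  split4 tn td ry y0 y1 y2 mass z a b (frac tn td (Nat.sub y0 32) z a)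
    (frac tn td (Nat.sub y1 32) z b)

def edge3 (tn td ry y0 y1 y2 mass al c4 v b : ℕ) : ℕ :=
  cond (Nat.ble (Nat.mul al (hi tn td (Nat.add b 1))) (Nat.shiftLeft v 40))
    (pack tn td ry y0 y1 y2 mass ry b (frac tn td v al b) ry (Nat.add b 1)
      (Nat.sub al (frac tn td v al b)) 0 0 0 c4)
    (pack tn td ry y0 y1 y2 mass ry ry al 0 0 0 0 0 0
      (Nat.sub (Nat.sub y1 64) (Nat.shiftRight (Nat.mul al (hi tn td ry)) 40)))

noncomputable def edge2 (tn td ry y0 y1 y2 mass al c4 v : ℕ) : ℕ :=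
  edge3 tn td ry y0 y1 y2 mass al c4 v (find tn td (Nat.shiftLeft v 40) al (Nat.pred ry) 0)

noncomputable def edge1 (tn td ry y0 y1 y2 mass z al : ℕ) : ℕ :=
  edge2 tn td ry y0 y1 y2 mass al (Nat.sub z al) (Nat.sub (Nat.sub y1 (Nat.sub z al)) 64)

noncomputable def split2 (tn td ry y0 y1 y2 mass z a : ℕ) : ℕ :=
  cond (Nat.ble ry a)
    (edge1 tn td ry y0 y1 y2 mass z (Nat.min z (Nat.div (Nat.shiftLeft y0 40) (hi tn td ry))))
    (split3 tn td ry y0 y1 y2 mass z a (find tn td (Nat.shiftLeft y1 40) z (Nat.pred ry) 0))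

/-- unchecked choice of the splitting -/
noncomputable def split (tn td ry y0 y1 y2 mass : ℕ) : ℕ :=
  split2 tn td ry y0 y1 y2 mass (Nat.sub y2 64)
    (find tn td (Nat.shiftLeft y0 40) (Nat.sub y2 64) ry 0)

noncomputable def img2 (T : Tg) (g u v m A B C : ℕ) : ℕ :=
  split T.tn T.td T.ry
    (Nat.div (Nat.mul g (Nat.add (Nat.shiftLeft A 40) (Nat.mul B (Nat.add u v)))) C)
    (Nat.div (Nat.mul g (Nat.add (Nat.mul A v) (Nat.mul B (Nat.add u 1099511627776)))) C)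
    (Nat.div (Nat.mul g (Nat.add (Nat.mul A u) (Nat.mul B (Nat.add v 1099511627776)))) C)
    (Nat.mul g m)

/-- image of `g * (u, v, 1)` under the channel (`u, v` scaled lower bounds, `m` an upper bound
of `u + v + 1`) -/
noncomputable def img (T : Tg) (g u v m : ℕ) : ℕ :=
  img2 T g u v m (Nat.sub T.lq (Nat.mul 2 T.lp)) (Nat.add T.lq T.lp) (Nat.mul 3 T.lq)

def gam (i j : ℕ) : ℕ := cond (Nat.beq i 0) 1 (cond (Nat.beq i j || Nat.beq j 0) 3 6)

noncomputable def patX (S T : Tg) (i j : ℕ) : ℕ :=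
  img T (gam i j) (lo S.tn S.td i) (lo S.tn S.td j)
    (Nat.add (Nat.add (hi S.tn S.td i) (hi S.tn S.td j)) 1099511627776)

noncomputable def patE (S T : Tg) (j : ℕ) : ℕ :=
  img T (cond (Nat.beq j 0) 3 6) 0 (lo S.tn S.td j) (Nat.add (hi S.tn S.td j) 1099511627776)

noncomputable def patV (T : Tg) : ℕ := img T 1 0 0 0

def six2 (ry : ℕ) (f : ℕ → ℕ → ℕ → ℕ) (a b wa wb : ℕ) : ℕ :=
  Nat.add (Nat.add (Nat.add (f 183251937962 (Nat.add ry a) (Nat.add ry b))
    (f 183251937962 (Nat.add ry b) (Nat.add ry a)))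
    (Nat.add (f wb (Nat.add (Nat.sub ry b) a) (Nat.sub ry b))
      (f wb (Nat.sub ry b) (Nat.add (Nat.sub ry b) a))))
    (Nat.add (f wa (Nat.add (Nat.sub ry a) b) (Nat.sub ry a))
      (f wa (Nat.sub ry a) (Nat.add (Nat.sub ry a) b)))

/-- the six permutations of the ray (t^a, t^b, 1); `f` places a weight at a pair of exponents -/
def six (S : Tg) (f : ℕ → ℕ → ℕ → ℕ) (J : ℕ) : ℕ :=
  six2 S.ry f (Nat.div J (Nat.succ S.ry)) (Nat.mod J (Nat.succ S.ry))
    (Nat.div (lo S.tn S.td (Nat.div J (Nat.succ S.ry))) 6)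
    (Nat.div (lo S.tn S.td (Nat.mod J (Nat.succ S.ry))) 6)

/-- window: exponents from `-r2` to `r1`; columns used up to `rc` -/
structure Win where
  r1 : ℕ
  r2 : ℕ
  rc : ℕ

def wid (S : Tg) (G : Win) : ℕ := Nat.add (Nat.succ (Nat.add G.r1 G.r2)) (Nat.mul 2 S.ry)

def nm (S : Tg) : ℕ := Nat.mul (Nat.succ S.ry) (Nat.succ S.ry)

/-- the convolution loop over the number of children -/
noncomputable def kids (M Mb om sA sE mA mE : ℕ) (k : ℕ → ℕ → ℕ) (ws : List ℕ) :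
    ℕ → ℕ → ℕ → ℕ → ℕ → ℕ :=
  List.rec (motive := fun _ => ℕ → ℕ → ℕ → ℕ → ℕ → ℕ) (fun _ _ _ OA OE => k OA OE)
    (fun w _ ih P E T OA OE =>
      ih (ms (Nat.mul M P) sA mA) (ms (Nat.add (Nat.mul Mb E) (Nat.mul om T)) sE mE)
        (ms (Nat.mul (Nat.add Mb om) T) sE mE)
        (Nat.add OA (Nat.mul w (ms (Nat.mul M P) sA mA)))
        (Nat.add OE (Nat.mul w (ms (Nat.add (Nat.mul Mb E) (Nat.mul om T)) sE mE)))) ws

def fin2 (m pV acc : ℕ) : ℕ :=
  ms (Nat.add (Nat.mod acc (Nat.shiftLeft 1 (Nat.mul 88 m)))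
    (Nat.mul (Nat.shiftRight (Nat.sub 3626777458843887524118528
      (Nat.shiftRight acc (Nat.mul 88 m))) 40) pV)) 0 (mask1 m)

noncomputable def fin1 (m W r2 rc mA mE : ℕ) (pX : List (List ℕ)) (pE : List ℕ)
    (pV OA OE : ℕ) : ℕ :=
  fin2 m pV (Nat.add (dot pE (ms OE r2 mE))
    (dot2 (Nat.mul 88 W) (Nat.shiftLeft 1 (Nat.mul 88 (Nat.succ rc))) pX
      (ms OA (Nat.add (Nat.mul r2 W) r2) mA)))

noncomputable def level2 (n ry r2 rc m W w wy w0 : ℕ) (ws : List ℕ) (pM pB : List ℕ)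
    (pX : List (List ℕ)) (pE : List ℕ) (pV : ℕ) (mw : ℕ) : ℕ :=
  kids (ms (dot pM mw) 0 (mask2 W wy wy)) (ms (dot pB mw) 0 (mask1 wy))
    (dg (Nat.div (dig mw n) 3) ry) (Nat.add (Nat.mul ry W) ry) ry (mask2 W w w) (mask1 w)
    (fin1 m W r2 rc (mask2 W w w) (mask1 w) pX pE pV)
    ws (dg 1099511627776 (Nat.add (Nat.mul r2 W) r2)) 0 (dg 1099511627776 r2)
    (Nat.mul w0 (dg 1099511627776 (Nat.add (Nat.mul r2 W) r2))) 0

noncomputable def mkM (S : Tg) (G : Win) : List ℕ :=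
  tab (six S fun c i j => dg c (Nat.add (Nat.mul i (wid S G)) j)) (nm S) 0

noncomputable def mkB (S : Tg) : List ℕ := tab (six S fun c _ j => dg c j) (nm S) 0

noncomputable def mkX (S T : Tg) (G : Win) : List (List ℕ) :=
  tab (fun i => tab (patX S T i) (Nat.succ (Nat.min i G.rc)) 0) (Nat.succ G.r1) 0

noncomputable def mkE (S T : Tg) (G : Win) : List ℕ := tab (patE S T) (Nat.succ G.rc) 0

/-- one level -/
noncomputable def step (S T : Tg) (G : Win) (w0 : ℕ) (ws : List ℕ) : ℕ → ℕ :=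
  level2 (nm S) S.ry G.r2 G.rc (Nat.succ (nm T)) (wid S G) (Nat.succ (Nat.add G.r1 G.r2))
    (Nat.succ (Nat.mul 2 S.ry)) w0 ws (mkM S G) (mkB S) (mkX S T G) (mkE S T G) (patV T)

noncomputable def iter (f : ℕ → ℕ) (n : ℕ) : ℕ → ℕ :=
  Nat.rec (motive := fun _ => ℕ → ℕ) (fun x => x) (fun _ ih x => force (f x) ih) n

def patF2 (tn td a b : ℕ) : ℕ :=
  Nat.div (Nat.mul 2 (Nat.add (Nat.mul (lo tn td a) (lo tn td b))
      (Nat.shiftLeft (Nat.add (lo tn td a) (lo tn td b)) 40)))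
    (Nat.add (Nat.add (hi tn td a) (hi tn td b)) 1099511627776)

/-- lower bound for `2^40 * 2 (u v + u + v) / (u + v + 1)` on the ray with index `J` -/
def patF (S : Tg) (J : ℕ) : ℕ :=
  patF2 S.tn S.td (Nat.div J (Nat.succ S.ry)) (Nat.mod J (Nat.succ S.ry))

noncomputable def score (S : Tg) (mw : ℕ) : ℕ :=
  Nat.add (dot (tab (patF S) (nm S) 0) mw) (Nat.shiftLeft (dig mw (nm S)) 40)

/-- repeated squaring in fixed point -/
noncomputable def sqs (n : ℕ) : ℕ → ℕ :=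
  Nat.rec (motive := fun _ => ℕ → ℕ) (fun x => x)
    (fun _ ih x => ih (Nat.shiftRight (Nat.mul x x) 100)) n

/-- lower bound for `2^40 * exp (-rn/rd)` -/
noncomputable def pz (rn rd : ℕ) : ℕ :=
  Nat.shiftRight (sqs 40 (Nat.sub 1267650600228229401496703205376
    (Nat.succ (Nat.div (Nat.shiftLeft rn 60) rd)))) 60

noncomputable def pws (rn rd n : ℕ) : ℕ → ℕ → List ℕ :=
  Nat.rec (motive := fun _ => ℕ → ℕ → List ℕ) (fun _ _ => [])
    (fun _ ih k w => Nat.div (Nat.mul w rn) (Nat.mul rd (Nat.add k 1)) ::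
      ih (Nat.add k 1) (Nat.div (Nat.mul w rn) (Nat.mul rd (Nat.add k 1)))) n

/-- the start: all the mass at a vertex -/
noncomputable def start (T : Tg) : ℕ := fin2 (Nat.succ (nm T)) (patV T) 0

end Vale.Agent.P154.AF
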