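import Vale.Agent.P154.AF.Cv

/-! The channel step and the splitting of messages onto the lattice -/

namespace Vale.Agent.P154.AF

open Finset Equiv

structure Tg.ok (S : Tg) : Prop where
  h1 : 0 < S.tn
  h2 : S.tn < S.td
  h3 : 0 < S.lq
  h4 : 2 * S.lp ≤ S.lq

noncomputable def Tg.t (S : Tg) : ℝ := S.tn / S.td

noncomputable def Tg.l (S : Tg) : ℝ := S.lp / S.lq

variable {S T : Tg}

lemma Tg.ok.t_pos (h : S.ok) : 0 < S.t :=
  div_pos (by exact_mod_cast h.h1) (by exact_mod_cast h.h1.trans h.h2)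

lemma Tg.ok.t_lt (h : S.ok) : S.t < 1 :=
  (div_lt_one (by exact_mod_cast h.h1.trans h.h2)).2 (by exact_mod_cast h.h2)

lemma Tg.l_nonneg (S : Tg) : 0 ≤ S.l := by unfold Tg.l; positivity

lemma Tg.ok.l_le (h : S.ok) : S.l ≤ 1 / 2 := by
  have h3 : (0 : ℝ) < S.lq := by exact_mod_cast h.h3
  have h4 : (2 : ℝ) * S.lp ≤ S.lq := by exact_mod_cast h.h4
  rw [Tg.l, div_le_iff₀ h3]; linarith

lemma adm_neg {l : ℝ} (h0 : 0 ≤ l) (h1 : l ≤ 1 / 2) : Adm 3 (-l) :=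
  ⟨by linarith, by push_cast; linarith⟩

lemma lo_le (S : Tg) (e : ℕ) : (lo S.tn S.td e : ℝ) ≤ 2 ^ 40 * S.t ^ e := by
  rw [lo, shl_eq]
  refine Nat.cast_div_le.trans (le_of_eq ?_)
  rw [Tg.t, div_pow]
  simp only [Nat.pow_eq]
  push_cast
  ring

lemma hi_ge (h : S.ok) (e : ℕ) : 2 ^ 40 * S.t ^ e ≤ (hi S.tn S.td e : ℝ) := by
  have h0 : 0 < S.td ^ e := pow_pos (h.h1.trans h.h2) e
  have h1 : S.tn ^ e * 2 ^ 40 < S.td ^ e * (S.tn ^ e * 2 ^ 40 / S.td ^ e + 1) :=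
    Nat.lt_mul_div_succ _ h0
  have e1 : hi S.tn S.td e = S.tn ^ e * 2 ^ 40 / S.td ^ e + 1 := by rw [hi, lo, shl_eq]; rfl
  rw [← e1] at h1
  have h2 : (S.tn : ℝ) ^ e * 2 ^ 40 < (S.td : ℝ) ^ e * hi S.tn S.td e := by exact_mod_cast h1
  have h3 : (0 : ℝ) < (S.td : ℝ) ^ e := by exact_mod_cast h0
  rw [Tg.t, div_pow, ← mul_div_assoc, div_le_iff₀ h3]
  linarith

/-- the message rays -/
noncomputable def mr (S : Tg) (J : ℕ) : Vec :=
  if J = nm S then ![0, 1, 1] else ![S.t ^ (J / (S.ry + 1)), S.t ^ (J % (S.ry + 1)), 1]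

lemma nm_eq (S : Tg) : nm S = (S.ry + 1) * (S.ry + 1) := rfl

lemma mr_lat (S : Tg) {a b : ℕ} (ha : a ≤ S.ry) (hb : b ≤ S.ry) :
    a * (S.ry + 1) + b < nm S ∧ mr S (a * (S.ry + 1) + b) = ![S.t ^ a, S.t ^ b, 1] := by
  have h : a * (S.ry + 1) + b < nm S := by rw [nm_eq]; nlinarith
  refine ⟨h, ?_⟩
  rw [mr, if_neg h.ne, Nat.mul_add_mod_of_lt (by omega), add_comm, Nat.add_mul_div_right _ _
    (by omega), Nat.div_eq_of_lt (by omega), zero_add]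

lemma mr_nonneg (h : S.ok) (J : ℕ) (i : Fin 3) : 0 ≤ mr S J i := by
  have := h.t_pos
  unfold mr
  split_ifs <;> fin_cases i <;> simp <;> positivity

lemma mr_two (S : Tg) (J : ℕ) : mr S J 2 = 1 := by unfold mr; split_ifs <;> rfl

def QM (S : Tg) (J : ℕ) (ρ : Vec) : Prop := J < nm S + 1 ∧ ρ = mr S J

/-- `P` packs message rays lying below `y`, and the mass bound `M`; or nothing -/
def Pat (T : Tg) (P : ℕ) (y : Vec) (M : ℕ) : Prop :=
  P = 0 ∨ ∃ N F, P = N + M * B ^ (nm T + 1) ∧ Fam (QM T) N F ∧ ∀ g, Cv g → Sym g → F g ≤ g y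

lemma pack_spec (h : T.ok) (y0 y1 y2 mass a1 b1 c1 a2 b2 c2 a3 b3 c3 c4 : ℕ) :
    Pat T (pack T.tn T.td T.ry y0 y1 y2 mass a1 b1 c1 a2 b2 c2 a3 b3 c3 c4)
      ![y0, y1, y2] mass := by
  unfold pack
  refine Bool.cond_eq_ite _ _ _ ▸ ?_
  split_ifs with hc
  swap
  · exact Or.inl rfl
  simp only [Bool.and_eq_true, Nat.ble_eq, shl_eq, Nat.add_eq, Nat.mul_eq] at hc
  obtain ⟨k0, k1, k2, ha1, ha2, ha3, hb1, hb2, hb3⟩ := hc
  have q : ∀ {a b}, a ≤ T.ry → b ≤ T.ry → QM T (a * (T.ry + 1) + b) ![T.t ^ a, T.t ^ b, 1] :=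
    fun ha hb => ⟨(mr_lat T ha hb).1.trans (Nat.lt_succ_self _), (mr_lat T ha hb).2.symm⟩
  have q4 : QM T (nm T) ![0, 1, 1] := ⟨Nat.lt_succ_self _, by rw [mr, if_pos rfl]⟩
  refine Or.inr ⟨_, _, congrArg₂ _ rfl (dg_eq _ _), (((Fam.single c1 (q ha1 hb1)).add
    (Fam.single c2 (q ha2 hb2))).add (Fam.single c3 (q ha3 hb3))).add (Fam.single c4 q4),
    fun g hg _ => ?_⟩
  beta_reduce
  rw [← hg.smul (Nat.cast_nonneg _), ← hg.smul (Nat.cast_nonneg _),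
    ← hg.smul (Nat.cast_nonneg _), ← hg.smul (Nat.cast_nonneg _)]
  refine le_trans ?_ (hg.mono (u := (c1 : ℝ) • ![T.t ^ a1, T.t ^ b1, 1]
    + (c2 : ℝ) • ![T.t ^ a2, T.t ^ b2, 1] + (c3 : ℝ) • ![T.t ^ a3, T.t ^ b3, 1]
    + (c4 : ℝ) • ![0, 1, 1]) fun i => ?_)
  · refine le_trans ?_ (hg.add _ _)
    refine add_le_add (le_trans ?_ (hg.add _ _)) le_rfl
    exact add_le_add (hg.add _ _) le_rfl
  have m : ∀ c e : ℕ, (c : ℝ) * (2 ^ 40 * T.t ^ e) ≤ c * hi T.tn T.td e := fun c e =>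
    mul_le_mul_of_nonneg_left (hi_ge h e) (Nat.cast_nonneg _)
  have k0' : (c1 : ℝ) * hi T.tn T.td a1 + c2 * hi T.tn T.td a2 + c3 * hi T.tn T.td a3
      ≤ y0 * 2 ^ 40 := by exact_mod_cast k0
  have k1' : (c1 : ℝ) * hi T.tn T.td b1 + c2 * hi T.tn T.td b2 + c3 * hi T.tn T.td b3
      + c4 * 2 ^ 40 ≤ y1 * 2 ^ 40 := by exact_mod_cast k1
  have k2' : (c1 : ℝ) + c2 + c3 + c4 ≤ y2 := by exact_mod_cast k2
  fin_cases i <;> simp
  · linarith [m c1 a1, m c2 a2, m c3 a3]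
  · linarith [m c1 b1, m c2 b2, m c3 b3]
  · linarith

lemma split_spec (h : T.ok) (y0 y1 y2 mass : ℕ) :
    Pat T (split T.tn T.td T.ry y0 y1 y2 mass) ![y0, y1, y2] mass := by
  unfold split split2 edge1 edge2 edge3 split3 split4
  simp only [Bool.cond_eq_ite]
  split_ifs <;> exact pack_spec h ..

/-- the antiferromagnetic channel as a linear map -/
noncomputable def chan (l : ℝ) : Vec →ₗ[ℝ] Vec where
  toFun u i := -l * u i + (1 + l) * Zm u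
  map_add' u v := by ext i; simp [Zm, sum_add_distrib]; ring
  map_smul' c u := by ext i; simp only [Zm_smul]; simp; ring

lemma chan_apply (l : ℝ) (u : Vec) (i : Fin 3) :
    chan l u i = -l * u i + (1 + l) * ((u 0 + u 1 + u 2) / 3) := by
  simp [chan, Zm, Fin.sum_univ_three]

lemma Pat.mono {P M : ℕ} {y y' : Vec} (h : Pat T P y M) (σ : Perm (Fin 3))
    (hy : ∀ i, y i ≤ y' (σ i)) : Pat T P y' M := by
  rcases h with h | ⟨N, F, h1, h2, h3⟩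
  · exact Or.inl h
  · exact Or.inr ⟨N, F, h1, h2, fun g hg hs =>
      (h3 g hg hs).trans ((hg.mono (v := y' ∘ σ) hy).trans (hs σ y').le)⟩

lemma img_spec (h : T.ok) (g u v m : ℕ) {u' v' : ℝ} (hu : (u : ℝ) ≤ 2 ^ 40 * u')
    (hv : (v : ℝ) ≤ 2 ^ 40 * v') :
    Pat T (img T g u v m) ((2 : ℝ) ^ 40 • chan T.l ((g : ℝ) • ![u', v', 1])) (g * m) := by
  have hA : ((Nat.sub T.lq (Nat.mul 2 T.lp) : ℕ) : ℝ) = T.lq - 2 * T.lp := by
    rw [Nat.sub_eq, Nat.mul_eq, Nat.cast_sub h.h4]; simp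
  unfold img img2
  generalize Nat.sub T.lq (Nat.mul 2 T.lp) = A at *
  refine (split_spec h _ _ _ _).mono (swap 0 2) fun i => ?_
  have h3 : (0 : ℝ) < T.lq := by exact_mod_cast h.h3
  have hA0 : (0 : ℝ) ≤ T.lq - 2 * T.lp := hA ▸ Nat.cast_nonneg _
  have key : ∀ (X : ℕ) (j : Fin 3), (X : ℝ) ≤ 2 ^ 40 * (-3 * T.lp * ![u', v', 1] j
      + (T.lq + T.lp) * (u' + v' + 1)) → ((Nat.div (Nat.mul g X) (Nat.mul 3 T.lq) : ℕ) : ℝ)
      ≤ ((2 : ℝ) ^ 40 • chan T.l ((g : ℝ) • ![u', v', 1])) j := fun X j hX => by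
    refine Nat.cast_div_le.trans ?_
    simp only [Nat.mul_eq]
    push_cast
    rw [div_le_iff₀ (by positivity)]
    refine (mul_le_mul_of_nonneg_left hX (Nat.cast_nonneg g : (0 : ℝ) ≤ g)).trans (le_of_eq ?_)
    simp only [Pi.smul_apply, smul_eq_mul, chan_apply, Tg.l, Matrix.cons_val_zero,
      Matrix.cons_val_one, Matrix.cons_val]
    field_simp
  have hB0 : (0 : ℝ) ≤ T.lq + T.lp := by positivity
  have mu := mul_le_mul_of_nonneg_left hu hA0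
  have mv := mul_le_mul_of_nonneg_left hv hA0
  have nu := mul_le_mul_of_nonneg_left hu hB0
  have nv := mul_le_mul_of_nonneg_left hv hB0
  fin_cases i
  · refine key _ 2 ?_
    simp only [shl_eq, Nat.add_eq, Nat.mul_eq, Matrix.cons_val]
    push_cast
    rw [hA]
    linarith
  · refine key _ 1 ?_
    simp only [Nat.add_eq, Nat.mul_eq, Matrix.cons_val_one, Matrix.cons_val_zero]
    push_cast
    rw [hA]
    linarith
  · refine key _ 0 ?_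
    simp only [Nat.add_eq, Nat.mul_eq, Matrix.cons_val_zero]
    push_cast
    rw [hA]
    linarith

end Vale.Agent.P154.AF
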