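import Vale.Agent.P154.AF.Kids

/-! Soundness of one level -/

namespace Vale.Agent.P154.AF

open Finset Equiv

variable {S T : Tg} {O O' : Type} {Y : O → Vec} {U : O' → Vec}

/-- the vector attached to a pair of exponents -/
noncomputable def vc (S : Tg) (i j : ℕ) : Vec := ![S.t ^ i / S.t ^ S.ry, S.t ^ j / S.t ^ S.ry, 1]

lemma six_spec (h : S.ok) {Q : ℕ → Vec → Prop} {f : ℕ → ℕ → ℕ → ℕ} {z : Vec}
    (hf : ∀ c i j, i ≤ 2 * S.ry → j ≤ 2 * S.ry → Fam Q (f c i j) fun Φ => c * Φ (z * vc S i j))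
    {J : ℕ} (hJ : J < nm S) : ∃ F, Fam Q (six S f J) F ∧ ∀ Φ, NH Φ →
      6 * F Φ ≤ 2 ^ 40 * ∑ σ : Perm (Fin 3), Φ (z * mr S J ∘ σ) := by
  have ht := h.t_pos
  have hb : J % (S.ry + 1) ≤ S.ry := Nat.lt_succ_iff.1 (Nat.mod_lt _ (by omega))
  have ha : J / (S.ry + 1) ≤ S.ry := Nat.lt_succ_iff.1 (Nat.div_lt_of_lt_mul hJ)
  rw [mr, if_neg hJ.ne]
  change ∃ F, Fam Q (six2 S.ry f (J / (S.ry + 1)) (J % (S.ry + 1))
    (lo S.tn S.td (J / (S.ry + 1)) / 6) (lo S.tn S.td (J % (S.ry + 1)) / 6)) F ∧ _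
  generalize J / (S.ry + 1) = a at *
  generalize J % (S.ry + 1) = b at *
  refine ⟨_, (((hf _ (S.ry + a) (S.ry + b) (by omega) (by omega)).add
    (hf _ (S.ry + b) (S.ry + a) (by omega) (by omega))).add
    ((hf _ (S.ry - b + a) (S.ry - b) (by omega) (by omega)).add
    (hf _ (S.ry - b) (S.ry - b + a) (by omega) (by omega)))).add
    ((hf _ (S.ry - a + b) (S.ry - a) (by omega) (by omega)).add
    (hf _ (S.ry - a) (S.ry - a + b) (by omega) (by omega))), fun Φ hΦ => ?_⟩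
  have H := hΦ.mul z
  rw [sum_perm3 (fun w => Φ (z * w))]
  beta_reduce
  set Ψ : Vec → ℝ := fun w => Φ (z * w)
  have w6 : ∀ e, 6 * ((lo S.tn S.td e / 6 : ℕ) : ℝ) ≤ 2 ^ 40 * S.t ^ e := fun e => by
    refine le_trans ?_ (lo_le S e)
    exact_mod_cast Nat.mul_div_le _ _
  have e1 : ∀ x y, vc S (S.ry + x) (S.ry + y) = ![S.t ^ x, S.t ^ y, 1] := fun x y => by
    ext i; fin_cases i <;> simp [vc, pow_add, (pow_pos ht _).ne']
  have e2 : ∀ x y, y ≤ S.ry → ![S.t ^ x, 1, S.t ^ y]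
      = S.t ^ y • vc S (S.ry - y + x) (S.ry - y) := fun x y hy => by
    ext i; fin_cases i <;> simp [vc, pow_add, pow_sub₀ _ ht.ne' hy] <;> field_simp
  have e3 : ∀ x y, y ≤ S.ry → ![1, S.t ^ x, S.t ^ y]
      = S.t ^ y • vc S (S.ry - y) (S.ry - y + x) := fun x y hy => by
    ext i; fin_cases i <;> simp [vc, pow_add, pow_sub₀ _ ht.ne' hy] <;> field_simp
  change 6 * (_ * Ψ _ + _ * Ψ _ + (_ * Ψ _ + _ * Ψ _) + (_ * Ψ _ + _ * Ψ _))
    ≤ _ * (Ψ _ + Ψ _ + (Ψ _ + Ψ _) + (Ψ _ + Ψ _))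
  rw [e1, e1, e2 a b hb, e2 b a ha, e3 a b hb, e3 b a ha]
  simp only [H.smul _ _ (pow_pos ht _).le]
  have m := fun e v => mul_le_mul_of_nonneg_right (w6 e) (H.nonneg v)
  have n1 := H.nonneg ![S.t ^ a, S.t ^ b, 1]
  have n2 := H.nonneg ![S.t ^ b, S.t ^ a, 1]
  have a1 := m b (vc S (S.ry - b + a) (S.ry - b))
  have a2 := m b (vc S (S.ry - b) (S.ry - b + a))
  have a3 := m a (vc S (S.ry - a + b) (S.ry - a))
  have a4 := m a (vc S (S.ry - a) (S.ry - a + b))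
  push_cast
  linarith

noncomputable def cw (mw J : ℕ) : ℝ := dig mw J / (6 * 2 ^ 40)

lemma cw_nonneg (mw J : ℕ) : 0 ≤ cw mw J := by unfold cw; positivity

noncomputable def LL (S : Tg) (mw : ℕ) : ℕ → (Vec → ℝ) → ℝ := Lam (nm S + 1) (cw mw) (mr S)

lemma cv_two : Cv fun w => w 2 :=
  ⟨⟨by fun_prop, fun u v => by simp [add_comm], fun c u _ => by simp⟩, fun i => sing_nonneg i 2⟩

lemma LL_le (h : S.ok) (hY : IsExp Y) {mw : ℕ} (hs : St S Y mw) (k : ℕ) {g : Vec → ℝ}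
    (hg : Cv g) : LL S mw k g ≤ Ex (powE Y k) g :=
  Lam_le (cw_nonneg mw) (mr_nonneg h) hY (fun g hg sg => by
    have := hs g hg sg
    have e : ∑ J ∈ range (nm S + 1), 6 * cw mw J * g (mr S J)
        = (∑ J ∈ range (nm S + 1), dig mw J * g (mr S J)) / 2 ^ 40 := by
      rw [sum_div]
      exact sum_congr rfl fun J _ => by unfold cw; ring
    rw [e, div_le_iff₀ (by positivity)]
    linarith) k hg

lemma LL_mass (h : S.ok) (hY : IsExp Y) {mw : ℕ} (hs : St S Y mw) (k : ℕ) :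
    LL S mw k (fun w => |w 2|) ≤ 1 := by
  refine (Lam_mono (cw_nonneg mw) (mr_nonneg h) k (Ψ := fun w => w 2)
    fun w hw => (abs_of_nonneg (hw 2)).le).trans ((LL_le h hY hs k cv_two).trans (le_of_eq ?_))
  exact (cv_two.hasSum (hY.pow k)).unique ((hY.pow k).sum 2)

/-- lattice part of the symmetrised message law -/
noncomputable def SL (S : Tg) (mw : ℕ) : (Vec → ℝ) → ℝ := Sf (nm S) (cw mw) (mr S)

lemma dot_six (h : S.ok) {Q : ℕ → Vec → Prop} {f : ℕ → ℕ → ℕ → ℕ} {z : Vec}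
    (hf : ∀ c i j, i ≤ 2 * S.ry → j ≤ 2 * S.ry → Fam Q (f c i j) fun Φ => c * Φ (z * vc S i j))
    (mw : ℕ) : ∃ F, Fam Q (dot (tab (six S f) (nm S) 0) mw) F ∧ ∀ Φ, NH Φ →
      F Φ ≤ 2 ^ 40 * (2 ^ 40 * SL S mw fun y => Φ (z * y)) := by
  have : ∀ J, ∃ F, J < nm S → Fam Q (six S f J) F ∧ ∀ Φ, NH Φ →
      6 * F Φ ≤ 2 ^ 40 * ∑ σ : Perm (Fin 3), Φ (z * mr S J ∘ σ) := fun J => by
    by_cases hJ : J < nm S
    · exact (six_spec h hf hJ).imp fun F hF _ => hF
    · exact ⟨fun _ => 0, fun e => absurd e hJ⟩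
  choose F hF using this
  rw [dot_tab]
  simp only [zero_add]
  refine ⟨_, Fam.sum _ fun J hJ => (hF J (mem_range.1 hJ)).1.smul (dig mw J), fun Φ hΦ => ?_⟩
  simp only [SL, Sf, mul_sum (range (nm S))]
  refine sum_le_sum fun J hJ => ?_
  have := mul_le_mul_of_nonneg_left ((hF J (mem_range.1 hJ)).2 Φ hΦ)
    (Nat.cast_nonneg (dig mw J) : (0 : ℝ) ≤ _)
  unfold cw
  linarith

lemma lev_spec (h : S.ok) (hY : IsExp Y) {mw : ℕ} (hs : St S Y mw) (G : Win) :
    Lev S.t (wid S G) S.ry (G.r1 + G.r2 + 1)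
      (ms (dot (mkM S G) mw) 0 (mask2 (wid S G) (2 * S.ry + 1) (2 * S.ry + 1)))
      (ms (dot (mkB S) mw) 0 (mask1 (2 * S.ry + 1))) (dig mw (nm S) / 3) (LL S mw) := by
  have hW : G.r1 + G.r2 + 1 + 2 * S.ry = wid S G := rfl
  have ht := h.t_pos
  obtain ⟨F1, f1, g1⟩ := dot_six h (Q := QA S.t (wid S G) (0 + S.ry) (2 * S.ry + 1)) (z := 1)
    (f := fun c i j => dg c (i * wid S G + j)) (fun c i j _ hj => Fam.single c ⟨by
      rw [Nat.mul_add_mod_of_lt (by omega)]; omega, by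
      rw [one_mul, rA, vc, Nat.mul_add_mod_of_lt (by omega), add_comm (i * _),
        Nat.add_mul_div_right _ _ (by omega), Nat.div_eq_of_lt (by omega), zero_add,
        zero_add]⟩) mw
  obtain ⟨F2, f2, g2⟩ := dot_six h (Q := QE S.t (0 + S.ry)) (z := z0)
    (f := fun c _ j => dg c j) (fun c i j _ _ => Fam.single c (by
      unfold QE rE z0 vc
      ext i
      fin_cases i <;> simp)) mw
  have sp : ∀ Φ, NH Φ → SL S mw Φ + (dig mw (nm S) / 3 : ℕ) / 2 ^ 40 * Φ z0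
      ≤ Sf (nm S + 1) (cw mw) (mr S) Φ := fun Φ hΦ => by
    rw [Sf, sum_range_succ, mr, if_pos rfl, sum_perm3]
    refine add_le_add le_rfl ?_
    have a : ((dig mw (nm S) / 3 : ℕ) : ℝ) ≤ dig mw (nm S) / (3 : ℕ) := Nat.cast_div_le
    have b := mul_le_mul_of_nonneg_right a (hΦ.nonneg ![0, 1, 1])
    have c := mul_nonneg (cw_nonneg mw (nm S)) (add_nonneg (hΦ.nonneg ![1, 0, 1])
      (hΦ.nonneg ![1, 1, 0]))
    unfold cw z0 at *
    push_cast at b
    linarith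
  have m1 : SL S mw (fun w => |w 2|) ≤ 1 := by
    have a := sp _ nh_abs
    have b := LL_mass h hY hs 1
    simp only [LL, Lam, mul_one] at b
    have : (0 : ℝ) ≤ (dig mw (nm S) / 3 : ℕ) / 2 ^ 40 * |z0 2| := by positivity
    linarith
  have e3 : (fun w : Vec => |(z0 * w) 2|) = fun w => |w 2| := by ext w; simp [z0]
  simp only [one_mul] at g1
  refine ⟨ht, hW, by omega, canA (by omega) (by omega), LL_mass h hY hs,
    fun k Φ Ψ Θ hΦ hΨ hΘ hy => ?_⟩
  have a1 := msA (s := 0) (h := 2 * S.ry + 1) (w := 2 * S.ry + 1) ht (by omega) (by omega) f1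
    (by linarith [g1 _ nh_abs]) hΨ
  have a2 := msE (s := 0) (w := 2 * S.ry + 1) ht f2
    (by have := g2 _ nh_abs; rw [e3] at this; linarith) hΘ
  have a3 := sp _ (hΦ.lam (n := nm S + 1) (cw_nonneg mw) (mr_nonneg h) k)
  have a4 : SL S mw Ψ + (SL S mw fun y => Θ (z0 * y))
      ≤ 2 ^ 40 * SL S mw fun y => LL S mw k fun w => Φ (y * w) := by
    simp only [SL, Sf, ← sum_add_distrib, mul_sum (range (nm S))]
    refine sum_le_sum fun J _ => ?_
    rw [← mul_add, mul_left_comm, ← sum_add_distrib, mul_sum univ _ (2 ^ 40)]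
    exact mul_le_mul_of_nonneg_left (sum_le_sum fun σ _ => hy _) (cw_nonneg _ _)
  have a5 := g1 _ hΨ
  have a6 := g2 _ hΘ
  rw [zero_mul, add_zero] at a1
  change (SL S mw fun y => LL S mw k fun w => Φ (y * w)) + _ * (LL S mw k fun w => Φ (z0 * w))
    ≤ LL S mw (k + 1) Φ at a3
  rw [show mkM S G = tab (six S fun c i j => dg c (i * wid S G + j)) (nm S) 0 from rfl,
    show mkB S = tab (six S fun c _ j => dg c j) (nm S) 0 from rfl]
  linarith

lemma gm_lat (h : S.ok) {i j : ℕ} (hij : j ≤ i) : gm ![S.t ^ i, S.t ^ j, 1] = gam i j := by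
  have lt : ∀ {a b : ℕ}, a < b → S.t ^ b < S.t ^ a := fun hab =>
    pow_lt_pow_right_of_lt_one₀ h.t_pos h.t_lt hab
  have l1 : ∀ {b : ℕ}, 0 < b → S.t ^ b < 1 := fun hb => by simpa using lt hb
  simp only [gm, gam, Bool.cond_eq_ite, Bool.or_eq_true, Nat.beq_eq, Matrix.cons_val_zero,
    Matrix.cons_val_one, Matrix.cons_val]
  rcases hij.eq_or_lt with rfl | hij
  · rcases j.eq_zero_or_pos with rfl | hj
    · simp
    · simp [l1 hj, hj.ne']
  · rcases j.eq_zero_or_pos with rfl | hj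
    · simp [l1 hij, hij.ne']
    · simp [lt hij, l1 hj, hj.ne', hij.ne', (hj.trans hij).ne']

lemma gm_edge (h : S.ok) (j : ℕ) :
    gm ![0, S.t ^ j, 1] = (cond (Nat.beq j 0) 3 6 : ℕ) := by
  have := pow_pos h.t_pos j
  simp only [gm, Bool.cond_eq_ite, Nat.beq_eq, Matrix.cons_val_zero,
    Matrix.cons_val_one, Matrix.cons_val]
  rcases j.eq_zero_or_pos with rfl | hj
  · simp
  · simp [this, pow_lt_one₀ h.t_pos.le h.t_lt hj.ne', hj.ne']

lemma fin1_spec (hS : S.ok) (hT : T.ok) (hU : IsExp U) (G : Win) {X : (Vec → ℝ) → ℝ}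
    (hX1 : X (fun w => |w 2|) ≤ 1)
    (hX : ∀ g, Cv g → Sym g → X (fun w => max (g w) 0 * gm w) ≤ Ex U g) {OA OE : ℕ}
    (h : Out S.t (wid S G) G.r2 (G.r1 + G.r2 + 1) X OA OE) :
    St T (shE (-T.l) U) (fin1 (nm T + 1) (wid S G) G.r2 G.rc
      (mask2 (wid S G) (G.r1 + G.r2 + 1) (G.r1 + G.r2 + 1)) (mask1 (G.r1 + G.r2 + 1))
      (mkX S T G) (mkE S T G) (patV T) OA OE) := by
  obtain ⟨fA, fE, h1, h2, h3⟩ := h
  have ht := hS.t_pos
  have hW : G.r1 + G.r2 + 1 + 2 * S.ry = wid S G := rfl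
  generalize wid S G = W at *
  set A := ms OA (G.r2 * W + G.r2) (mask2 W (G.r1 + G.r2 + 1) (G.r1 + G.r2 + 1))
  set E := ms OE G.r2 (mask1 (G.r1 + G.r2 + 1))
  have e : fin1 (nm T + 1) W G.r2 G.rc (mask2 W (G.r1 + G.r2 + 1) (G.r1 + G.r2 + 1))
      (mask1 (G.r1 + G.r2 + 1)) (mkX S T G) (mkE S T G) (patV T) OA OE
      = fin2 (nm T + 1) (patV T) (∑ j ∈ range (G.rc + 1), dig E j * patE S T j
        + ∑ a ∈ (range (G.r1 + 1)).sigma fun i => range (min i G.rc + 1),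
          dig A (a.2 + a.1 * W) * patX S T a.1 a.2) := by
    change fin2 _ _ (dot (tab (patE S T) (G.rc + 1) 0) E + dot2 (88 * W)
      (Nat.shiftLeft 1 (88 * (G.rc + 1)))
      (tab (fun i => tab (patX S T i) (min i G.rc + 1) 0) (G.r1 + 1) 0) A) = _
    rw [dot_tab, dot2_tab, sum_sigma, shl_eq, one_mul, Bpow]
    simp only [zero_add, dot_tab]
    congr 2
    refine sum_congr rfl fun i _ => sum_congr rfl fun j hj => ?_
    rw [dig_mod _ _ _ (by have := mem_range.1 hj; omega), dig_div]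
  rw [e]
  have c40 : ((1099511627776 : ℕ) : ℝ) = 2 ^ 40 := by norm_num
  refine fin2_spec hT hU ((Acc.sum _ fun j _ => Pat.acc (img_spec hT _ _ _ _ (u' := 0)
    (v' := S.t ^ j) (by simp) (lo_le S j)) (fun i => ?_) ?_ _).add
    (Acc.sum _ fun a _ => Pat.acc (img_spec hT _ _ _ _ (lo_le S a.1) (lo_le S a.2))
      (fun i => ?_) ?_ _)) fun g hg hs => ?_
  · fin_cases i <;> simp <;> positivity
  · have := mul_le_mul_of_nonneg_left (hi_ge hS j)
      (Nat.cast_nonneg (cond (Nat.beq j 0) 3 6 : ℕ) : (0 : ℝ) ≤ _)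
    simp only [sm, Nat.add_eq, Nat.cast_mul, Nat.cast_add, c40, Pi.smul_apply, smul_eq_mul,
      Matrix.cons_val_zero, Matrix.cons_val_one, Matrix.cons_val]
    linarith
  · fin_cases i <;> simp <;> positivity
  · have a1 := mul_le_mul_of_nonneg_left (hi_ge hS a.1) (Nat.cast_nonneg (gam a.1 a.2) : (0 : ℝ) ≤ _)
    have a2 := mul_le_mul_of_nonneg_left (hi_ge hS a.2) (Nat.cast_nonneg (gam a.1 a.2) : (0 : ℝ) ≤ _)
    simp only [sm, Nat.add_eq, Nat.cast_mul, Nat.cast_add, c40, Pi.smul_apply, smul_eq_mul,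
      Matrix.cons_val_zero, Matrix.cons_val_one, Matrix.cons_val]
    linarith
  have H := hg.nh
  have m := h3 _ nh_abs
  have n1 := h1.nonneg (Φ := fun w => |w 2|) fun _ _ _ => abs_nonneg _
  have n2 := h2.nonneg (Φ := fun w => |w 2|) fun _ _ _ => abs_nonneg _
  have b1 := h1.read_ms (fun J ρ q => by rw [q.2]; rfl) (by rw [B_real]; linarith)
    (G.r2 * W + G.r2) _ (fun j => (dig_mask2 W (G.r1 + G.r2 + 1) (G.r1 + G.r2 + 1) j (by omega)
      (by omega)).1) ((range (G.r1 + 1)).sigma fun i => range (min i G.rc + 1))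
    (fun a => a.2 + a.1 * W) (fun a ha b hb e => by
      simp only [coe_sigma, Set.mem_sigma_iff, coe_range, Set.mem_Iio] at ha hb
      have e1 := congrArg (· % W) e
      have e2 := congrArg (· / W) e
      simp only [Nat.add_mul_mod_self_right, Nat.add_mul_div_right _ _ (show 0 < W by omega),
        Nat.mod_eq_of_lt (show a.2 < W by omega), Nat.mod_eq_of_lt (show b.2 < W by omega),
        Nat.div_eq_of_lt (show a.2 < W by omega), Nat.div_eq_of_lt (show b.2 < W by omega),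
        zero_add] at e1 e2
      exact Sigma.ext e2 (heq_of_eq e1))
    (fun a => ![S.t ^ a.1, S.t ^ a.2, 1]) (fun a ha _ ρ q => by
      simp only [mem_sigma, mem_range] at ha
      have e1 : (a.2 + a.1 * W) % W = a.2 := by
        rw [Nat.add_mul_mod_self_right, Nat.mod_eq_of_lt (by omega)]
      have := rA_shift (W := W) (R := 0) (J := a.2 + a.1 * W) (s := G.r2) ht (by omega)
      rw [add_zero] at this
      rw [q.2, this, rA, e1, Nat.add_mul_div_right _ _ (by omega), Nat.div_eq_of_lt (by omega)]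
      simp) (Φ := fun w => max (g w) 0 * gm w) (fun _ _ _ => H.nonneg _) fun _ _ => H.nonneg _
  have b2 := h2.read_ms (fun J ρ q => by rw [q]; rfl) (by rw [B_real]; linarith)
    G.r2 _ (fun j => (dig_mask1 (G.r1 + G.r2 + 1) j).1) (range (G.rc + 1)) id (Set.injOn_id _)
    (fun j => ![0, S.t ^ j, 1]) (fun a _ _ ρ q => by
      have := rE_shift (R := 0) ht a G.r2
      rw [add_zero] at this
      rw [q, id, this, rE]
      simp) (Φ := fun w => max (g w) 0 * gm w) (fun _ _ _ => H.nonneg _) fun _ _ => H.nonneg _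
  have c1 : ∑ a ∈ (range (G.r1 + 1)).sigma fun i => range (min i G.rc + 1),
      (dig A (a.2 + a.1 * W) : ℝ) * g ((gam a.1 a.2 : ℝ) • ![S.t ^ a.1, S.t ^ a.2, 1])
      ≤ ∑ a ∈ (range (G.r1 + 1)).sigma fun i => range (min i G.rc + 1), dig A (a.2 + a.1 * W)
        * (max (g ![S.t ^ a.1, S.t ^ a.2, 1]) 0 * gm ![S.t ^ a.1, S.t ^ a.2, 1]) :=
    sum_le_sum fun a ha => by
      simp only [mem_sigma, mem_range] at ha
      rw [gm_lat hS (by omega), hg.smul (Nat.cast_nonneg _), mul_comm (max _ _)]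
      gcongr
      exact le_max_left _ _
  have c2 : ∑ j ∈ range (G.rc + 1),
      (dig E j : ℝ) * g (((cond (Nat.beq j 0) 3 6 : ℕ) : ℝ) • ![0, S.t ^ j, 1])
      ≤ ∑ j ∈ range (G.rc + 1), dig E j * (max (g ![0, S.t ^ j, 1]) 0 * gm ![0, S.t ^ j, 1]) :=
    sum_le_sum fun j _ => by
      rw [gm_edge hS, hg.smul (Nat.cast_nonneg _), mul_comm (max _ _)]
      gcongr
      exact le_max_left _ _
  have c3 := h3 _ H
  have c4 := hX g hg hs
  simp only [id] at b2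
  beta_reduce
  linarith

theorem step_spec (hS : S.ok) (hT : T.ok) (hY : IsExp Y) (hU : IsExp U) {p : ℕ → ℝ}
    (hp : ∀ k, 0 ≤ p k) (h1 : HasSum p 1) (D : Dom U (mixE p (powE Y))) (G : Win) {w0 : ℕ}
    {ws : List ℕ} (hw0 : (w0 : ℝ) ≤ 2 ^ 40 * p 0) (hw : Wok p 0 ws) {mw : ℕ} (hs : St S Y mw) :
    St T (shE (-T.l) U) (step S T G w0 ws mw) := by
  have ht := hS.t_pos
  have hW : G.r1 + G.r2 + 1 + 2 * S.ry = wid S G := rfl
  have r1 : rA S.t (wid S G) G.r2 (G.r2 * wid S G + G.r2) = 1 := by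
    have := rA_shift (W := wid S G) (R := 0) (J := 0) (s := G.r2) ht (by simp; omega)
    rw [add_zero, zero_add] at this
    rw [this]
    ext i; fin_cases i <;> simp [rA]
  have q1 : QA S.t (wid S G) G.r2 (G.r1 + G.r2 + 1) (G.r2 * wid S G + G.r2) 1 :=
    ⟨by rw [Nat.mul_add_mod_of_lt (by omega)]; omega, r1.symm⟩
  have c40 : ((1099511627776 : ℕ) : ℝ) = 2 ^ 40 := by norm_num
  have lt40 : 1099511627776 < B := by unfold B; norm_num
  have vs : ∀ (r : ℕ → Vec) (J : ℕ) (Φ : Vec → ℝ), NH Φ →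
      V r (dg 1099511627776 J) Φ ≤ 2 ^ 40 * Φ (r J) ∧
      ∀ I, dig (dg 1099511627776 J) I ≠ 0 → I = J := fun r J Φ hΦ => by
    have d : ∀ I, dig (dg 1099511627776 J) I = if J = I then 1099511627776 else 0 := fun I => by
      have := dig_fam {()} (fun _ => J) (fun _ => 1099511627776) (by simpa using lt40) I
      rw [sum_singleton, sum_filter, sum_singleton] at this
      rw [dg_eq, this]
    refine ⟨?_, fun I hI => by rw [d] at hI; by_contra e; exact hI (if_neg (Ne.symm e))⟩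
    simp only [V, d, Nat.cast_ite, c40, Nat.cast_zero, ite_mul, zero_mul, sum_ite_eq]
    split_ifs
    · exact le_rfl
    · have := hΦ.nonneg (r J); positivity
  refine (lev_spec hS hY hs G).kids (r2 := G.r2) (p := p) (Goal := St T (shE (-T.l) U))
    (fun k OA OE h => fin1_spec hS hT hU G ?_ (fun g hg sg => ?_) h) ws 0 _ 0 _ _ 0 hw
    ⟨Fam.canon fun J e => ?_, fun Φ hΦ => ⟨?_, ?_⟩⟩
    ⟨_, _, (Fam.single 1099511627776 q1).smul w0, Fam.zero, fun Φ hΦ => ?_⟩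
  · refine le_trans (sum_le_sum fun j _ => ?_) (sum_le_hasSum _ (fun j _ => hp j) h1)
    exact mul_le_of_le_one_right (hp j) (LL_mass hS hY hs j)
  · refine le_trans (sum_le_sum fun j _ => ?_) ((sum_le_hasSum _ (fun j _ => mul_nonneg (hp j)
      ((hY.pow j).ex_nonneg hg.cont fun a ha => hg.nonneg ha.1))
      (IsExp.hasSum_mix hp h1 hY.pow hg.cont)).trans (hg.dom D))
    exact mul_le_mul_of_nonneg_left ((Lam_chamber (cw_nonneg mw) (mr_nonneg hS) hg sg j).trans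
      (LL_le hS hY hs j hg)) (hp j)
  · rw [(vs (fun _ => 0) _ _ nh_zero).2 J e]
    exact ⟨q1.1, rfl⟩
  · have := (vs (rA S.t (wid S G) G.r2) (G.r2 * wid S G + G.r2) Φ hΦ).1
    rw [r1] at this
    simpa [V, LL, Lam] using this
  · have := (vs (rE S.t G.r2) G.r2 Φ hΦ).1
    rw [rE_self ht] at this
    simpa [LL, Lam] using this
  · have := mul_le_mul_of_nonneg_right hw0 (hΦ.nonneg 1)
    simp only [c40, zero_add, range_one, sum_singleton, LL, Lam]
    linarith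

end Vale.Agent.P154.AF
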